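import Vale.Agent.P180.R2.H259.Loc.QdR
import Vale.Agent.P180.R2.H854.FormNorm

set_option linter.all false

/-!
P180: quadratic forms in characteristic two: isometries of even rank, the group `Ω(Q)`, unipotent
radicals of the stabilisers of singular flags.
-/

namespace Vale.Agent.P180.R2.H259.Oq

open Module Vale.Agent.P180.R2.H854 Vale.Agent.P180 Vale.Agent.P180.R2.H259.Loc

variable {K E : Type*} [Field K] [AddCommGroup E] [Module K E] {Φ : HForm K E}
  {Q : E → K}

/-- `X` is the group of the isometries of `Q` of even rank -/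
def OmX (Q : E → K) (X : Subgroup (SpecialLinearGroup K E)) : Prop :=
  ∀ g, g ∈ X ↔ g ∈ IsoQ Q ∧ Even (finrank K (LinearMap.range (toEnd g - 1)))

/-- selfdual flags with singular isotropic members -/
def CQ (Φ : HForm K E) (Q : E → K) (F : Flag K E) : Prop :=
  Φ.SD F ∧ ∀ i, F i ≤ Φ.perp (F i) → ∀ x ∈ F i, Q x = 0

variable (hQ : QF Φ Q) [FiniteDimensional K E] [Finite K]

include hQ in
/-- **isometries which act trivially on the quotient of the orthogonal space of a singular
subspace have even rank** -/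
theorem even_rank_gen {W : Submodule K E} (hiso : W ≤ Φ.perp W) (hW : ∀ w ∈ W, Q w = 0)
    {v : SpecialLinearGroup K E} (hv : v ∈ IsoQ Q) (hvW : ∀ x ∈ Φ.perp W, v x - x ∈ W) :
    Even (finrank K (LinearMap.range (toEnd v - 1))) := by
  haveI : Finite E := Module.finite_of_finite K
  set N : End K E := toEnd v - 1 with hN
  have hNx : ∀ x, N x = v x - x := fun x => rfl
  have n1 : ∀ x ∈ Φ.perp W, N x ∈ W := fun x hx => hvW x hx
  have hvI : ∀ x y, Φ.B (v x) (v y) = Φ.B x y := hQ.le hv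
  have hr : ∀ x y, Φ.B (N x) y + Φ.B x (N y) + Φ.B (N x) (N y) = 0 := by
    intro x y
    have h1 := hvI x y
    have e1 : v x = x + N x := by rw [hNx]; abel
    have e2 : v y = y + N y := by rw [hNx]; abel
    rw [e1, e2, Φ.add_left, Φ.add_right, Φ.add_right] at h1
    linear_combination h1
  have qr : ∀ x, Q (N x) + Φ.B x (N x) = 0 := by
    intro x
    have h1 := hv x
    have e1 : v x = x + N x := by rw [hNx]; abel
    rw [e1, hQ.add] at h1
    linear_combination h1
  set A := (Φ.perp W).map N with hA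
  have hAW : A ≤ W := by
    rintro _ ⟨x, hx, rfl⟩
    exact n1 x hx
  let S : Set (Submodule K E) := {U | A ≤ U ∧ U ≤ LinearMap.range N ∧ U ≤ W ∧
    ∀ u ∈ U, ∀ y, N y ∈ U → Φ.B u y = 0}
  have hAS : A ∈ S := by
    refine ⟨le_rfl, ?_, hAW, ?_⟩
    · rintro _ ⟨x, -, rfl⟩
      exact ⟨x, rfl⟩
    · rintro _ ⟨x, hx, rfl⟩ y hy
      have h1 := hr x y
      have h2 : Φ.B x (N y) = 0 := hx _ (hAW hy)
      have h3 : Φ.B (N x) (N y) = 0 := hiso (n1 x hx) _ (hAW hy)
      rw [h2, h3, add_zero, add_zero] at h1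
      exact h1
  obtain ⟨U, ⟨hAU, hUR, hUW, hU⟩, hmax⟩ :=
    (wellFounded_gt : WellFounded ((· > ·) : Submodule K E → Submodule K E → Prop)).has_min S
      ⟨A, hAS⟩
  -- the kernel and the range
  have hker : Φ.perp (LinearMap.range N) ≤ LinearMap.ker N := by
    intro z hz
    rw [LinearMap.mem_ker]
    apply Φ.nondeg
    intro x
    have h1 := hr z (v⁻¹ x)
    have h2 : Φ.B z (N (v⁻¹ x)) = 0 := hz _ ⟨_, rfl⟩
    rw [h2, add_zero, ← Φ.add_right] at h1
    have e : v⁻¹ x + N (v⁻¹ x) = x := by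
      rw [hNx, apply_inv_self']
      abel
    rwa [e] at h1
  have hkr : Φ.perp (LinearMap.ker N) ≤ LinearMap.range N := by
    have h1 := Φ.perp_anti hker
    rwa [Φ.perp_perp] at h1
  set P := U.comap N with hP
  have hWP : Φ.perp W ≤ P := fun x hx => hAU ⟨x, hx, rfl⟩
  have hkP : LinearMap.ker N ≤ P := by
    intro x hx
    rw [LinearMap.mem_ker] at hx
    rw [hP, Submodule.mem_comap, hx]
    exact U.zero_mem
  have hUP : U ≤ Φ.perp P := fun u hu y hy => hU u hu y hy
  have hPU : Φ.perp P ≤ U := by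
    intro r hrP
    by_contra hrU
    have hrR : r ∈ LinearMap.range N := hkr (Φ.perp_anti hkP hrP)
    have hrW : r ∈ W := by
      have h1 := Φ.perp_anti hWP hrP
      rwa [Φ.perp_perp] at h1
    obtain ⟨yr, hyr⟩ := hrR
    refine hmax (U ⊔ Submodule.span K {r}) ⟨hAU.trans le_sup_left, ?_, ?_, ?_⟩ ?_
    · refine sup_le hUR ?_
      rw [Submodule.span_singleton_le_iff_mem]
      exact ⟨yr, hyr⟩
    · refine sup_le hUW ?_
      rwa [Submodule.span_singleton_le_iff_mem]
    · intro u' hu' y hy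
      obtain ⟨u, hu, s, hs, rfl⟩ := Submodule.mem_sup.mp hu'
      obtain ⟨a, rfl⟩ := Submodule.mem_span_singleton.mp hs
      obtain ⟨u1, hu1, s1, hs1, hNy⟩ := Submodule.mem_sup.mp hy
      obtain ⟨b, rfl⟩ := Submodule.mem_span_singleton.mp hs1
      have hy1 : N (y - b • yr) ∈ U := by
        rw [map_sub, map_smul, hyr, ← hNy, add_sub_cancel_right]
        exact hu1
      have e : y = (y - b • yr) + b • yr := by abel
      have h1 : Φ.B u (y - b • yr) = 0 := hU u hu _ hy1
      have h2 : Φ.B r (y - b • yr) = 0 := hrP _ hy1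
      have h3 : Φ.B r yr = 0 := by
        have h4 := qr yr
        rw [hyr, hW r hrW, zero_add] at h4
        exact Φ.eq_zero_comm h4
      have h4 : Φ.B u yr = 0 := by
        obtain ⟨yu, hyu⟩ := hUR hu
        have h5 := hr yu yr
        have h6 : Φ.B r yu = 0 := hrP yu (by rw [hP, Submodule.mem_comap, hyu]; exact hu)
        rw [hyu, hyr, Φ.eq_zero_comm h6, hiso (hUW hu) r hrW, add_zero, add_zero] at h5
        exact h5
      rw [e, Φ.add_left, Φ.add_right, Φ.add_right, h1, Φ.smul_left, Φ.smul_left, h2, hQ.smul_r,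
        hQ.smul_r, h3, h4]
      ring
    · refine lt_of_le_of_ne le_sup_left ?_
      intro heq
      apply hrU
      rw [heq]
      exact Submodule.mem_sup_right (Submodule.mem_span_singleton_self r)
  have hUeq : Φ.perp P = U := le_antisymm hPU hUP
  -- dimensions
  have d1 := Φ.finrank_add_finrank_perp P
  rw [hUeq] at d1
  have d2 := LinearMap.finrank_range_add_finrank_ker N
  have d3 := LinearMap.finrank_range_add_finrank_ker (N.domRestrict P)
  have d4 : finrank K (LinearMap.range (N.domRestrict P)) = finrank K U := by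
    have : LinearMap.range (N.domRestrict P) = U := by
      apply le_antisymm
      · rintro _ ⟨x, rfl⟩
        exact x.2
      · intro u hu
        obtain ⟨y, hy⟩ := hUR hu
        exact ⟨⟨y, by rw [hP, Submodule.mem_comap, hy]; exact hu⟩, hy⟩
    rw [this]
  have d5 : finrank K (LinearMap.ker (N.domRestrict P)) = finrank K (LinearMap.ker N) := by
    have : LinearMap.ker (N.domRestrict P) = (LinearMap.ker N).comap P.subtype := by
      ext x
      rfl
    rw [this]
    exact LinearEquiv.finrank_eq (Submodule.comapSubtypeEquivOfLe hkP)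
  refine ⟨finrank K U, ?_⟩
  omega


include hQ in
theorem mem_X {X : Subgroup (SpecialLinearGroup K E)} (hX : OmX Q X) {W : Submodule K E}
    (hiso : W ≤ Φ.perp W) (hW : ∀ w ∈ W, Q w = 0) {v : SpecialLinearGroup K E} (hv : v ∈ IsoQ Q)
    (hvW : ∀ x ∈ Φ.perp W, v x - x ∈ W) : v ∈ X :=
  (hX v).mpr ⟨hv, even_rank_gen hQ hiso hW hv hvW⟩

include hQ in
/-- the unipotent radicals of singular flags -/
theorem VF_le_X {X : Subgroup (SpecialLinearGroup K E)} (hX : OmX Q X) {F : Flag K E}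
    (hF : CQ Φ Q F) : VF F ⊓ IsoQ Q ≤ X := by
  rintro g ⟨hg, hgQ⟩
  obtain ⟨⟨N, h0, hN, hFN⟩, hs⟩ := hF
  have hiso : F (N / 2) ≤ Φ.perp (F (N / 2)) := by
    rw [hFN _ (Nat.div_le_self N 2)]
    exact F.mono (by omega)
  refine mem_X hQ hX hiso (hs _ hiso) hgQ ?_
  intro x hx
  rw [hFN _ (Nat.div_le_self N 2)] at hx
  have h1 : x ∈ F (N / 2 + 1) := F.mono (by omega) hx
  exact mem_VF_iff.mp hg _ x h1


/-- the unipotent radical of a larger stabiliser -/
theorem VF_flag2_le {F : Flag K E} {N : ℕ} (hF : ∀ i ≤ N, Φ.perp (F i) = F (N - i)) {i : ℕ}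
    (hi : i ≤ N) (hiso : F i ≤ Φ.perp (F i)) : VF (flag2 hiso) ≤ VF F := by
  intro g hg
  have hJ := mem_VF_iff.mp hg
  rw [mem_VF_iff]
  intro k x hx
  by_cases h1 : k + 1 ≤ i
  · have h2 := hJ 0 x (F.mono h1 hx)
    have h3 : (toEnd g - 1) x = 0 := (Submodule.mem_bot K).mp h2
    rw [h3]
    exact (F k).zero_mem
  by_cases h2 : k + 1 ≤ N - i
  · have h3 : (toEnd g - 1) x ∈ F i := hJ 1 x (by
      change x ∈ Φ.perp (F i)
      rw [hF i hi]
      exact F.mono h2 hx)
    exact F.mono (by omega) h3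
  · have h3 : (toEnd g - 1) x ∈ Φ.perp (F i) := hJ 2 x Submodule.mem_top
    rw [hF i hi] at h3
    exact F.mono (by omega) h3

include hQ in
/-- Siegel transformations -/
theorem exists_siegelX {X : Subgroup (SpecialLinearGroup K E)} (hX : OmX Q X) {F : Flag K E}
    {N : ℕ} (hF : ∀ i ≤ N, Φ.perp (F i) = F (N - i)) {i : ℕ} (hi : i ≤ N)
    (hiso : F i ≤ Φ.perp (F i)) (hs : ∀ x ∈ F i, Q x = 0) {u w : E} (hw : w ∈ F i)
    (hu : u ∈ Φ.perp (F i)) :
    ∃ v ∈ VF F ⊓ X, ∀ y, v y - y = Φ.B y u • w - Φ.B y w • u - (Q u * Φ.B y w) • w := by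
  obtain ⟨v, hv, hve⟩ := siegelQ hQ hiso hs hw hu
  exact ⟨v, ⟨VF_flag2_le hF hi hiso hv.1, (hX v).mpr ⟨hv.2, even_rank hQ hiso hs hv⟩⟩, hve⟩

end Vale.Agent.P180.R2.H259.Oq
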