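import Vale.Agent.P180.R2.H259.Oq.A1
import Vale.Agent.P180.R2.H854.FormOrth

set_option linter.all false

/-!
P180: the normaliser condition for `Ω(Q)`, characteristic two.
-/

namespace Vale.Agent.P180.R2.H259.Oq

open Module Vale.Agent.P180.R2.H854 Vale.Agent.P180 Vale.Agent.P180.R2.H259.Loc

variable {K E : Type*} [Field K] [AddCommGroup E] [Module K E] {Φ : HForm K E}
  {Q : E → K} (hQ : QF Φ Q) [FiniteDimensional K E] [Finite K]
  {X : Subgroup (SpecialLinearGroup K E)} (hX : OmX Q X)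

include hQ in
theorem QF.hypt : ∀ a : K, a + a = 0 := by
  intro a
  have h1 : a + a = 2 * a := by ring
  rw [h1, hQ.two, zero_mul]

include hQ hX in
/-- An element of `Ω(Q)` stabilising a hyperplane of a singular Lagrangian subspace stabilises the
Lagrangian subspace. -/
theorem map_lagrangian {A T : Submodule K E} (hA : Φ.perp A = A) (hAs : ∀ x ∈ A, Q x = 0)
    (hTA : T ≤ A) (hT : finrank K A ≤ finrank K T + 1) {x : SpecialLinearGroup K E} (hx : x ∈ X)
    (hxT : ∀ t ∈ T, x t ∈ T) : ∀ a ∈ A, x a ∈ A := by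
  have hxQ : x ∈ IsoQ Q := ((hX x).mp hx).1
  have hxI : x ∈ Φ.Iso := hQ.le hxQ
  have hcomm : ∀ v w, Φ.B v w = Φ.B w v := fun v w => hQ.sym w v
  have hAiso : ∀ v ∈ A, ∀ w ∈ A, Φ.B v w = 0 := by
    intro v hv w hw
    rw [← hA] at hv
    exact hv w hw
  set A2 : Submodule K E := A.map (toEnd x) with hA2
  have hfin : finrank K A2 = finrank K A := LinearEquiv.finrank_map_eq x.1 A
  by_cases hcase : A2 ≤ A
  · intro a ha
    exact hcase ⟨a, ha, rfl⟩
  exfalso
  have hA2iso : ∀ v ∈ A2, ∀ w ∈ A2, Φ.B v w = 0 := by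
    rintro _ ⟨v, hv, rfl⟩ _ ⟨w, hw, rfl⟩
    exact (hxI v w).trans (hAiso v hv w hw)
  have hA2s : ∀ v ∈ A2, Q v = 0 := by
    rintro _ ⟨v, hv, rfl⟩
    exact (hxQ v).trans (hAs v hv)
  have hTA2 : T ≤ A2 := by
    intro t ht
    have h1 := inv_mem_of_forall hxT t ht
    exact ⟨x⁻¹ t, hTA h1, apply_inv_self' x t⟩
  have hcase' : ¬ A ≤ A2 := by
    intro h
    exact hcase (Submodule.eq_of_le_of_finrank_eq h hfin.symm).ge
  obtain ⟨e, heA, heA2⟩ := SetLike.not_le_iff_exists.mp hcase'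
  obtain ⟨f0, hf0A2, hf0A⟩ := SetLike.not_le_iff_exists.mp hcase
  have hspan : ∀ (B : Submodule K E) (v : E), T ≤ B → v ∈ B → v ∉ T →
      finrank K B ≤ finrank K T + 1 → T ⊔ Submodule.span K {v} = B := by
    intro B v hTB hvB hvT hfB
    apply Submodule.eq_of_le_of_finrank_le
    · exact sup_le hTB ((Submodule.span_singleton_le_iff_mem v B).mpr hvB)
    · have h1 : T < T ⊔ Submodule.span K {v} := by
        refine lt_of_le_of_ne le_sup_left fun h => hvT ?_
        rw [h]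
        exact Submodule.mem_sup_right (Submodule.mem_span_singleton_self v)
      have h2 := Submodule.finrank_lt_finrank_of_lt h1
      omega
  have heT : e ∉ T := fun h => heA2 (hTA2 h)
  have hf0T : f0 ∉ T := fun h => hf0A (hTA h)
  have hAe := hspan A e hTA heA heT hT
  have hef0 : Φ.B e f0 ≠ 0 := by
    intro h0
    apply hf0A
    rw [← hA, Φ.mem_perp']
    intro a ha
    rw [← hAe] at ha
    obtain ⟨t, ht, s, hs, rfl⟩ := Submodule.mem_sup.mp ha
    obtain ⟨c, rfl⟩ := Submodule.mem_span_singleton.mp hs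
    rw [Φ.add_left, Φ.smul_left, h0, mul_zero, add_zero]
    exact hA2iso t (hTA2 ht) f0 hf0A2
  set f := (Φ.B e f0)⁻¹ • f0 with hf
  have hfA2 : f ∈ A2 := A2.smul_mem _ hf0A2
  have hef : Φ.B e f = 1 := by
    rw [hf, hQ.smul_r, inv_mul_cancel₀ hef0]
  have hfT : f ∉ T := by
    intro h
    apply hf0T
    have := T.smul_mem (Φ.B e f0) h
    rwa [hf, smul_smul, mul_inv_cancel₀ hef0, one_smul] at this
  have hA2f' := hspan A2 f hTA2 hfA2 hfT (by rw [hfin]; exact hT)
  set d := e + f with hd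
  have hee : Φ.B e e = 0 := hAiso e heA e heA
  have hff : Φ.B f f = 0 := hA2iso f hfA2 f hfA2
  have hfe : Φ.B f e = 1 := by rw [hcomm, hef]
  have hfd : Φ.B f d = 1 := by rw [hd, Φ.add_right, hfe, hff, add_zero]
  have hdd : Φ.B d d = 0 := hQ.alt d
  have hQd : Q d = 1 := by rw [hd, hQ.add, hAs e heA, hA2s f hfA2, hef, zero_add, zero_add]
  have htd : ∀ t ∈ T, Φ.B t d = 0 := by
    intro t ht
    rw [hd, Φ.add_right, hAiso t (hTA ht) e heA, hA2iso t (hTA2 ht) f hfA2, add_zero]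
  have hsdet : LinearMap.det (LinearMap.transvection (Φ.fn d) d) = 1 := by
    rw [LinearMap.transvection.det, Φ.fn_apply, hdd, add_zero]
  set s : SpecialLinearGroup K E := mkSL (LinearMap.transvection (Φ.fn d) d) hsdet with hs
  have hsE : toEnd s = LinearMap.transvection (Φ.fn d) d := toEnd_mkSL _ _
  have hsv : ∀ v, s v = v + Φ.B v d • d := by
    intro v
    change toEnd s v = _
    rw [hsE]
    rfl
  have h2 := QF.hypt hQ
  have hsQ : s ∈ IsoQ Q := by
    intro v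
    rw [hsv, hQ.add, hQ.smul, hQd, hQ.smul_r, mul_one]
    linear_combination h2 (Φ.B v d ^ 2)
  have hsA2 : ∀ v ∈ A2, s v ∈ A := by
    intro v hv
    rw [← hA2f'] at hv
    obtain ⟨t, ht, u, hu, rfl⟩ := Submodule.mem_sup.mp hv
    obtain ⟨c, rfl⟩ := Submodule.mem_span_singleton.mp hu
    rw [hsv]
    have e1 : Φ.B (t + c • f) d = c := by
      rw [Φ.add_left, htd t ht, Φ.smul_left, hfd, mul_one, zero_add]
    rw [e1, hd]
    have e2 : t + c • f + c • (e + f) = t + c • e + (c + c) • f := by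
      rw [smul_add, add_smul]; abel
    rw [e2, h2, zero_smul, add_zero]
    exact A.add_mem (hTA ht) (A.smul_mem _ heA)
  -- `s * x` stabilises `A`
  have hsx : s * x ∈ X := by
    refine mem_X hQ hX (W := A) (by rw [hA]) hAs ((IsoQ Q).mul_mem hsQ hxQ) ?_
    intro a ha
    rw [hA] at ha
    exact A.sub_mem (hsA2 _ ⟨a, ha, rfl⟩) ha
  have hsX : s ∈ X := by
    have h3 := X.mul_mem hsx (X.inv_mem hx)
    rwa [mul_inv_cancel_right] at h3
  have h3 := ((hX s).mp hsX).2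
  have hd0 : d ≠ 0 := by
    intro h0
    rw [h0, hQ.zero] at hQd
    exact zero_ne_one hQd
  have h4 : LinearMap.range (toEnd s - 1) = Submodule.span K {d} := by
    apply le_antisymm
    · rintro _ ⟨y, rfl⟩
      change s y - y ∈ _
      rw [hsv, add_sub_cancel_left]
      exact Submodule.smul_mem _ _ (Submodule.mem_span_singleton_self d)
    · rw [Submodule.span_singleton_le_iff_mem]
      refine ⟨f, ?_⟩
      change s f - f = d
      rw [hsv, hfd, one_smul, add_sub_cancel_left]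
  rw [h4, finrank_span_singleton hd0] at h3
  exact absurd h3 (by decide)

include hQ hX in
/-- the data at a singular member of the flag which is not a member of `F2` -/
theorem exists_level_data {F F2 : Flag K E} {N : ℕ}
    (hF : ∀ i ≤ N, Φ.perp (F i) = F (N - i)) (hle : VF F ⊓ X ≤ VF F2) {i : ℕ}
    (hi : i ≤ N) (hiso : F i ≤ Φ.perp (F i)) (hs : ∀ x ∈ F i, Q x = 0) (hmem : F i ∉ F2.mem) :
    ∃ j, F i ≤ F2 (j + 1) ∧ ¬ F i ≤ F2 j ∧ ∀ y ∈ F2 (j + 1), y ∉ F i →
      (∀ w ∈ F i, ∀ u ∈ Φ.perp (F i), Φ.B y u • w - Φ.B y w • u -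
        (Q u * Φ.B y w) • w ∈ F2 j) ∧
      (∀ w ∈ F i, Φ.B y w = 0 → w ∈ F2 j) := by
  classical
  have h0 : F i ≠ ⊥ := by
    intro h
    exact hmem ⟨0, by rw [F2.zero, h]⟩
  obtain ⟨N2, hN2⟩ := F2.top
  have hex : ∃ k, F i ≤ F2 k := ⟨N2, by rw [hN2]; exact le_top⟩
  have hk := Nat.find_spec hex
  have hpos : 0 < Nat.find hex := by
    rw [Nat.pos_iff_ne_zero]
    intro h
    rw [h, F2.zero, le_bot_iff] at hk
    exact h0 hk
  obtain ⟨j, hj⟩ := Nat.exists_eq_succ_of_ne_zero hpos.ne'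
  have hmin : ¬ F i ≤ F2 j := Nat.find_min hex (by omega)
  rw [hj] at hk
  refine ⟨j, hk, hmin, ?_⟩
  intro y hy hyi
  have key : ∀ w ∈ F i, ∀ u ∈ Φ.perp (F i), Φ.B y u • w - Φ.B y w • u -
        (Q u * Φ.B y w) • w ∈ F2 j := by
    intro w hw u hu
    obtain ⟨v, hv, hve⟩ := exists_siegelX hQ hX hF hi hiso hs hw hu
    have h1 := mem_VF_iff.mp (hle hv) j y hy
    change v y - y ∈ _ at h1
    rwa [hve] at h1
  refine ⟨key, ?_⟩
  intro w hw hyw
  have h1 : y ∉ Φ.perp (Φ.perp (F i)) := by rwa [Φ.perp_perp]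
  have h2 : ∃ u ∈ Φ.perp (F i), Φ.B y u ≠ 0 := by
    by_contra hc
    push Not at hc
    exact h1 hc
  obtain ⟨u, hu, hyu⟩ := h2
  have h3 := key w hw u hu
  rw [hyw, zero_smul, sub_zero, mul_zero, zero_smul, sub_zero] at h3
  have h4 := (F2 j).smul_mem (Φ.B y u)⁻¹ h3
  rwa [smul_smul, inv_mul_cancel₀ hyu, one_smul] at h4

include hQ hX in
/-- Singular members of the flag which are not Lagrangian. -/
theorem lagrangian_of_not_mem (hc : ∃ c : K, c ^ 2 ≠ c) {F F2 : Flag K E} {N : ℕ}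
    (hF : ∀ i ≤ N, Φ.perp (F i) = F (N - i)) (hle : VF F ⊓ X ≤ VF F2) {i : ℕ}
    (hi : i ≤ N) (hiso : F i ≤ Φ.perp (F i)) (hs : ∀ x ∈ F i, Q x = 0)
    (hmem : F i ∉ F2.mem) : Φ.perp (F i) = F i := by
  have hcomm : ∀ v w, Φ.B v w = Φ.B w v := fun v w => hQ.sym w v
  obtain ⟨j, hj1, hj2, hdata⟩ := exists_level_data hQ hX hF hle hi hiso hs hmem
  have h1 : ¬ F2 (j + 1) ≤ F i := fun h => hmem ⟨j + 1, le_antisymm h hj1⟩
  obtain ⟨y, hy, hyi⟩ := SetLike.not_le_iff_exists.mp h1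
  obtain ⟨key, hw0⟩ := hdata y hy hyi
  obtain ⟨w, hw, hwj⟩ := SetLike.not_le_iff_exists.mp hj2
  have hyw : Φ.B y w ≠ 0 := fun h => hwj (hw0 w hw h)
  obtain ⟨c, hc⟩ := hc
  -- the vectors orthogonal to `F i` and to `y`
  have hT1 : ∀ u ∈ Φ.perp (F i), Φ.B y u = 0 → u + Q u • w ∈ F2 j := by
    intro u hu hyu
    have h2 := key w hw u hu
    rw [hyu, zero_smul, zero_sub] at h2
    have h3 := (F2 j).smul_mem (-(Φ.B y w)⁻¹) h2
    have e : -(Φ.B y w)⁻¹ • (-(Φ.B y w • u) - (Q u * Φ.B y w) • w) = u + Q u • w := by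
      have e1 : (Φ.B y w)⁻¹ * Φ.B y w = 1 := inv_mul_cancel₀ hyw
      have e2 : -(Φ.B y w)⁻¹ • (-(Φ.B y w • u) - (Q u * Φ.B y w) • w) =
          ((Φ.B y w)⁻¹ * Φ.B y w) • u + (Q u * ((Φ.B y w)⁻¹ * Φ.B y w)) • w := by module
      rw [e2, e1, one_smul, mul_one]
    rwa [e] at h3
  have hT : ∀ u ∈ Φ.perp (F i), Φ.B y u = 0 → u ∈ F2 j ∧ Q u = 0 := by
    intro u hu hyu
    have h2 := hT1 u hu hyu
    have h3 := hT1 (c • u) ((Φ.perp (F i)).smul_mem c hu) (by rw [hQ.smul_r, hyu, mul_zero])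
    have h4 : ((c ^ 2 - c) * Q u) • w ∈ F2 j := by
      have h5 := (F2 j).sub_mem h3 ((F2 j).smul_mem c h2)
      have e : c • u + Q (c • u) • w - c • (u + Q u • w) = ((c ^ 2 - c) * Q u) • w := by
        rw [hQ.smul]; module
      rwa [e] at h5
    have h5 : Q u = 0 := by
      by_contra hne
      apply hwj
      have h6 := (F2 j).smul_mem ((c ^ 2 - c) * Q u)⁻¹ h4
      rwa [smul_smul, inv_mul_cancel₀ (mul_ne_zero (sub_ne_zero.mpr hc) hne), one_smul] at h6
    rw [h5, zero_smul, add_zero] at h2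
    exact ⟨h2, h5⟩
  -- `T` is totally isotropic
  have hTT : ∀ u ∈ Φ.perp (F i), Φ.B y u = 0 → ∀ v ∈ Φ.perp (F i), Φ.B y v = 0 →
      Φ.B u v = 0 := by
    intro u hu hyu v hv hyv
    have h2 := (hT (u + v) ((Φ.perp (F i)).add_mem hu hv) (by rw [Φ.add_right, hyu, hyv,
      add_zero])).2
    rw [hQ.add, (hT u hu hyu).2, (hT v hv hyv).2, zero_add, zero_add] at h2
    exact h2
  refine le_antisymm ?_ hiso
  intro z hz
  set c := Φ.B y z / Φ.B y w with hc
  have hz' : z - c • w ∈ Φ.perp (F i) := (Φ.perp (F i)).sub_mem hz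
    ((Φ.perp (F i)).smul_mem _ (hiso hw))
  have hyz' : Φ.B y (z - c • w) = 0 := by
    rw [Φ.sub_right, hQ.smul_r, hc, div_mul_cancel₀ _ hyw, sub_self]
  have hzz : z - c • w ∈ Φ.perp (Φ.perp (F i)) := by
    intro v hv
    set c' := Φ.B y v / Φ.B y w with hc'
    have hv' : v - c' • w ∈ Φ.perp (F i) := (Φ.perp (F i)).sub_mem hv
      ((Φ.perp (F i)).smul_mem _ (hiso hw))
    have hyv' : Φ.B y (v - c' • w) = 0 := by
      rw [Φ.sub_right, hQ.smul_r, hc', div_mul_cancel₀ _ hyw, sub_self]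
    have h2 := hTT _ hz' hyz' _ hv' hyv'
    have h3 : Φ.B (z - c • w) w = 0 := hz' w hw
    have e : v = (v - c' • w) + c' • w := by rw [sub_add_cancel]
    rw [e, Φ.add_right, h2, Φ.smul_right, h3, mul_zero, add_zero]
  rw [Φ.perp_perp] at hzz
  have e : z = (z - c • w) + c • w := by rw [sub_add_cancel]
  rw [e]
  exact (F i).add_mem hzz ((F i).smul_mem _ hw)

include hQ hX in
/-- **The normaliser condition.** -/
theorem normCond (hc : ∃ c : K, c ^ 2 ≠ c) {F : Flag K E} (hF : CQ Φ Q F) :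
    Subgroup.normalizer
      ((VF F ⊓ X : Subgroup (SpecialLinearGroup K E)) : Set (SpecialLinearGroup K E)) ⊓ X ≤
        PF F := by
  classical
  rintro x ⟨hx, hxX⟩
  obtain ⟨hFS, hFs⟩ := hF
  have hxI : x ∈ Φ.Iso := hQ.le ((hX x).mp hxX).1
  apply HForm.mem_PF_of_mem_subset
  have hle : VF F ⊓ X ≤ VF (mapF x.1 F) := by
    intro v hv
    have h1 := (Subgroup.mem_normalizer_iff.mp (inv_mem hx) v).mp hv
    have h2 := conj_mem_VF (g := x) h1.1
    have e : x * (x⁻¹ * v * x⁻¹⁻¹) * x⁻¹ = v := by group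
    rwa [e] at h2
  have hF2 := Φ.SD_mapF hFS hxI
  set F2 := mapF x.1 F with hF2def
  apply Φ.mem_of_forall_isotropic hFS hF2
  intro N hN i hi hiso
  by_contra hmem
  have hs := hFs i hiso
  have hLag := lagrangian_of_not_mem hQ hX hc hN hle hi hiso hs hmem
  obtain ⟨j, hj1, hj2, hdata⟩ := exists_level_data hQ hX hN hle hi hiso hs hmem
  have hne : ¬ F2 (j + 1) ≤ F i := fun h => hmem ⟨j + 1, le_antisymm h hj1⟩
  have hAiso : ∀ v ∈ F i, ∀ w ∈ F i, Φ.B v w = 0 := fun v hv w hw => hiso hv w hw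
  -- the hyperplane `T`
  set T := Φ.perp (F2 (j + 1)) with hT
  have hTA : T ≤ F i := by
    rw [← hLag]
    exact Φ.perp_anti hj1
  obtain ⟨y, hy, hyi⟩ := SetLike.not_le_iff_exists.mp hne
  have hAT : ∀ w ∈ F i, w ∈ F2 j → w ∈ T := by
    intro w hw hwj
    rw [hT, Φ.mem_perp']
    intro s hs
    by_cases hsi : s ∈ F i
    · exact hAiso s hsi w hw
    · by_contra hsw
      apply hj2
      intro w' hw'
      set c := Φ.B s w' / Φ.B s w with hc
      have h1 : Φ.B s (w' - c • w) = 0 := by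
        rw [Φ.sub_right, hQ.smul_r, hc, div_mul_cancel₀ _ hsw, sub_self]
      have h2 := (hdata s hs hsi).2 (w' - c • w)
        ((F i).sub_mem hw' ((F i).smul_mem _ hw)) h1
      have e : w' = (w' - c • w) + c • w := by rw [sub_add_cancel]
      rw [e]
      exact (F2 j).add_mem h2 ((F2 j).smul_mem _ hwj)
  have hcodim : finrank K (F i) ≤ finrank K T + 1 := by
    let φ : F i →ₗ[K] K := (Φ.fn y).domRestrict (F i)
    have h1 := LinearMap.finrank_range_add_finrank_ker φ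
    have h2 : finrank K (LinearMap.range φ) ≤ 1 := by
      refine (Submodule.finrank_le _).trans ?_
      rw [finrank_self]
    have h3 : finrank K (LinearMap.ker φ) ≤ finrank K T := by
      rw [LinearEquiv.finrank_eq (Submodule.equivSubtypeMap (F i) (LinearMap.ker φ))]
      apply Submodule.finrank_mono
      rintro _ ⟨w, hw, rfl⟩
      have hw' : Φ.B w y = 0 := hw
      exact hAT w w.2 ((hdata y hy hyi).2 w w.2 (Φ.eq_zero_comm hw'))
    omega
  have hTlt : T < F i := by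
    refine lt_of_le_of_ne hTA fun h => hne ?_
    have h1 : Φ.perp T = Φ.perp (F i) := by rw [h]
    rw [hT, Φ.perp_perp, hLag] at h1
    exact h1.le
  have hTfin := Submodule.finrank_lt_finrank_of_lt hTlt
  -- `T` is a member of `F2`
  have hTmem : T ∈ F2.mem := by
    obtain ⟨N2, h02, hN2, hF2N⟩ := hF2
    rcases Nat.lt_or_ge N2 (j + 1) with h5 | h5
    · rw [hT, F2.top_of_le hN2 h5.le, Φ.perp_top]
      exact ⟨0, F2.zero⟩
    · rw [hT, hF2N _ h5]
      exact ⟨_, rfl⟩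
  obtain ⟨k, hk⟩ := hTmem
  have hk' : F2 k = T := hk
  have hfk : finrank K (F k) = finrank K T := by
    rw [← hk', hF2def, mapF_apply]
    exact (LinearEquiv.finrank_map_eq x.1 (F k)).symm
  have hki : k < i := by
    by_contra h
    have := Submodule.finrank_mono (F.mono (not_lt.mp h))
    omega
  have hFk_le : F k ≤ F i := F.mono hki.le
  have hFkiso : F k ≤ Φ.perp (F k) :=
    hFk_le.trans (hiso.trans (Φ.perp_anti hFk_le))
  have hFkmem : F k ∈ F2.mem := by
    by_contra hc'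
    have h1 := lagrangian_of_not_mem hQ hX hc hN hle (hki.le.trans hi) hFkiso (hFs k hFkiso) hc'
    have h2 : F i ≤ F k := by
      have := Φ.perp_anti hFk_le
      rwa [h1, hLag] at this
    have := Submodule.finrank_mono h2
    omega
  have hFkT : F k = T := finrank_injOn F2 hFkmem ⟨k, hk⟩ hfk
  have hxT : ∀ t ∈ T, x t ∈ T := by
    intro t ht
    have h1 : x t ∈ F2 k := by
      rw [hF2def, mem_mapF, inv_apply_self', hFkT]
      exact ht
    rwa [hk'] at h1
  have hxA := map_lagrangian hQ hX hLag hs hTA hcodim hxX hxT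
  apply hmem
  refine ⟨i, ?_⟩
  rw [hF2def, mapF_apply]
  apply Submodule.eq_of_le_of_finrank_eq
  · rintro _ ⟨a, ha, rfl⟩
    exact hxA a ha
  · exact LinearEquiv.finrank_map_eq x.1 (F i)

end Vale.Agent.P180.R2.H259.Oq
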