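import Vale.Agent.P180.R2.H259.Oq.A2
import Vale.Agent.P180.R2.H854.TX

set_option linter.all false

/-!
P180: the singular selfdual flags are compatible with `Ω(Q)`, characteristic two.
-/

namespace Vale.Agent.P180.R2.H259.Oq

open Module Vale.Agent.P180.R2.H854 Vale.Agent.P180 Vale.Agent.P180.R2.H259.Loc

universe v

variable {K : Type*} {E : Type v} [Field K] [AddCommGroup E] [Module K E] {Φ : HForm K E}
  {Q : E → K} (hQ : QF Φ Q) [FiniteDimensional K E] [Finite K]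
  {X : Subgroup (SpecialLinearGroup K E)} (hX : OmX Q X)

omit [FiniteDimensional K E] [Finite K] in
theorem sing {F : Flag K E} (hs : ∀ i, F i ≤ Φ.perp (F i) → ∀ x ∈ F i, Q x = 0) {N : ℕ}
    (hF : ∀ i ≤ N, Φ.perp (F i) = F (N - i)) {j : ℕ} (hj : 2 * j ≤ N) : ∀ x ∈ F j, Q x = 0 := by
  apply hs
  rw [hF j (by omega)]
  exact F.mono (by omega)

include hQ in
/-- **Common adapted bases** with singular vectors outside the middle level. -/
theorem exists_sq_basis {F H : Flag K E} {N M : ℕ} (hN : F N = ⊤)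
    (hF : ∀ i ≤ N, Φ.perp (F i) = F (N - i)) (m0 : 0 < M) (hM : H M = ⊤)
    (hH : ∀ i ≤ M, Φ.perp (H i) = H (M - i))
    (hFs : ∀ i, F i ≤ Φ.perp (F i) → ∀ x ∈ F i, Q x = 0)
    (hHs : ∀ i, H i ≤ Φ.perp (H i) → ∀ x ∈ H i, Q x = 0) :
    ∃ b : Basis (Idx F H N M) K E, Adapted b (fun l => l.1.1) F ∧ Adapted b (fun l => l.1.2) H ∧
      (∀ l m : Idx F H N M, ¬ ((l.1.1 : ℕ) + m.1.1 + 1 = N ∧ (l.1.2 : ℕ) + m.1.2 + 1 = M) →
        Φ.B (b l) (b m) = 0) ∧ ∀ l : Idx F H N M, 2 * (l.1.1 : ℕ) + 1 ≠ N → Q (b l) = 0 := by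
  classical
  obtain ⟨b, hbF, hbH, hB⟩ := Φ.exists_sd_basis2T (Or.inr hQ.alt) hN hF m0 hM hH
  have h2 := QF.hypt hQ
  set α : Idx F H N M → ℕ := fun l => l.1.1 with hα
  set β : Idx F H N M → ℕ := fun l => l.1.2 with hβ
  have hαN : ∀ l, α l < N := fun l => l.1.1.2
  have hβM : ∀ l, β l < M := fun l => l.1.2.2
  obtain ⟨Z, hZ⟩ := Φ.exists_gram b (fun l m => if l = m ∧ N < 2 * α l + 1 then Q (b l) else 0)
  have hZ1 : ∀ l m, l ≠ m → Φ.B (b l) (Z (b m)) = 0 := by
    intro l m h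
    rw [hZ, if_neg (fun e => h e.1)]
  have hZ2 : ∀ m, ¬ N < 2 * α m + 1 → Z (b m) = 0 := by
    intro m h
    apply Φ.eq_zero_of_right
    intro x
    have h3 : Φ.fn (Z (b m)) = 0 := b.ext fun l => by
      rw [Φ.fn_apply, LinearMap.zero_apply, hZ]
      refine if_neg ?_
      rintro ⟨rfl, h'⟩
      exact h h'
    exact congrArg (fun f : E →ₗ[K] K => f x) h3
  have hZ3 : ∀ m, N < 2 * α m + 1 → Φ.B (b m) (Z (b m)) = Q (b m) := by
    intro m h
    rw [hZ, if_pos ⟨rfl, h⟩]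
  have hZ4 : ∀ m, Z (b m) ∈ F (N - α m) := by
    intro m
    rw [← hF _ (hαN m).le, Φ.mem_perp']
    intro y hy
    rw [hbF (α m)] at hy
    have hle : Submodule.span K (b '' {l | α l < α m}) ≤ LinearMap.ker (Φ.fn (Z (b m))) := by
      rw [Submodule.span_le]
      rintro _ ⟨l, hl, rfl⟩
      have hl' : α l < α m := hl
      rw [SetLike.mem_coe, LinearMap.mem_ker, Φ.fn_apply]
      exact hZ1 l m fun e => by rw [e] at hl'; exact lt_irrefl _ hl'
    exact hle hy
  have hZJ : Z ∈ Jr F := by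
    rw [← Jk_one]
    refine (Φ.mem_Jk_iff hbF hN hF).mpr fun l m hlm => ?_
    rw [hZ]
    refine if_neg ?_
    rintro ⟨rfl, h⟩
    omega
  have hZH : Z ∈ Pa H := (Φ.mem_Jk_iff (k := 0) hbH hM hH).mpr fun l m hlm => by
    rw [hZ]
    split_ifs with h
    · obtain ⟨rfl, -⟩ := h
      refine sing hHs hH (j := β l + 1) (by omega) _ (hbH.self_mem_iff.mpr (Nat.lt_succ_self _))
    · rfl
  set r := oneAdd Z hZJ with hr
  have hrE : toEnd r = 1 + Z := toEnd_oneAdd Z hZJ
  have hrx : ∀ x, r.1 x = x + Z x := by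
    intro x
    change toEnd r x = _
    rw [hrE]
    rfl
  have hrF : r ∈ PF F := VF_le_PF F (oneAdd_mem Z hZJ)
  have hrH : r ∈ PF H := by
    rw [mem_PF_iff, hrE]
    exact (Pa H).add_mem (one_mem_Pa H) hZH
  refine ⟨b.map r.1, ?_, ?_, ?_, ?_⟩
  · intro i
    have h1 : mapF r.1 F i = F i := by rw [mapF_eq_of_mem hrF]
    rw [← h1, mapF_apply, hbF i, Submodule.map_span, ← Set.image_comp]
    congr 1
  · intro i
    have h1 : mapF r.1 H i = H i := by rw [mapF_eq_of_mem hrH]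
    rw [← h1, mapF_apply, hbH i, Submodule.map_span, ← Set.image_comp]
    congr 1
  · intro l m hlm
    rw [Basis.map_apply, Basis.map_apply, hrx, hrx, Φ.add_left, Φ.add_right, Φ.add_right,
      hB l m hlm, hQ.sym (b m) (Z (b l)), hZ l m, hZ m l]
    have e1 : Φ.B (Z (b l)) (Z (b m)) = 0 := by
      by_cases h3 : N < 2 * α l + 1
      · by_cases h4 : N < 2 * α m + 1
        · have h5 : Z (b m) ∈ Φ.perp (F (α m)) := by
            rw [hF _ (hαN m).le]
            exact hZ4 m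
          exact (Φ.mem_perp'.mp h5) _ (F.mono (by omega) (hZ4 l))
        · rw [hZ2 m h4, Φ.zero_right]
      · rw [hZ2 l h3, Φ.zero_left]
    rw [e1, zero_add, add_zero]
    by_cases h3 : l = m
    · subst h3
      split_ifs
      · exact h2 _
      · exact add_zero _
    · rw [if_neg (fun e => h3 e.1), if_neg (fun e => h3 e.1.symm), add_zero]
  · intro m hm
    have hm' : 2 * α m + 1 ≠ N := hm
    rw [Basis.map_apply, hrx, hQ.add]
    by_cases h3 : N < 2 * α m + 1
    · rw [hZ3 m h3, sing hFs hF (j := N - α m) (by omega) _ (hZ4 m), add_zero]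
      exact h2 _
    · have h4 : Q (b m) = 0 := sing hFs hF (j := α m + 1) (by omega) _
        (hbF.self_mem_iff.mpr (Nat.lt_succ_self _))
      rw [hZ2 m h3, hQ.zero, Φ.zero_right, h4, add_zero, add_zero]

include hQ in
/-- `Q` on the span of orthogonal singular vectors -/
theorem Q_span {S : Set E} (hS : ∀ x ∈ S, Q x = 0) (hB : ∀ x ∈ S, ∀ y ∈ S, Φ.B x y = 0) :
    ∀ x ∈ Submodule.span K S, Q x = 0 := by
  have hB2 : ∀ x ∈ Submodule.span K S, ∀ y ∈ Submodule.span K S, Φ.B x y = 0 := by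
    have h1 : ∀ x ∈ S, Submodule.span K S ≤ LinearMap.ker (Φ.fn x) := by
      intro x hx
      rw [Submodule.span_le]
      intro y hy
      exact hB y hy x hx
    intro x hx y hy
    have h2 : Submodule.span K S ≤ LinearMap.ker (Φ.fn y) := by
      rw [Submodule.span_le]
      intro z hz
      have h3 : Φ.B y z = 0 := h1 z hz hy
      exact Φ.eq_zero_comm h3
    exact h2 hx
  intro x hx
  induction hx using Submodule.span_induction with
  | mem x hx => exact hS x hx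
  | zero => exact hQ.zero
  | add x y hx hy h1 h2 => rw [hQ.add, h1, h2, hB2 x hx y hy, add_zero, add_zero]
  | smul c x _ h1 => rw [hQ.smul, h1, mul_zero]

include hQ hX in
/-- The block diagonal part of an element of `Ω(Q)`. -/
theorem dg_mem {ι : Type*} {b : Basis ι K E} {α : ι → ℕ} {F : Flag K E} (hFC : CQ Φ Q F)
    (hb : Adapted b α F) {N : ℕ} (hN : F N = ⊤) (hF : ∀ i ≤ N, Φ.perp (F i) = F (N - i))
    (hB : ∀ l m, α l + α m + 1 ≠ N → Φ.B (b l) (b m) = 0)
    (hbQ : ∀ l, 2 * α l + 1 ≠ N → Q (b l) = 0)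
    (l g : SpecialLinearGroup K E) (hg : g ∈ X) (hgF : g ∈ PF F)
    (e : toEnd l = dg b α (toEnd g)) : l ∈ X := by
  classical
  have hgQ : g ∈ IsoQ Q := ((hX g).mp hg).1
  have hlI : l ∈ Φ.Iso := Φ.dg_mem_Iso hb hN hF hB (hQ.le hgQ) hgF e
  have hα : ∀ l, α l < N := fun l => hb.self_mem_iff.mp (by rw [hN]; trivial)
  have hlow : ∀ m, g (b m) - l (b m) ∈ F (α m) := by
    intro m
    have h1 := sub_dg_mem_Jr hb (mem_PF_iff.mp hgF) (α m) (b m)
      (hb.self_mem_iff.mpr (Nat.lt_succ_self _))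
    rw [← e] at h1
    exact h1
  have hsp : ∀ m, l (b m) ∈ Submodule.span K (b '' {j | α j = α m}) := by
    intro m
    rw [Basis.mem_span_image]
    intro j hj
    have h1 : b.repr (l (b m)) j ≠ 0 := Finsupp.mem_support_iff.mp hj
    have h2 : b.repr (l (b m)) j = b.repr (dg b α (toEnd g) (b m)) j := by
      rw [← e]
      rfl
    rw [h2, repr_dg] at h1
    split_ifs at h1 with h3
    · exact h3
    · exact absurd rfl h1
  have hlF : ∀ m, l (b m) ∈ F (α m + 1) := by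
    intro m
    rw [hb (α m + 1)]
    refine Submodule.span_mono (Set.image_mono fun j hj => ?_) (hsp m)
    exact Nat.lt_succ_of_le (le_of_eq hj)
  have key : ∀ m, Q (l (b m)) = Q (b m) := by
    intro m
    by_cases h : 2 * α m + 1 = N
    · have h1 : Q (g (b m)) = Q (b m) := hgQ (b m)
      have h2 : g (b m) = l (b m) + (g (b m) - l (b m)) := by abel
      have h3 : Q (g (b m) - l (b m)) = 0 := sing hFC.2 hF (j := α m) (by omega) _ (hlow m)
      have h4 : l (b m) ∈ Φ.perp (F (α m)) := by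
        rw [hF _ (hα m).le]
        have h5 : N - α m = α m + 1 := by omega
        rw [h5]
        exact hlF m
      have h5 : Φ.B (l (b m)) (g (b m) - l (b m)) = 0 := h4 _ (hlow m)
      rw [h2, hQ.add, h3, h5, add_zero, add_zero] at h1
      exact h1
    · rw [hbQ m h]
      refine Q_span hQ (S := b '' {j | α j = α m}) ?_ ?_ _ (hsp m)
      · rintro _ ⟨j, hj, rfl⟩
        have hj' : α j = α m := hj
        exact hbQ j (by rw [hj']; exact h)
      · rintro _ ⟨j, hj, rfl⟩ _ ⟨k, hk, rfl⟩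
        have hj' : α j = α m := hj
        have hk' : α k = α m := hk
        exact hB j k (by rw [hj', hk']; omega)
  have hlQ : l ∈ IsoQ Q := by
    intro x
    have hmem : x ∈ Submodule.span K (Set.range b) := by rw [b.span_eq]; trivial
    have hadd : ∀ x y : E, l (x + y) = l x + l y := fun x y => map_add (l : E ≃ₗ[K] E) x y
    have hsm : ∀ (c : K) (x : E), l (c • x) = c • l x := fun c x => map_smul (l : E ≃ₗ[K] E) c x
    induction hmem using Submodule.span_induction with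
    | mem x hx =>
      obtain ⟨m, rfl⟩ := hx
      exact key m
    | zero => rw [show l 0 = 0 from map_zero (l : E ≃ₗ[K] E)]
    | add x y _ _ h1 h2 => rw [hadd, hQ.add, h1, h2, hQ.add, hlI x y]
    | smul c x _ h1 => rw [hsm, hQ.smul, h1, hQ.smul]
  obtain ⟨u, hu, hue⟩ := exists_dg hb hgF
  have h1 : l = g * u := toEnd_injective (e.trans hue.symm)
  have h2 : u ∈ IsoQ Q := by
    have : u = g⁻¹ * l := by rw [h1, inv_mul_cancel_left]
    rw [this]
    exact (IsoQ Q).mul_mem ((IsoQ Q).inv_mem hgQ) hlQ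
  rw [h1]
  exact X.mul_mem hg (VF_le_X hQ hX hFC ⟨hu, h2⟩)

include hQ in
theorem CQ_star {F H : Flag K E} (hFC : CQ Φ Q F) (hHC : CQ Φ Q H) :
    ∃ (M : ℕ) (m0 : 0 < M), H M = ⊤ ∧ CQ Φ Q (starN F H M m0) := by
  obtain ⟨⟨N, h0, hN, hF⟩, hFs⟩ := hFC
  obtain ⟨⟨M, m0, hM, hH⟩, hHs⟩ := hHC
  refine ⟨M, m0, hM, Φ.SD_starN h0 hN hF m0 hH, ?_⟩
  obtain ⟨b, hbF, hbH, hB, -⟩ := exists_sq_basis hQ hN hF m0 hM hH hFs hHs
  have hbS := adapted_starN hbF hbH M hM m0
  obtain ⟨hW, hS⟩ := Φ.starN_perp hN hF m0 hH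
  intro i hiso
  rcases Nat.lt_or_ge (N * M) i with hi | hi
  · intro x hx
    have h1 : starN F H M m0 i = ⊤ := (starN F H M m0).top_of_le hW hi.le
    rw [h1, Φ.perp_top, top_le_iff] at hiso
    have h2 : x ∈ (⊥ : Submodule K E) := by rw [hiso]; trivial
    rw [(Submodule.mem_bot K).mp h2, hQ.zero]
  rw [hS i hi] at hiso
  have h1 := hbS i
  rw [h1]
  apply Q_span hQ
  · rintro _ ⟨l, hl, rfl⟩
    have hl' : (l.1.1 : ℕ) * M + l.1.2 < i := hl
    have h2 : b l ∈ starN F H M m0 (N * M - i) := hiso (hbS.self_mem_iff.mpr hl')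
    have h3 : (l.1.1 : ℕ) * M + l.1.2 < N * M - i := hbS.self_mem_iff.mp h2
    have h4 : 2 * ((l.1.1 : ℕ) * M + l.1.2) + 2 ≤ N * M := by omega
    by_cases h5 : 2 * ((l.1.1 : ℕ) + 1) ≤ N
    · exact sing hFs hF h5 _ (hbF.self_mem_iff.mpr (Nat.lt_succ_self _))
    · have h6 : 2 * (l.1.1 : ℕ) + 1 ≤ N := by
        by_contra h7
        have h8 : N * M ≤ 2 * (l.1.1 : ℕ) * M := Nat.mul_le_mul_right M (by omega)
        nlinarith
      have h7 : N = 2 * (l.1.1 : ℕ) + 1 := by omega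
      have h9 : N * M = (2 * (l.1.1 : ℕ) + 1) * M := congrArg (fun t => t * M) h7
      refine sing hHs hH (j := (l.1.2 : ℕ) + 1) ?_ _ (hbH.self_mem_iff.mpr (Nat.lt_succ_self _))
      have h8 : (2 * (l.1.1 : ℕ) + 1) * M = 2 * ((l.1.1 : ℕ) * M) + M := by ring
      omega
  · intro x hx y hy
    have hle : starN F H M m0 i ≤ Φ.perp (starN F H M m0 i) := by
      rw [hS i hi]
      exact hiso
    have hx' : x ∈ starN F H M m0 i := by
      rw [h1]
      exact Submodule.subset_span hx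
    have hy' : y ∈ starN F H M m0 i := by
      rw [h1]
      exact Submodule.subset_span hy
    exact hle hx' y hy'

include hQ hX in
/-- **The singular selfdual flags are compatible with `Ω(Q)`.** -/
theorem flagGeo (hc : ∃ c : K, c ^ 2 ≠ c) : FlagGeo X (CQ Φ Q) where
  conj := by
    rintro F ⟨hF, hFs⟩ g hg
    have hgQ := ((hX g).mp hg).1
    have hgI := hQ.le hgQ
    refine ⟨Φ.SD_mapF hF hgI, ?_⟩
    intro i hiso x hx
    rw [mapF_apply] at hx
    obtain ⟨x, hx, rfl⟩ := hx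
    have h1 : F i ≤ Φ.perp (F i) := by
      intro y hy z hz
      have h2 := hiso (x := g.1 y) (by rw [mapF_apply]; exact ⟨y, hy, rfl⟩) (g.1 z)
        (by rw [mapF_apply]; exact ⟨z, hz, rfl⟩)
      exact (hgI y z).symm.trans h2
    exact (hgQ x).trans (hFs i h1 x hx)
  star := fun F hF H hH => CQ_star hQ hF hH
  basis := by
    rintro F hFC H ⟨⟨M, m0, hM, hH⟩, hHs⟩
    obtain ⟨⟨N, h0, hN, hF⟩, hFs⟩ := id hFC
    obtain ⟨b, hbF, hbH, hB, hbQ⟩ := exists_sq_basis hQ hN hF m0 hM hH hFs hHs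
    exact ⟨_, inferInstance, b, _, _, hbF, hbH, dg_mem hQ hX hFC hbF hN hF
      (fun l m hlm => hB l m fun h => hlm h.1) hbQ⟩
  norm := fun F hF => normCond hQ hX hc hF

end Vale.Agent.P180.R2.H259.Oq
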