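import Vale.Agent.P180.R2.H259.Oq.A3
import Vale.Agent.P180.R2.H471.Oq3

set_option linter.all false

/-!
P180: orthogonal groups in characteristic two: elements of odd order lie in `Ω(Q)`; the split
parabolic system of `Ω(Q)`.
-/

namespace Vale.Agent.P180.R2.H259.Oq

open Module Vale.Agent.P180.R2.H854 Vale.Agent.P180 Vale.Agent.P180.R2.H259.Loc

section

variable {K E : Type*} [Field K] [AddCommGroup E] [Module K E] {Φ : HForm K E}
  {Q : E → K} (hQ : QF Φ Q) [FiniteDimensional K E] [Finite K]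
  {X : Subgroup (SpecialLinearGroup K E)} (hX : OmX Q X)

include hQ in
/-- nondegenerate subspaces have even dimension -/
theorem even_nondeg {U : Submodule K E} (hU : U ⊓ Φ.perp U = ⊥) : Even (finrank K U) := by
  obtain ⟨W, ⟨hWU, hWW⟩, hmax⟩ :=
    (wellFounded_gt : WellFounded ((· > ·) : Submodule K E → Submodule K E → Prop)).has_min
      {W | W ≤ U ∧ W ≤ Φ.perp W} ⟨⊥, bot_le, bot_le⟩
  have h1 : U ⊓ Φ.perp W ≤ W := by
    rintro x ⟨hxU, hxW⟩
    by_contra hx
    refine hmax (W ⊔ Submodule.span K {x}) ⟨sup_le hWU ?_, ?_⟩ ?_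
    · rwa [Submodule.span_singleton_le_iff_mem]
    · intro y hy z hz
      obtain ⟨w, hw, s, hs, rfl⟩ := Submodule.mem_sup.mp hy
      obtain ⟨a, rfl⟩ := Submodule.mem_span_singleton.mp hs
      obtain ⟨w', hw', s', hs', rfl⟩ := Submodule.mem_sup.mp hz
      obtain ⟨b, rfl⟩ := Submodule.mem_span_singleton.mp hs'
      have e1 : Φ.B w w' = 0 := hWW hw _ hw'
      have e2 : Φ.B x w' = 0 := hxW _ hw'
      have e3 : Φ.B w x = 0 := Φ.eq_zero_comm (hxW _ hw)
      rw [Φ.add_left, Φ.add_right, Φ.add_right, Φ.smul_left, Φ.smul_left, hQ.smul_r, hQ.smul_r,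
        e1, e2, e3, hQ.alt]
      ring
    · refine lt_of_le_of_ne le_sup_left fun h => hx ?_
      rw [h]
      exact Submodule.mem_sup_right (Submodule.mem_span_singleton_self x)
  have d1 := Φ.finrank_add_finrank_perp W
  have d2 := Φ.finrank_add_finrank_perp U
  have d3 := Submodule.finrank_sup_add_finrank_inf_eq U (Φ.perp U)
  rw [hU, finrank_bot] at d3
  have h2 : U ⊔ Φ.perp U = ⊤ := Submodule.eq_top_of_finrank_eq (by omega)
  have h3 : Φ.perp W = W ⊔ Φ.perp U := by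
    apply le_antisymm
    · intro x hx
      have h4 : x ∈ U ⊔ Φ.perp U := by rw [h2]; trivial
      obtain ⟨u, hu, v, hv, rfl⟩ := Submodule.mem_sup.mp h4
      refine Submodule.add_mem_sup (h1 ⟨hu, ?_⟩) hv
      have h5 : v ∈ Φ.perp W := Φ.perp_anti hWU hv
      have h6 := (Φ.perp W).sub_mem hx h5
      rwa [add_sub_cancel_right] at h6
    · exact sup_le hWW (Φ.perp_anti hWU)
  have d4 := Submodule.finrank_sup_add_finrank_inf_eq W (Φ.perp U)
  have h4 : W ⊓ Φ.perp U = ⊥ := by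
    rw [eq_bot_iff, ← hU]
    exact inf_le_inf_right _ hWU
  rw [h4, finrank_bot, ← h3] at d4
  exact ⟨finrank K W, by omega⟩

include hQ hX in
/-- isometries of odd order belong to `Ω(Q)` -/
theorem odd_mem {g : SpecialLinearGroup K E} (hg : g ∈ IsoQ Q) {m : ℕ} (hm : Odd m)
    (hgm : g ^ m = 1) : g ∈ X := by
  refine (hX g).mpr ⟨hg, even_nondeg hQ ?_⟩
  have hI : ∀ x y, Φ.B (g x) (g y) = Φ.B x y := hQ.le hg
  rw [eq_bot_iff]
  rintro x ⟨⟨y, hy⟩, hx⟩
  rw [Submodule.mem_bot]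
  have hy' : g y = y + x := by
    have h1 : g y - y = x := hy
    rw [← h1]; abel
  -- `x` is fixed
  have hfix : g x = x := by
    have h1 : ∀ z, Φ.B (g x - x) (g z) = 0 := by
      intro z
      have h2 : Φ.B x (g z - z) = 0 := hx _ ⟨z, rfl⟩
      rw [Φ.sub_left, hI]
      rw [Φ.sub_right] at h2
      linear_combination -h2
    have h2 : g x - x = 0 := by
      apply Φ.nondeg
      intro z
      have h3 := h1 (g⁻¹ z)
      rwa [apply_inv_self'] at h3
    exact sub_eq_zero.mp h2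
  have hadd : ∀ x y : E, g (x + y) = g x + g y := fun x y => map_add (g : E ≃ₗ[K] E) x y
  have hsm : ∀ (c : K) (x : E), g (c • x) = c • g x := fun c x => map_smul (g : E ≃ₗ[K] E) c x
  have hpow : ∀ k : ℕ, (g ^ k) y = y + (k : K) • x := by
    intro k
    induction k with
    | zero => rw [pow_zero, Nat.cast_zero, zero_smul, add_zero]; rfl
    | succ k ih =>
      rw [pow_succ', mul_apply', ih, hadd, hsm, hy', hfix, Nat.cast_succ, add_smul, one_smul]
      abel
  have h1 := hpow m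
  rw [hgm] at h1
  have h2 : (m : K) = 1 := by
    obtain ⟨k, rfl⟩ := hm
    push_cast
    rw [hQ.two, zero_mul, zero_add]
  have h3 : y = y + x := by rw [h2, one_smul] at h1; exact h1
  exact (left_eq_add.mp h3)

include hQ in
theorem CQ_eq : CQ Φ Q = Vale.Agent.P180.R2.H471.Oq.CQ Φ Q := by
  funext F
  apply propext
  constructor
  · rintro ⟨⟨N, h0, hN, hF⟩, hs⟩
    exact ⟨N, h0, hN, hF, fun i hi => sing hs hF hi⟩
  · rintro ⟨N, h0, hN, hF, hs⟩
    refine ⟨⟨N, h0, hN, hF⟩, ?_⟩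
    intro i hiso x hx
    rcases Nat.lt_or_ge N i with hi | hi
    · have h1 : F i = ⊤ := F.top_of_le hN hi.le
      rw [h1, Φ.perp_top, top_le_iff] at hiso
      have h2 : x ∈ (⊥ : Submodule K E) := by rw [hiso]; trivial
      rw [(Submodule.mem_bot K).mp h2, hQ.zero]
    rw [hF i hi] at hiso
    by_cases h2 : 2 * i ≤ N
    · exact hs i h2 x hx
    · exact hs (N - i) (by omega) x (hiso hx)

end

section

variable {K E : Type} [Field K] [AddCommGroup E] [Module K E] {Φ : HForm K E}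
  {Q : E → K} (hQ : QF Φ Q) [FiniteDimensional K E] [Finite K]
  {X : Subgroup (SpecialLinearGroup K E)} (hX : OmX Q X)

include hQ in
theorem sqBasis {F : Flag K E} (hF : Vale.Agent.P180.R2.H471.Oq.CQ Φ Q F) :
    Vale.Agent.P180.R2.H471.Oq.SqBasis Φ Q F := by
  rw [← CQ_eq hQ] at hF
  obtain ⟨⟨N, h0, hN, hF⟩, hs⟩ := hF
  obtain ⟨b, hb, -, hB, hbQ⟩ := exists_sq_basis hQ hN hF h0 hN hF hs hs
  exact ⟨N, _, FiniteDimensional.fintypeBasisIndex b, b, _, h0, hN, hF, hb,
    fun l m hlm => hB l m fun h => hlm h.1, hbQ⟩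

include hQ hX in
/-- **The split parabolic system of `Ω(Q)`.** -/
theorem parPair_split {p : ℕ} [Fact p.Prime] (hp2 : Odd p) {ζ : K} (hζ : ζ ^ p = 1)
    (hζ1 : ζ ≠ 1) {L : Type} [Group L] (π : X →* L)
    (hπ : Function.Surjective π)
    (hcen : ∀ x : X, π x ∈ Subgroup.center L → x.1 ∈ Subgroup.center (SpecialLinearGroup K E))
    {A : Subgroup L}
    (hdiag : finrank K E < p ∨
      ((∀ x y : X, (∃ i, x ^ (p ^ i) = 1) → (∃ i, y ^ (p ^ i) = 1) → π x ∈ A → π y ∈ A →
        x * y = y * x) ∧ ∀ x : X, (∃ i, x ^ (p ^ i) = 1) → π x ∈ A → x ^ (Nat.card K - 1) = 1)) :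
    ParPair p L A := by
  have hc : ∃ c : K, c ^ 2 ≠ c := by
    refine ⟨ζ, fun h => ?_⟩
    have h1 : ζ * (ζ - 1) = 0 := by linear_combination h
    rcases mul_eq_zero.mp h1 with h2 | h2
    · rw [h2, zero_pow (Fact.out : p.Prime).ne_zero] at hζ
      exact zero_ne_one hζ
    · exact hζ1 (sub_eq_zero.mp h2)
  have h1 := flagGeo hQ hX hc
  have h2 : ∀ F, CQ Φ Q F → VF F ⊓ IsoQ Q ≤ X := fun F hF => VF_le_X hQ hX hF
  rw [CQ_eq hQ] at h1 h2
  exact Vale.Agent.P180.R2.H471.Oq.parPairQ hQ hp2 hζ hζ1 h1 (fun g hg => ((hX g).mp hg).1) h2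
    (fun g hg m hm h => odd_mem hQ hX hg hm h) (fun F hF => sqBasis hQ hF) π hπ hcen hdiag

end

end Vale.Agent.P180.R2.H259.Oq
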