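import Vale.Agent.P180.R2.H259.Cen.C4
import Vale.Agent.P180.R2.H259.Oq.A1

set_option linter.all false

/-!
P180: `Ω(Q)` in characteristic two: toral elements, root elements, frames of singular vectors.
-/

namespace Vale.Agent.P180.R2.H259.Oq

open Module Vale.Agent.P180 Vale.Agent.P180.R2.H799 Vale.Agent.P180.R2.H799.BN
  Vale.Agent.P180.R2.H854 Vale.Agent.P180.R2.H259.Loc Vale.Agent.P180.R2.H259.Cen

variable {K E : Type*} [Field K] [AddCommGroup E] [Module K E] {Φ : HForm K E}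
  {Qf : E → K} (hq : QF Φ Qf) [FiniteDimensional K E]

section

include hq

theorem add_self (a : K) : a + a = 0 := by
  have h1 : a + a = 2 * a := by ring
  rw [h1, hq.two, zero_mul]

theorem tt_mem_IsoQ {e f : E} (h : HP Φ e f) (he : Qf e = 0) (hf : Qf f = 0) {a : K}
    (ha : a ≠ 0) : tt h ha ∈ IsoQ Qf := by
  intro x
  rw [tt_apply, hq.add, hq.add, hq.smul, hq.smul, he, hf, Φ.add_left, Φ.smul_left, hq.smul_r,
    hq.smul_r, hq.smul_r, h.ef, hq.eps, inv_one]
  field_simp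
  ring

theorem uu_mem_IsoQ {v w : E} (h : Φ.B v w = 0) (hv : Qf v = 0) (hw : Qf w = 0) (c : K) :
    uu h c ∈ IsoQ Qf := by
  intro x
  rw [uu_apply h (hq.alt w), hq.add, hq.add, hq.smul, hq.smul, hv, hw, Φ.add_left, Φ.smul_left,
    hq.smul_r, hq.smul_r, hq.smul_r, h, hq.eps, hq.th, inv_one]
  ring

end

variable [Finite K] {X : Subgroup (SpecialLinearGroup K E)} (hX : OmX Qf X)

include hq hX in
theorem tt_mem_X {e f : E} (h : HP Φ e f) (he : Qf e = 0) (hf : Qf f = 0) {a : K}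
    (ha : a ≠ 0) : tt h ha ∈ X := by
  refine mem_X hq hX (W := Submodule.span K {e}) ?_ ?_ (tt_mem_IsoQ hq h he hf ha) ?_
  · rw [Submodule.span_singleton_le_iff_mem]
    intro y hy
    obtain ⟨c, rfl⟩ := Submodule.mem_span_singleton.mp hy
    rw [hq.smul_r, hq.alt, mul_zero]
  · intro y hy
    obtain ⟨c, rfl⟩ := Submodule.mem_span_singleton.mp hy
    rw [hq.smul, he, mul_zero]
  · intro x hx
    have h1 : Φ.B x e = 0 := hx e (Submodule.mem_span_singleton_self e)
    rw [tt_apply, h1, mul_zero, zero_smul, add_zero, add_sub_cancel_left]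
    exact Submodule.smul_mem _ _ (Submodule.mem_span_singleton_self e)

include hq hX in
theorem uu_mem_X' {v w : E} (h : Φ.B v w = 0) (hv : Qf v = 0) (hw : Qf w = 0) (c : K) :
    uu h c ∈ X := by
  have h' := Φ.eq_zero_comm h
  refine mem_X hq hX (W := Submodule.span K {v}) ?_ ?_ (uu_mem_IsoQ hq h hv hw c) ?_
  · rw [Submodule.span_singleton_le_iff_mem]
    intro y hy
    obtain ⟨c, rfl⟩ := Submodule.mem_span_singleton.mp hy
    rw [hq.smul_r, hq.alt, mul_zero]
  · intro y hy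
    obtain ⟨c, rfl⟩ := Submodule.mem_span_singleton.mp hy
    rw [hq.smul, hv, mul_zero]
  · intro x hx
    have h1 : Φ.B x v = 0 := hx v (Submodule.mem_span_singleton_self v)
    rw [uu_apply h (hq.alt w), h1, mul_zero, zero_smul, add_zero, add_sub_cancel_left]
    exact Submodule.smul_mem _ _ (Submodule.mem_span_singleton_self v)

include hq in
/-- **Frames** of singular vectors. -/
theorem exists_frameQ {p : ℕ} [Fact p.Prime] (hp2 : Odd p) {ω : K} (hω0 : ω ≠ 0)
    (hω : ∀ c : K, (∃ m, c ^ p ^ m = 1) → ∃ k : ℕ, c = ω ^ k) :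
    ∀ (n : ℕ) (Q : Subgroup (SpecialLinearGroup K E)), Q ≤ IsoQ Qf → IsPGroup p Q →
      (∀ x ∈ Q, ∀ y ∈ Q, x * y = y * x) → (∀ g ∈ Q, g ^ (Nat.card K - 1) = 1) →
      finrank K E ≤ finrank K (Cen.fx Q) + n →
      ∃ 𝓗 : Set (HPr Φ), (∀ a ∈ 𝓗, Qf a.e = 0 ∧ Qf a.f = 0) ∧
        (∀ a ∈ 𝓗, ∀ b ∈ 𝓗, a ≠ b → Orth a b) ∧
        (∀ a ∈ 𝓗, ∀ u ∈ Cen.fx Q, Φ.B a.e u = 0 ∧ Φ.B a.f u = 0) ∧
        Q ≤ Subgroup.closure ((fun a : HPr Φ => tt a.h hω0) '' 𝓗) := by
  have hθ : ∀ c : K, (∃ m, c ^ p ^ m = 1) → Φ.θ c = c := fun c _ => hq.th c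
  intro n
  induction n with
  | zero =>
    intro Q hQQ hQp hab hexp hn
    have hQI : Q ≤ Φ.Iso := hQQ.trans hq.le
    have h1 : Cen.fx Q = ⊤ := by
      refine Submodule.eq_top_of_finrank_eq (le_antisymm (Submodule.finrank_le _) ?_)
      simpa using hn
    refine ⟨∅, by simp, by simp, by simp, ?_⟩
    intro x hx
    have h2 : x = 1 := by
      apply toEnd_injective
      apply LinearMap.ext
      intro u
      have h3 : u ∈ Cen.fx Q := by rw [h1]; trivial
      exact h3 x hx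
    rw [h2]
    exact Subgroup.one_mem _
  | succ n ih =>
    intro Q hQQ hQp hab hexp hn
    have hQI : Q ≤ Φ.Iso := hQQ.trans hq.le
    by_cases hQ1 : ∀ x ∈ Q, x = 1
    · refine ⟨∅, by simp, by simp, by simp, ?_⟩
      intro x hx
      rw [hQ1 x hx]
      exact Subgroup.one_mem _
    push Not at hQ1
    obtain ⟨x₀, hx₀, hx₀1⟩ := hQ1
    have hspan : Submodule.span K (EV Q) = ⊤ := span_EV_of_comm hab hexp
    obtain ⟨v, hvE, hv⟩ : ∃ v ∈ EV Q, x₀ v ≠ v := by
      by_contra hcon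
      push Not at hcon
      apply hx₀1
      have h1 : Submodule.span K (EV Q) ≤ LinearMap.ker (toEnd x₀ - 1) := by
        rw [Submodule.span_le]
        intro v hv
        rw [SetLike.mem_coe, LinearMap.mem_ker, LinearMap.sub_apply, sub_eq_zero]
        exact hcon v hv
      rw [hspan, top_le_iff] at h1
      apply toEnd_injective
      have h2 := LinearMap.ker_eq_top.mp h1
      exact sub_eq_zero.mp h2
    have hv0 : v ≠ 0 := by
      rintro rfl
      exact hv (map_zero (x₀ : E ≃ₗ[K] E))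
    obtain ⟨l, hl⟩ := hvE x₀ hx₀
    have hl1 : l ≠ 1 := by
      rintro rfl
      exact hv (by rw [hl, one_smul])
    obtain ⟨w, hwE, hw⟩ : ∃ w ∈ EV Q, Φ.B v w ≠ 0 := by
      by_contra hcon
      push Not at hcon
      have h1 : Submodule.span K (EV Q) ≤ LinearMap.ker (Φ.fn v) := by
        rw [Submodule.span_le]
        intro w hw
        exact Φ.eq_zero_comm (hcon w hw)
      rw [hspan, top_le_iff] at h1
      have h2 := LinearMap.ker_eq_top.mp h1
      apply hv0
      refine Φ.eq_zero_of_right fun x => ?_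
      exact congrArg (fun φ : E →ₗ[K] K => φ x) h2
    have hw0 : w ≠ 0 := by
      rintro rfl
      exact hw (Φ.zero_right v)
    -- the characters are inverse
    have hchar : ∀ x ∈ Q, ∀ c c' : K, x v = c • v → x w = c' • w → c * c' = 1 := by
      intro x hx c c' hc hc'
      have h1 := hQI hx v w
      rw [hc, hc', Φ.smul_left, Φ.smul_right, hθ c' (eig_pow hQp hx hw0 hc'), ← mul_assoc] at h1
      exact mul_right_cancel₀ hw (by rw [h1, one_mul])
    have hiso : ∀ u : E, u ≠ 0 → ∀ c : K, x₀ u = c • u → c ≠ 1 → Φ.B u u = 0 := by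
      intro u hu c hc hc1
      obtain ⟨m, hm⟩ := eig_pow hQp hx₀ hu hc
      have h1 := hQI hx₀ u u
      rw [hc, Φ.smul_left, Φ.smul_right, hθ c ⟨m, hm⟩, ← mul_assoc] at h1
      by_contra hne
      have h2 : c ^ 2 = 1 := by
        rw [sq]
        exact mul_right_cancel₀ hne (by rw [h1, one_mul])
      have h3 := pow_odd_eq h2 (hp2.pow (n := m))
      rw [hm] at h3
      exact hc1 h3.symm
    have hsing : ∀ u : E, u ≠ 0 → ∀ c : K, x₀ u = c • u → c ≠ 1 → Qf u = 0 := by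
      intro u hu c hc hc1
      obtain ⟨m, hm⟩ := eig_pow hQp hx₀ hu hc
      have h1 := hQQ hx₀ u
      rw [hc, hq.smul] at h1
      by_contra hne
      have h2 : c ^ 2 = 1 := mul_right_cancel₀ hne (by rw [h1, one_mul])
      have h3 := pow_odd_eq h2 (hp2.pow (n := m))
      rw [hm] at h3
      exact hc1 h3.symm
    obtain ⟨l', hl'⟩ := hwE x₀ hx₀
    have hll := hchar x₀ hx₀ l l' hl hl'
    have hl'1 : l' ≠ 1 := by
      rintro rfl
      rw [mul_one] at hll
      exact hl1 hll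
    set f : E := (Φ.θ (Φ.B v w))⁻¹ • w with hf
    have hθ0 : Φ.θ (Φ.B v w) ≠ 0 := (map_ne_zero Φ.θ).mpr hw
    have h : HP Φ v f := by
      refine ⟨hiso v hv0 l hl hl1, ?_, ?_⟩
      · rw [hf, Φ.smul_left, Φ.smul_right, hiso w hw0 l' hl' hl'1, mul_zero, mul_zero]
      · rw [hf, Φ.smul_right, map_inv₀, Φ.θθ, inv_mul_cancel₀ hw]
    have hvQ : Qf v = 0 := hsing v hv0 l hl hl1
    have hfQ : Qf f = 0 := by rw [hf, hq.smul, hsing w hw0 l' hl' hl'1, mul_zero]
    have hsm : ∀ (g : SpecialLinearGroup K E) (c : K) (x : E), g (c • x) = c • g x :=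
      fun g c x => map_smul (g : E ≃ₗ[K] E) c x
    have hfe : ∀ x ∈ Q, ∀ c : K, x v = c • v → c ≠ 0 ∧ x f = c⁻¹ • f := by
      intro x hx c hc
      obtain ⟨c', hc'⟩ := hwE x hx
      have h1 := hchar x hx c c' hc hc'
      have h2 : c ≠ 0 := by
        rintro rfl
        rw [zero_mul] at h1
        exact zero_ne_one h1
      refine ⟨h2, ?_⟩
      rw [hf, hsm, hc', eq_inv_of_mul_eq_one_right h1, smul_comm]
    have hN : ∀ c : K, c ≠ 0 → c ^ (Nat.card K - 1) = 1 := by
      intro c hc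
      have _ := Fintype.ofFinite K
      rw [Nat.card_eq_fintype_card]
      exact FiniteField.pow_card_sub_one_eq_one c hc
    -- commutation
    have hcomm : ∀ x ∈ Q, ∀ (a : K) (ha : a ≠ 0), x * tt h ha = tt h ha * x := by
      intro x hx a ha
      obtain ⟨c, hc⟩ := hvE x hx
      obtain ⟨hc0, hcf⟩ := hfe x hx c hc
      have hθc := hθ c (eig_pow hQp hx hv0 hc)
      have h1 := conj_tt (hQI hx) h h (c := c) (c' := c⁻¹)
        (by rw [map_inv₀, hθc, mul_inv_cancel₀ hc0]) (by rw [hθc, inv_mul_cancel₀ hc0]) hc hcf ha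
      exact mul_inv_eq_iff_eq_mul.mp h1
    have htt : ∀ (a b : K) (ha : a ≠ 0) (hb : b ≠ 0), tt h ha * tt h hb = tt h hb * tt h ha := by
      intro a b ha hb
      rw [tt_mul, tt_mul]
      exact tt_congr h _ _ (mul_comm a b)
    -- the subgroup fixing `v` and `f`
    let Q₁ : Subgroup (SpecialLinearGroup K E) :=
      { carrier := {y | (∃ q ∈ Q, ∃ (a : K) (ha : a ≠ 0), (∃ m, a ^ p ^ m = 1) ∧
          y = q * tt h ha) ∧ y v = v ∧ y f = f}
        one_mem' := ⟨⟨1, Q.one_mem, 1, one_ne_zero, ⟨0, one_pow _⟩, by rw [tt_one, mul_one]⟩,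
          rfl, rfl⟩
        mul_mem' := by
          rintro y y' ⟨⟨q, hq, a, ha, ⟨m, hm⟩, rfl⟩, hy1, hy2⟩
            ⟨⟨q', hq', a', ha', ⟨m', hm'⟩, rfl⟩, hy1', hy2'⟩
          refine ⟨⟨q * q', Q.mul_mem hq hq', a * a', mul_ne_zero ha ha', ⟨m + m', ?_⟩, ?_⟩, ?_, ?_⟩
          · have e1 : a ^ p ^ (m + m') = 1 := by rw [pow_add, pow_mul, hm, one_pow]
            have e2 : a' ^ p ^ (m + m') = 1 := by
              rw [add_comm, pow_add, pow_mul, hm', one_pow]
            rw [mul_pow, e1, e2, one_mul]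
          · rw [← tt_mul h ha ha', mul_assoc, ← mul_assoc (tt h ha), ← hcomm q' hq' a ha]
            group
          · change (q * tt h ha) ((q' * tt h ha') v) = v
            rw [hy1', hy1]
          · change (q * tt h ha) ((q' * tt h ha') f) = f
            rw [hy2', hy2]
        inv_mem' := by
          rintro y ⟨⟨q, hq, a, ha, ⟨m, hm⟩, rfl⟩, hy1, hy2⟩
          refine ⟨⟨q⁻¹, Q.inv_mem hq, a⁻¹, inv_ne_zero ha, ⟨m, by rw [inv_pow, hm, inv_one]⟩,
            ?_⟩, ?_, ?_⟩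
          · rw [_root_.mul_inv_rev, hcomm _ (Q.inv_mem hq)]
            congr 1
            have h1 : tt h ha * tt h (inv_ne_zero ha) = 1 := by
              rw [tt_mul, ← tt_one h]
              exact tt_congr h _ _ (mul_inv_cancel₀ ha)
            exact inv_eq_of_mul_eq_one_right h1
          · have e1 : (q * tt h ha)⁻¹ ((q * tt h ha) v) = v := inv_apply_self' _ _
            rwa [hy1] at e1
          · have e1 : (q * tt h ha)⁻¹ ((q * tt h ha) f) = f := inv_apply_self' _ _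
            rwa [hy2] at e1 }
    have hQ₁I : Q₁ ≤ IsoQ Qf := by
      rintro _ ⟨⟨q, hq', a, ha, hm, rfl⟩, -, -⟩
      exact (IsoQ Qf).mul_mem (hQQ hq') (tt_mem_IsoQ hq h hvQ hfQ ha)
    have hpw : ∀ q ∈ Q, ∀ (a : K) (ha : a ≠ 0) (m : ℕ), (q * tt h ha) ^ m =
        q ^ m * tt h ha ^ m := by
      intro q hq a ha m
      exact (show Commute q (tt h ha) from hcomm q hq a ha).mul_pow m
    have hQ₁p : IsPGroup p Q₁ := by
      rintro ⟨_, ⟨q, hq, a, ha, ⟨m, hm⟩, rfl⟩, h1, h2⟩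
      obtain ⟨i, hi⟩ := hQp ⟨q, hq⟩
      have hi : q ^ p ^ i = 1 := congrArg Subtype.val hi
      refine ⟨i + m, Subtype.ext ?_⟩
      change (q * tt h ha) ^ p ^ (i + m) = 1
      rw [hpw q hq, pow_add, pow_mul, hi, one_pow, one_mul, mul_comm, pow_mul, tt_pow_one h ha hm,
        one_pow]
    have hQ₁ab : ∀ x ∈ Q₁, ∀ y ∈ Q₁, x * y = y * x := by
      rintro _ ⟨⟨q, hq, a, ha, -, rfl⟩, -, -⟩ _ ⟨⟨q', hq', a', ha', -, rfl⟩, -, -⟩
      calc q * tt h ha * (q' * tt h ha') = q * (tt h ha * q') * tt h ha' := by group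
        _ = q * (q' * tt h ha) * tt h ha' := by rw [hcomm q' hq' a ha]
        _ = (q * q') * (tt h ha * tt h ha') := by group
        _ = (q' * q) * (tt h ha' * tt h ha) := by rw [hab q hq q' hq', htt]
        _ = q' * (q * tt h ha') * tt h ha := by group
        _ = q' * (tt h ha' * q) * tt h ha := by rw [hcomm q hq a' ha']
        _ = q' * tt h ha' * (q * tt h ha) := by group
    have hQ₁e : ∀ g ∈ Q₁, g ^ (Nat.card K - 1) = 1 := by
      rintro _ ⟨⟨q, hq, a, ha, -, rfl⟩, -, -⟩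
      rw [hpw q hq, hexp q hq, tt_pow_one h ha (hN a ha), one_mul]
    have horth : ∀ u ∈ Cen.fx Q, Φ.B u v = 0 ∧ Φ.B u f = 0 := by
      intro u hu
      have key : ∀ w' : E, ∀ c : K, x₀ w' = c • w' → c ≠ 1 → Φ.B u w' = 0 := by
        intro w' c hc hc1
        have h1 := hQI hx₀ u w'
        rw [hu x₀ hx₀, hc, Φ.smul_right] at h1
        by_contra hne
        have h2 : Φ.θ c = 1 := mul_right_cancel₀ hne (by rw [h1, one_mul])
        apply hc1
        rw [← Φ.θθ c, h2, map_one]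
      refine ⟨key v l hl hl1, ?_⟩
      rw [hf, Φ.smul_right, key w l' hl' hl'1, mul_zero]
    have hle : Cen.fx Q ≤ Cen.fx Q₁ := by
      intro u hu
      rintro _ ⟨⟨q, hq, a, ha, -, rfl⟩, -, -⟩
      change q (tt h ha u) = u
      rw [tt_fix h ha (horth u hu).1 (horth u hu).2, hu q hq]
    have hv₁ : v ∈ Cen.fx Q₁ := by
      intro y hy
      exact hy.2.1
    have hf₁ : f ∈ Cen.fx Q₁ := by
      intro y hy
      exact hy.2.2
    have hlt : Cen.fx Q < Cen.fx Q₁ := by
      refine lt_of_le_of_ne hle fun h1 => ?_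
      rw [← h1] at hv₁
      exact hv (hv₁ x₀ hx₀)
    have hfr := Submodule.finrank_lt_finrank_of_lt hlt
    obtain ⟨𝓗, h0, h1, h2, h3⟩ := ih Q₁ hQ₁I hQ₁p hQ₁ab hQ₁e (by omega)
    have ho : ∀ a ∈ 𝓗, Orth a ⟨v, f, h⟩ := by
      intro a ha
      exact ⟨(h2 a ha v hv₁).1, (h2 a ha f hf₁).1, (h2 a ha v hv₁).2, (h2 a ha f hf₁).2⟩
    refine ⟨insert ⟨v, f, h⟩ 𝓗, ?_, ?_, ?_, ?_⟩
    · rintro a (rfl | ha)
      · exact ⟨hvQ, hfQ⟩
      · exact h0 a ha
    · rintro a (rfl | ha) b (rfl | hb) hne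
      · exact absurd rfl hne
      · exact (ho b hb).symm
      · exact ho a ha
      · exact h1 a ha b hb hne
    · rintro a (rfl | ha) u hu
      · exact ⟨Φ.eq_zero_comm (horth u hu).1, Φ.eq_zero_comm (horth u hu).2⟩
      · exact h2 a ha u (hle hu)
    · intro x hx
      obtain ⟨c, hc⟩ := hvE x hx
      obtain ⟨hc0, hcf⟩ := hfe x hx c hc
      have hcp := eig_pow hQp hx hv0 hc
      have hy : x * tt h (inv_ne_zero hc0) ∈ Q₁ := by
        refine ⟨⟨x, hx, c⁻¹, inv_ne_zero hc0, ?_, rfl⟩, ?_, ?_⟩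
        · obtain ⟨m, hm⟩ := hcp
          exact ⟨m, by rw [inv_pow, hm, inv_one]⟩
        · change x (tt h (inv_ne_zero hc0) v) = v
          rw [tt_e, hsm, hc, smul_smul, inv_mul_cancel₀ hc0, one_smul]
        · change x (tt h (inv_ne_zero hc0) f) = f
          rw [tt_f, hsm, hcf, smul_smul, inv_inv, mul_inv_cancel₀ hc0, one_smul]
      have hx2 : x = (x * tt h (inv_ne_zero hc0)) * tt h hc0 := by
        rw [mul_assoc, tt_mul]
        have e1 : tt h (mul_ne_zero (inv_ne_zero hc0) hc0) = 1 := by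
          rw [← tt_one h]
          exact tt_congr h _ _ (inv_mul_cancel₀ hc0)
        rw [e1, mul_one]
      rw [hx2]
      refine Subgroup.mul_mem _ ?_ ?_
      · exact Subgroup.closure_mono (Set.image_mono (Set.subset_insert _ _)) (h3 hy)
      · obtain ⟨k, hk⟩ := hω c hcp
        have e1 : tt h hc0 = tt h hω0 ^ k := by
          rw [tt_pow]
          exact tt_congr h _ _ hk
        rw [e1]
        exact Subgroup.pow_mem _ (Subgroup.subset_closure (Set.mem_image_of_mem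
          (fun a : HPr Φ => tt a.h hω0) (Set.mem_insert (⟨v, f, h⟩ : HPr Φ) 𝓗))) k

end Vale.Agent.P180.R2.H259.Oq
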