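import Vale.Agent.P180.R2.H259.Oq.B1

set_option linter.all false

/-!
P180: the `p`-part of the multiplier of `Ω(Q)`, characteristic two, `p` dividing `q - 1`.
-/

namespace Vale.Agent.P180.R2.H259.Oq

open Module Vale.Agent.P180 Vale.Agent.P180.R2.H799 Vale.Agent.P180.R2.H799.BN
  Vale.Agent.P180.R2.H854 Vale.Agent.P180.R2.H259.Loc Vale.Agent.P180.R2.H259.Cen

variable {K E : Type} [Field K] [AddCommGroup E] [Module K E] {Φ : HForm K E}
  {Qf : E → K} (hq : QF Φ Qf) [FiniteDimensional K E] [Finite K]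
  {X : Subgroup (SpecialLinearGroup K E)} (hX : OmX Qf X)

include hq hX in
/-- The element swapping two orthogonal hyperbolic pairs of singular vectors. -/
theorem exists_swapQ {e f e' f' : E} (h : HP Φ e f) (h' : HP Φ e' f') (he : Qf e = 0)
    (hf : Qf f = 0) (he' : Qf e' = 0) (hf' : Qf f' = 0) (hee : Φ.B e e' = 0) (hef : Φ.B e f' = 0)
    (hfe : Φ.B f e' = 0) (hff : Φ.B f f' = 0) :
    ∃ s ∈ X, s e = e' ∧ s f = f' ∧ s e' = -e ∧ s f' = -f := by
  have hee' := Φ.eq_zero_comm hee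
  have hef' := Φ.eq_zero_comm hef
  have hfe' := Φ.eq_zero_comm hfe
  have hff' := Φ.eq_zero_comm hff
  have h0 := eps_ne (Φ := Φ)
  -- `u : e ↦ e + c e'`, `f' ↦ f' - c f`; `w : e' ↦ e' + c e`, `f ↦ f - c f'`
  have u1 : ∀ c : K, uu hfe' c e = e + c • e' := by
    intro c
    rw [uu_apply hfe' h.ff, h.ef, hee, mul_one, mul_zero, zero_smul, add_zero]
  have u2 : ∀ c : K, uu hfe' c e' = e' := by
    intro c
    rw [uu_apply hfe' h.ff, hfe', h'.ee, mul_zero, mul_zero, zero_smul, zero_smul, add_zero,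
      add_zero]
  have u3 : ∀ c : K, uu hfe' c f = f := by
    intro c
    rw [uu_apply hfe' h.ff, h.ff, hfe, mul_zero, mul_zero, zero_smul, zero_smul, add_zero,
      add_zero]
  have u4 : ∀ c : K, uu hfe' c f' = f' - Φ.θ c • f := by
    intro c
    rw [uu_apply hfe' h.ff, hff', h'.fe, mul_zero, zero_smul, add_zero]
    have e1 : -(Φ.ε⁻¹ * Φ.θ c) * Φ.ε = -Φ.θ c := by field_simp
    rw [e1, neg_smul, sub_eq_add_neg]
  have w1 : ∀ c : K, uu hef c e' = e' + c • e := by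
    intro c
    rw [uu_apply hef h'.ff, h'.ef, hee', mul_one, mul_zero, zero_smul, add_zero]
  have w2 : ∀ c : K, uu hef c e = e := by
    intro c
    rw [uu_apply hef h'.ff, hef, h.ee, mul_zero, mul_zero, zero_smul, zero_smul, add_zero,
      add_zero]
  have w3 : ∀ c : K, uu hef c f' = f' := by
    intro c
    rw [uu_apply hef h'.ff, h'.ff, hef', mul_zero, mul_zero, zero_smul, zero_smul, add_zero,
      add_zero]
  have w4 : ∀ c : K, uu hef c f = f - Φ.θ c • f' := by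
    intro c
    rw [uu_apply hef h'.ff, hff, h.fe, mul_zero, zero_smul, add_zero]
    have e1 : -(Φ.ε⁻¹ * Φ.θ c) * Φ.ε = -Φ.θ c := by field_simp
    rw [e1, neg_smul, sub_eq_add_neg]
  have hadd : ∀ (g : SpecialLinearGroup K E) (x y : E), g (x + y) = g x + g y := fun g x y =>
    map_add (g : E ≃ₗ[K] E) x y
  have hneg : ∀ (g : SpecialLinearGroup K E) (x : E), g (-x) = -g x := fun g x =>
    map_neg (g : E ≃ₗ[K] E) x
  refine ⟨uu hfe' 1 * uu hef (-1) * uu hfe' 1, X.mul_mem (X.mul_mem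
    (uu_mem_X' hq hX hfe' he' hf 1) (uu_mem_X' hq hX hef he hf' (-1)))
    (uu_mem_X' hq hX hfe' he' hf 1), ?_, ?_, ?_, ?_⟩
  · change uu hfe' 1 (uu hef (-1) (uu hfe' 1 e)) = e'
    rw [u1, one_smul, hadd, w2, w1, hadd, u1, hadd, u2, neg_smul, one_smul, one_smul, hneg, u1,
      one_smul]
    abel
  · change uu hfe' 1 (uu hef (-1) (uu hfe' 1 f)) = f'
    rw [u3, w4, map_neg, map_one, neg_smul, one_smul, sub_neg_eq_add, hadd, u3, u4, map_one,
      one_smul]
    abel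
  · change uu hfe' 1 (uu hef (-1) (uu hfe' 1 e')) = -e
    rw [u2, w1, neg_smul, one_smul, hadd, hneg, u2, u1, one_smul]
    abel
  · change uu hfe' 1 (uu hef (-1) (uu hfe' 1 f')) = -f
    rw [u4, map_one, one_smul, sub_eq_add_neg, hadd, hneg, w3, w4, map_neg, map_one, neg_smul,
      one_smul, sub_neg_eq_add]
    have e1 : f' + -(f + f') = -f := by abel
    rw [e1, hneg, u3]

include hq hX in
/-- lifts of commuting diagonalisable `p`-elements commute -/
theorem cm_of_frameQ {p : ℕ} [Fact p.Prime] (hp2 : Odd p)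
    {T L : Type*} [Group T] [Group L] {π : X →* T} {φ : L →* T} (hφ : Function.Surjective φ)
    (hk : φ.ker ≤ Subgroup.center L) {Q : Subgroup X} (hQ : IsPGroup p Q)
    (hab : ∀ x ∈ Q, ∀ y ∈ Q, x * y = y * x) (hexp : ∀ g ∈ Q, g ^ (Nat.card K - 1) = 1) :
    ∀ x ∈ Q, ∀ y ∈ Q, Cm π φ x y := by
  obtain ⟨ω, hω0, ⟨m, hωm⟩, hω⟩ := exists_gen_root (K := K) p
  have hXI : X ≤ Φ.Iso := fun g hg => hq.le ((hX g).mp hg).1
  have hodd : Odd (p ^ m) := hp2.pow
  obtain ⟨𝓗, h0, h1, -, h3⟩ := exists_frameQ hq hp2 hω0 hω (finrank K E) (Q.map X.subtype)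
    (by
      rintro _ ⟨x, -, rfl⟩
      exact ((hX x).mp x.2).1) (hQ.map _)
    (by
      rintro _ ⟨x, hx, rfl⟩ _ ⟨y, hy, rfl⟩
      exact congrArg Subtype.val (hab x hx y hy))
    (by
      rintro _ ⟨x, hx, rfl⟩
      exact congrArg Subtype.val (hexp x hx)) (Nat.le_add_left _ _)
  have htX : ∀ a ∈ 𝓗, tt a.h hω0 ∈ X := fun a ha => tt_mem_X hq hX a.h (h0 a ha).1 (h0 a ha).2 hω0
  let S : Set X := {x | ∃ a ∈ 𝓗, x.1 = tt a.h hω0}
  have himg : (fun a : HPr Φ => tt a.h hω0) '' 𝓗 = X.subtype '' S := by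
    ext x
    constructor
    · rintro ⟨a, ha, rfl⟩
      exact ⟨⟨_, htX a ha⟩, ⟨a, ha, rfl⟩, rfl⟩
    · rintro ⟨x, ⟨a, ha, hx⟩, rfl⟩
      exact ⟨a, ha, hx.symm⟩
  rw [himg, ← MonoidHom.map_closure] at h3
  have hQt : Q ≤ Subgroup.closure S := by
    intro x hx
    obtain ⟨y, hy, hyx⟩ := h3 ⟨x, hx, rfl⟩
    rwa [← Subtype.ext hyx]
  have hcl := Cm.closure (π := π) hφ hk (S := S) (by
    rintro ⟨_, hxX⟩ ⟨a, ha, rfl⟩ ⟨_, hyX⟩ ⟨b, hb, rfl⟩
    by_cases hne : a = b
    · subst hne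
      exact Cm.self hk _
    obtain ⟨o1, o2, o3, o4⟩ := h1 a ha b hb hne
    obtain ⟨s, hsX, s1, s2, s3, s4⟩ := exists_swapQ hq hX a.h b.h (h0 a ha).1 (h0 a ha).2
      (h0 b hb).1 (h0 b hb).2 o1 o2 o3 o4
    have e1 : s * tt a.h hω0 * s⁻¹ = tt b.h hω0 :=
      conj_tt (hXI hsX) a.h b.h (c := 1) (c' := 1) (by rw [map_one, one_mul])
        (by rw [map_one, one_mul]) (by rw [s1, one_smul]) (by rw [s2, one_smul]) hω0
    have e2 : s * tt b.h hω0 * s⁻¹ = tt a.h hω0 :=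
      conj_tt (hXI hsX) b.h a.h (c := -1) (c' := -1) (by rw [map_neg, map_one]; ring)
        (by rw [map_neg, map_one]; ring) (by rw [s3, neg_one_smul]) (by rw [s4, neg_one_smul]) hω0
    refine Cm.swap hφ hk (s := ⟨s, hsX⟩) (Subtype.ext e1) (Subtype.ext e2) ?_ hodd
      (Subtype.ext (tt_pow_one a.h hω0 hωm))
    apply Subtype.ext
    change tt a.h hω0 * tt b.h hω0 = tt b.h hω0 * tt a.h hω0
    -- `tt b` fixes the vectors of the pair `a`
    have e3 : tt b.h hω0 * tt a.h hω0 * (tt b.h hω0)⁻¹ = tt a.h hω0 :=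
      conj_tt (hXI (htX b hb)) a.h a.h (c := 1) (c' := 1) (by rw [map_one, one_mul])
        (by rw [map_one, one_mul]) (by rw [tt_fix b.h hω0 o1 o2, one_smul])
        (by rw [tt_fix b.h hω0 o3 o4, one_smul]) hω0
    exact (mul_inv_eq_iff_eq_mul.mp e3).symm)
  exact fun x hx y hy => hcl x (hQt hx) y (hQt hy)

include hq hX in
/-- **The `p`-part of the multiplier** of `Ω(Q)`, dimension less than `p`, `p` odd and dividing
`q - 1`, is trivial. -/
theorem not_dvd_centerQ {p : ℕ} [Fact p.Prime] (hp2 : Odd p) {ζ : K} (hζ : ζ ^ p = 1)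
    (hζ1 : ζ ≠ 1)
    (hd : finrank K E < p) {L T : Type} [Group L] [Finite L] [Group T] (hL : commutator L = ⊤)
    {φ : L →* T} (hφ : Function.Surjective φ) (hk : φ.ker ≤ Subgroup.center L) (π : X →* T)
    (hπ : Function.Surjective π) : ¬ p ∣ Nat.card (Subgroup.center L) := by
  have hp : p.Prime := Fact.out
  have hfG : Finite (SpecialLinearGroup K E) := HForm.finite_SL
  have hp1 : p ∣ Nat.card K - 1 := by
    have hζ0 : ζ ≠ 0 := by
      rintro rfl
      rw [zero_pow hp.ne_zero] at hζ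
      exact zero_ne_one hζ
    have h1 : orderOf (Units.mk0 ζ hζ0) = p := by
      apply orderOf_eq_prime
      · ext
        simpa using hζ
      · intro h
        exact hζ1 (by simpa using congrArg Units.val h)
    rw [← Nat.card_units, ← h1]
    exact orderOf_dvd_natCard _
  let P : Sylow p L := default
  refine not_dvd_center_of_comm hL P ?_
  have hfT : Finite T := Finite.of_surjective φ hφ
  have hPT : IsPGroup p ((P : Subgroup L).map φ) := P.2.map φ
  obtain ⟨Q, hQ, hQP⟩ :=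
    Vale.Agent.P180.R2.H799.BN.exists_lift (p := p) π hπ hPT
  have hQ'p : IsPGroup p (Q.map X.subtype) := hQ.map _
  have hspan : Submodule.span K (EV (Q.map X.subtype)) = ⊤ := span_EV_of_lt hQ'p hp1 hd
  have hab : ∀ x ∈ Q, ∀ y ∈ Q, x * y = y * x := fun x hx y hy =>
    Subtype.ext (comm_of_span hspan x.1 ⟨x, hx, rfl⟩ y.1 ⟨y, hy, rfl⟩)
  have hexp : ∀ g ∈ Q, g ^ (Nat.card K - 1) = 1 := by
    intro g hg
    apply Subtype.ext
    change g.1 ^ (Nat.card K - 1) = 1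
    apply toEnd_injective
    have h1 : Submodule.span K (EV (Q.map X.subtype)) ≤
        LinearMap.ker (toEnd (g.1 ^ (Nat.card K - 1)) - 1) := by
      rw [Submodule.span_le]
      intro v hv
      rw [SetLike.mem_coe, LinearMap.mem_ker, LinearMap.sub_apply, sub_eq_zero]
      obtain ⟨c, hc⟩ := hv g.1 ⟨g, hg, rfl⟩
      have h2 := pow_apply_eigen hc (Nat.card K - 1)
      change (g.1 ^ (Nat.card K - 1)) v = v
      rw [h2]
      by_cases hv0 : v = 0
      · rw [hv0, smul_zero]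
      have hc0 : c ≠ 0 := by
        rintro rfl
        rw [zero_smul] at hc
        exact hv0 ((map_eq_zero_iff (g.1.1 : E ≃ₗ[K] E) (g.1.1 : E ≃ₗ[K] E).injective).mp hc)
      have _ := Fintype.ofFinite K
      rw [Nat.card_eq_fintype_card, FiniteField.pow_card_sub_one_eq_one c hc0, one_smul]
    rw [hspan, top_le_iff] at h1
    exact sub_eq_zero.mp (LinearMap.ker_eq_top.mp h1)
  have hcm := cm_of_frameQ (π := π) hq hX hp2 hφ hk hQ hab hexp
  intro a ha b hb
  have ha' : φ a ∈ Q.map π := by rw [hQP]; exact ⟨a, ha, rfl⟩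
  have hb' : φ b ∈ Q.map π := by rw [hQP]; exact ⟨b, hb, rfl⟩
  obtain ⟨x, hx, hxa⟩ := ha'
  obtain ⟨y, hy, hyb⟩ := hb'
  exact hcm x hx y hy a b hxa.symm hyb.symm

end Vale.Agent.P180.R2.H259.Oq
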