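import Vale.Agent.P180.R2.H954.Hf3
import Vale.Agent.P180.R2.H259.Loc.QdS

set_option linter.all false

/-!
P180: selfdual decompositions: the nontrivial summands are totally singular (characteristic two).
-/

namespace Vale.Agent.P180.R2.H259.Oq

open Module Vale.Agent.P180.R2.H854 Vale.Agent.P180.R2.H954.Hc Vale.Agent.P180.R2.H259.Loc

variable {K E : Type} [Field K] [AddCommGroup E] [Module K E]
  [FiniteDimensional K E] [Finite K]

/-- **Decomposition of a space with a form**; the differences `q y - y` exhaust the nontrivial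
summands. -/
theorem exists_sdec' (Φ : HForm K E) {p : ℕ} (hp : p.Prime)
    {Q : Subgroup (SpecialLinearGroup K E)} [Finite Q] (hQp : IsPGroup p Q)
    (hKQ : (Nat.card K).Coprime (Nat.card Q)) (hQ : Q ≤ Φ.Iso)
    (hab : ∀ x ∈ Q, ∀ y ∈ Q, x * y = y * x)
    (hlin : ∀ j : ℕ, (∀ c : K, Φ.θ c = c ^ (ringChar K ^ j)) → ¬ p ∣ ringChar K ^ j + 1) :
    ∃ D : Dec Q, (∀ i, Φ.adj (D.e i) = D.e (Fin.rev i)) ∧
      (∀ i, Fin.rev i = i → ∀ q ∈ Q, toEnd q * D.e i = D.e i) ∧
      ∀ i, Fin.rev i ≠ i → ∀ v ∈ LinearMap.range (D.e i), ∃ q ∈ Q,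
        ∃ y ∈ LinearMap.range (D.e i), toEnd q y - y = v := by
  classical
  obtain ⟨T, hT, ε, h1, h2, h3, h4, h5, h6⟩ := exists_core Q hKQ hab
  set s := st Φ.θ Q hab with hs
  have hss : ∀ x, s (s x) = x := fun x => st_st Φ.θθ hab x
  have hcomm : ∀ x y : MonoidAlgebra K Q, x * y = y * x := by
    intro x y
    induction x using MonoidAlgebra.induction_linear with
    | zero => simp
    | add x x' hx hx' => rw [add_mul, mul_add, hx, hx']
    | single q c =>
      induction y using MonoidAlgebra.induction_linear with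
      | zero => simp
      | add y y' hy hy' => rw [mul_add, add_mul, hy, hy']
      | single q' c' =>
        rw [MonoidAlgebra.single_mul_single, MonoidAlgebra.single_mul_single, mul_comm c]
        congr 1
        exact Subtype.ext (hab _ q.2 _ q'.2)
  -- primitivity
  have hprim : ∀ t, ∀ c, c * c = c → c * ε t = 0 ∨ c * ε t = ε t := by
    intro t c hc
    obtain ⟨F, _, _, π, hπ, hπ0⟩ := h5 t
    have g1 : π c * (π c - 1) = 0 := by
      rw [mul_sub, mul_one, ← map_mul, hc, sub_self]
    rcases mul_eq_zero.mp g1 with h | h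
    · left
      exact (hπ0 c).mp h
    · right
      have g2 : π (c - 1) = 0 := by rw [map_sub, map_one]; exact h
      rw [hπ0, sub_mul, one_mul, sub_eq_zero] at g2
      exact g2
  -- duality
  have hdual : ∀ t, ∃ t', s (ε t) = ε t' := by
    intro t
    apply h6
    · rw [← map_mul, h1]
    · rw [← adj_act Φ hQ hab]
      intro h
      apply h4 t
      have := Φ.adj_adj (act Q (ε t))
      rw [h, Φ.adj_zero] at this
      exact this.symm
    · intro c hc
      rcases hprim t (s c) (by rw [← map_mul, hc]) with h | h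
      · left
        have := congrArg s h
        rw [map_mul, hss, map_zero] at this
        exact this
      · right
        have := congrArg s h
        rw [map_mul, hss] at this
        exact this
  choose τ hτ using hdual
  have hεinj : Function.Injective ε := by
    intro t t' h
    by_contra hne
    have := h2 t t' hne
    rw [← h, h1] at this
    exact h4 t (by rw [this, map_zero])
  have hττ : ∀ t, τ (τ t) = t := by
    intro t
    apply hεinj
    rw [← hτ, ← hτ, hss]
  -- the fixed points
  have htriv : ∀ t, τ t = t → ∀ q : Q, MonoidAlgebra.single q (1 : K) * ε t = ε t := by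
    intro t ht q
    obtain ⟨F, _, _, π, hπ, hπ0⟩ := h5 t
    have hker : ∀ x, π x = 0 → π (s x) = 0 := by
      intro x hx
      rw [hπ0] at hx ⊢
      have := congrArg s hx
      rw [map_mul, hτ, ht, map_zero] at this
      exact this
    -- the induced automorphism
    let σ : F →+* F := RingHom.liftOfSurjective (f := π) hπ ⟨π.comp s, fun x hx => by
      rw [RingHom.mem_ker] at hx ⊢
      exact hker x hx⟩
    have hσ : ∀ x, σ (π x) = π (s x) := fun x =>
      RingHom.liftOfRightInverse_comp_apply _ _ _ _ _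
    have hchar : CharP F (ringChar K) := by
      have g1 : CharP K (ringChar K) := ringChar.charP K
      exact charP_of_injective_ringHom
        (f := π.comp (MonoidAlgebra.singleOneRingHom (R := K) (M := Q)))
        (RingHom.injective _) (ringChar K)
    have hrp : (ringChar K).Prime := by
      rcases CharP.char_is_prime_or_zero K (ringChar K) with h | h
      · exact h
      · exfalso
        have g1 : CharZero K := by
          have := ringChar.charP K
          rw [h] at this
          exact CharP.charP_to_charZero K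
        exact (not_finite K).elim
    have : Fact (ringChar K).Prime := ⟨hrp⟩
    obtain ⟨j, hj⟩ := exists_frob (r := ringChar K) σ
    -- `u = π q`
    set u : F := π (MonoidAlgebra.single q 1) with hu
    have hu0 : u * π (MonoidAlgebra.single q⁻¹ 1) = 1 := by
      rw [hu, ← map_mul, MonoidAlgebra.single_mul_single, mul_inv_cancel, one_mul,
        ← MonoidAlgebra.one_def, map_one]
    have hσu : σ u * u = 1 := by
      rw [hu, hσ, hs, st_single, map_one, mul_comm]
      exact hu0
    have hθj : ∀ c : K, Φ.θ c = c ^ (ringChar K ^ j) := by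
      intro c
      have g1 := hj (π (MonoidAlgebra.single 1 c))
      rw [hσ, hs, st_single, inv_one, ← map_pow, MonoidAlgebra.single_pow, one_pow] at g1
      have g2 : Function.Injective
          (π.comp (MonoidAlgebra.singleOneRingHom (R := K) (M := Q))) := RingHom.injective _
      exact g2 g1
    have hpj := hlin j hθj
    have hu1 : u ^ (ringChar K ^ j + 1) = 1 := by
      rw [pow_succ, ← hj, hσu]
    obtain ⟨m, hm⟩ := hQp q
    have hu2 : u ^ (p ^ m) = 1 := by
      rw [hu, ← map_pow, MonoidAlgebra.single_pow, hm, one_pow, ← MonoidAlgebra.one_def, map_one]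
    have hu3 : u = 1 := by
      have g1 : orderOf u = 1 := by
        refine Nat.eq_one_of_dvd_coprimes (a := p ^ m) (b := ringChar K ^ j + 1) ?_
          (orderOf_dvd_of_pow_eq_one hu2) (orderOf_dvd_of_pow_eq_one hu1)
        exact Nat.Coprime.pow_left _ ((Nat.Prime.coprime_iff_not_dvd hp).mpr hpj)
      exact orderOf_eq_one_iff.mp g1
    have g3 : π (MonoidAlgebra.single q 1 - 1) = 0 := by
      rw [map_sub, map_one, sub_eq_zero]
      exact hu3
    rw [hπ0, sub_mul, one_mul, sub_eq_zero] at g3
    exact g3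
  -- the augmentation
  let aug : MonoidAlgebra K Q →ₐ[K] K := MonoidAlgebra.lift K K Q 1
  have haug : ∀ t, (∀ q : Q, MonoidAlgebra.single q (1 : K) * ε t = ε t) →
      ∀ x, x * ε t = aug x • ε t := by
    intro t ht x
    induction x using MonoidAlgebra.induction_linear with
    | zero => rw [zero_mul, map_zero, zero_smul]
    | add x y hx hy => rw [add_mul, map_add, add_smul, hx, hy]
    | single q c =>
      have g1 : MonoidAlgebra.single q c = c • MonoidAlgebra.single q (1 : K) := by
        rw [MonoidAlgebra.smul_single, smul_eq_mul, mul_one]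
      have g2 : aug (MonoidAlgebra.single q (1 : K)) = 1 := by
        change MonoidAlgebra.lift K K Q 1 (MonoidAlgebra.single q 1) = 1
        rw [MonoidAlgebra.lift_single, one_smul]
        rfl
      rw [g1, smul_mul_assoc, ht q, map_smul, g2, smul_eq_mul, mul_one]
  have hεne : ∀ t, ε t ≠ 0 := fun t h => h4 t (by rw [h, map_zero])
  have huniq : ∀ t t', (∀ q : Q, MonoidAlgebra.single q (1 : K) * ε t = ε t) →
      (∀ q : Q, MonoidAlgebra.single q (1 : K) * ε t' = ε t') → t = t' := by
    intro t t' ht ht'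
    by_contra hne
    have g1 : aug (ε t) = 0 := by
      have := haug t' ht' (ε t)
      rw [h2 t t' hne] at this
      exact (smul_eq_zero.mp this.symm).resolve_right (hεne t')
    have g2 := haug t ht (ε t)
    rw [h1, g1, zero_smul] at g2
    exact hεne t g2
  have hfix : ∀ t t', τ t = t → τ t' = t' → t = t' := fun t t' ht ht' =>
    huniq t t' (htriv t ht) (htriv t' ht')
  obtain ⟨e, he⟩ := exists_equiv_rev τ hττ hfix
  have key1 : ∀ i : Fin (Fintype.card T), τ (e.symm i) = e.symm (Fin.rev i) := by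
    intro i
    rw [Equiv.eq_symm_apply, he, Equiv.apply_symm_apply]
  have key2 : ∀ i : Fin (Fintype.card T), Φ.adj (act Q (ε (e.symm i))) =
      act Q (ε (e.symm (Fin.rev i))) := by
    intro i
    rw [adj_act Φ hQ hab, ← hs, hτ, key1]
  have key3 : ∀ i : Fin (Fintype.card T), Fin.rev i = i → ∀ q ∈ Q,
      toEnd q * act Q (ε (e.symm i)) = act Q (ε (e.symm i)) := by
    intro i hi q hq
    have g1 := congrArg (act Q) (htriv (e.symm i) (by rw [key1, hi]) ⟨q, hq⟩)
    rw [map_mul, act_single, one_smul] at g1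
    exact g1
  refine ⟨decOf ε h1 h2 h3 h4 h5 e, key2, key3, ?_⟩
  intro (i : Fin (Fintype.card T)) hi v hv
  have hi : Fin.rev i ≠ i := hi
  have hv' : v ∈ LinearMap.range (act Q (ε (e.symm i))) := hv
  have hτi : τ (e.symm i) ≠ e.symm i := by
    rw [key1]
    exact fun h => hi (e.symm.injective h)
  set t := e.symm i with ht
  obtain ⟨q, hq⟩ : ∃ q : Q, MonoidAlgebra.single q (1 : K) * ε t ≠ ε t := by
    by_contra hcon
    push Not at hcon
    apply hτi
    refine huniq _ _ ?_ hcon
    intro q
    have g1 := congrArg s (hcon q⁻¹)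
    rwa [map_mul, hs, st_single, inv_inv, map_one, ← hs, hτ] at g1
  obtain ⟨F, _, _, π, hπ, hπ0⟩ := h5 t
  have g1 : π (MonoidAlgebra.single q 1 - 1) ≠ 0 := by
    rw [Ne, hπ0, sub_mul, one_mul, sub_eq_zero]
    exact hq
  obtain ⟨x, hx⟩ := hπ (π (MonoidAlgebra.single q 1 - 1))⁻¹
  have g2 : x * (MonoidAlgebra.single q 1 - 1) * ε t = ε t := by
    have g3 : π (x * (MonoidAlgebra.single q 1 - 1) - 1) = 0 := by
      rw [map_sub, map_mul, hx, inv_mul_cancel₀ g1, map_one, sub_self]
    rwa [hπ0, sub_mul, one_mul, sub_eq_zero] at g3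
  obtain ⟨w, rfl⟩ := hv'
  refine ⟨q, q.2, act Q (ε t) (act Q x w), ⟨_, rfl⟩, ?_⟩
  have g4 : (MonoidAlgebra.single q 1 - 1) * (ε t * x) = ε t := by
    rw [hcomm (MonoidAlgebra.single q 1 - 1), mul_assoc, hcomm (ε t)]
    exact g2
  have g5 := congrArg (fun a => act Q a w) g4
  have g6 : act Q ((MonoidAlgebra.single q 1 - 1) * (ε t * x)) w = act Q (ε t) w := g5
  rw [map_mul, map_mul, map_sub, act_single, one_smul, map_one] at g6
  exact g6


/-- selfdual decompositions with singular summands -/
theorem exists_sdecQ {Φ : HForm K E} {Qf : E → K} (hq : QF Φ Qf) {p : ℕ} (hp : p.Prime)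
    {Q : Subgroup (SpecialLinearGroup K E)} [Finite Q] (hQp : IsPGroup p Q)
    (hKQ : (Nat.card K).Coprime (Nat.card Q)) (hQ : Q ≤ IsoQ Qf)
    (hab : ∀ x ∈ Q, ∀ y ∈ Q, x * y = y * x)
    (hlin : ∀ j : ℕ, (∀ c : K, Φ.θ c = c ^ (ringChar K ^ j)) → ¬ p ∣ ringChar K ^ j + 1) :
    ∃ D : SDec Φ Q, ∀ i, Fin.rev i ≠ i → ∀ v ∈ LinearMap.range (D.e i), Qf v = 0 := by
  obtain ⟨D₀, h1, h2, h3⟩ := exists_sdec' Φ hp hQp hKQ (hQ.trans hq.le) hab hlin
  refine ⟨{ D₀ with adj_e := h1, triv := h2, le := hQ.trans hq.le }, ?_⟩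
  intro i hi v hv
  obtain ⟨q, hqQ, y, hy, rfl⟩ := h3 i hi v hv
  have hB : ∀ x ∈ LinearMap.range (D₀.e i), ∀ z ∈ LinearMap.range (D₀.e i), Φ.B x z = 0 := by
    rintro _ ⟨x, rfl⟩ _ ⟨z, rfl⟩
    have g1 : Φ.B (D₀.e i x) (D₀.e i z) = Φ.B x (Φ.adj (D₀.e i) (D₀.e i z)) := by
      rw [Φ.adj_right]
    rw [g1, h1, ← End.mul_apply, D₀.orth _ _ hi, LinearMap.zero_apply, Φ.zero_right]
  have hqy : toEnd q y ∈ LinearMap.range (D₀.e i) := by
    obtain ⟨z, rfl⟩ := hy
    refine ⟨toEnd q z, ?_⟩
    have g1 := D₀.comm (toEnd q) (fun q' hq' => by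
      rw [← toEnd_mul, ← toEnd_mul, hab q hqQ q' hq']) i
    rw [← End.mul_apply, ← End.mul_apply, g1]
  have hQq : Qf (toEnd q y) = Qf y := hQ hqQ y
  have g2 : Qf (toEnd q y - y) = Qf (toEnd q y) + Qf y + Φ.B (toEnd q y) (-y) := by
    rw [sub_eq_add_neg, hq.add, hq.neg]
  rw [g2, hQq, Φ.neg_right, hB _ hqy _ hy, neg_zero, add_zero]
  have g3 : Qf y + Qf y = 2 * Qf y := by ring
  rw [g3, hq.two, zero_mul]

end Vale.Agent.P180.R2.H259.Oq
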