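import Vale.Agent.P180.R2.H259.Oq.B0
import Vale.Agent.P180.R2.H259.Oq.B2
import Vale.Agent.P180.R2.H259.Oq.B3
import Vale.Agent.P180.R2.H259.Cen.C6

set_option linter.all false

/-!
P180: the `p`-part of the multiplier of `Ω(Q)`, characteristic two, `p` linear and not dividing
`q - 1`.
-/

namespace Vale.Agent.P180.R2.H259.Oq

open Module Vale.Agent.P180 Vale.Agent.P180.R2.H799 Vale.Agent.P180.R2.H799.BN
  Vale.Agent.P180.R2.H854 Vale.Agent.P180.R2.H259.Loc Vale.Agent.P180.R2.H259.Cen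
  Vale.Agent.P180.R2.H954.Hc

variable {K E : Type} [Field K] [AddCommGroup E] [Module K E] [FiniteDimensional K E] [Finite K]
  {Φ : HForm K E} {Qf : E → K} (hq : QF Φ Qf)

section

variable {Q : Subgroup (SpecialLinearGroup K E)} {D : SDec Φ Q}

include hq in
/-- components of isometries of `Qf` -/
theorem cp_mem_IsoQ {g : SpecialLinearGroup K E} (hg : g ∈ D.L) (hgQ : g ∈ IsoQ Qf)
    {s : Finset (Fin D.r)} (hs : s.image Fin.rev = s) (h : LinearMap.det (D.cp s g) = 1) :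
    mkSL (D.cp s g) h ∈ IsoQ Qf := by
  intro x
  have h1 : mkSL (D.cp s g) h x = toEnd g (D.es s x) + (x - D.es s x) := by
    change toEnd (mkSL (D.cp s g) h) x = _
    rw [toEnd_mkSL]
    rfl
  have hadj : Φ.adj (D.es s) = D.es s := by rw [SDec.adj_es, hs]
  have ho : ∀ y z, Φ.B (D.es s y) (z - D.es s z) = 0 := by
    intro y z
    have h2 : Φ.B (D.es s y) (z - D.es s z) = Φ.B y (Φ.adj (D.es s) (z - D.es s z)) := by
      rw [Φ.adj_right]
    rw [h2, hadj, map_sub, ← End.mul_apply, Dec.es_idem, sub_self, Φ.zero_right]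
  have hc : toEnd g (D.es s x) = D.es s (toEnd g x) := by
    have h3 := Dec.comm_es hg.1 s
    have h4 := congrArg (fun a => a x) h3
    first
      | exact h4
      | exact h4.symm
  have h5 : Qf (toEnd g (D.es s x)) = Qf (D.es s x) := hgQ _
  have h6 : Qf x = Qf (D.es s x) + Qf (x - D.es s x) := by
    have h7 : x = D.es s x + (x - D.es s x) := by abel
    conv_lhs => rw [h7]
    rw [hq.add, ho, add_zero]
  rw [h1, hq.add, h5, hc, ho, add_zero, ← h6]

end

variable {X : Subgroup (SpecialLinearGroup K E)} (hX : OmX Qf X)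

section

variable {Q : Subgroup (SpecialLinearGroup K E)} {D : SDec Φ Q}
  {T L : Type*} [Group T] [Group L] {π : X →* T} {φ : L →* T}
  (hsing : ∀ i : Fin D.r, Fin.rev i ≠ i → ∀ v ∈ LinearMap.range (D.e i), Qf v = 0)

include hq hX hsing in
/-- lifts of components at different places commute -/
theorem cm_diffQ (hφ : Function.Surjective φ)
    (hk : φ.ker ≤ Subgroup.center L) {i j : Fin D.r} (hij : i ≠ j) (hi : ¬ Fin.rev i < i)
    (hj : ¬ Fin.rev j < j) (hri : Fin.rev i ≠ i) {s t : X} (hs : s.1 ∈ D.A i)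
    (ht : t.1 ∈ MM D j) {n : ℕ} (htn : t ^ n = 1) (hn : (Nat.card K).Coprime n) :
    Cm π φ s t := by
  have hri' : Fin.rev (Fin.rev i) ≠ Fin.rev i := by rw [Fin.rev_rev]; exact hri.symm
  obtain ⟨y, hy, hys⟩ := mem_of_roots hri hs ((CmS (π := π) hφ hk t).map X.subtype) (by
    intro v hv w hw h c
    have hvv := iso_e hri hv hv
    have hww := iso_e hri' hw hw
    refine ⟨⟨uu h c, uu_mem_X' hq hX h (hsing i hri v hv) (hsing _ hri' w hw) c⟩, ?_, rfl⟩
    refine Cm.coprime (m := Nat.card K) (n := n) hk ?_ ?_ htn hn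
    · exact Subtype.ext (MM_comm hij hi hj (uu_mem_MM hri hv hw h c) ht)
    · apply Subtype.ext
      change uu h c ^ Nat.card K = 1
      have _ := Fintype.ofFinite K
      rw [uu_pow h hvv hww, Nat.card_eq_fintype_card, FiniteField.cast_card_eq_zero, zero_mul,
        uu_zero h hww])
  have hys' : y = s := Subtype.ext hys
  rw [← hys']
  exact hy

include hq hX hsing in
/-- lifts of the elements of `Q` commute -/
theorem cm_of_DQ {p : ℕ} [Fact p.Prime] (hpo : Odd p) (hpK : ¬ p ∣ Nat.card K)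
    (hφ : Function.Surjective φ)
    (hk : φ.ker ≤ Subgroup.center L) (hQ : IsPGroup p Q) (hQQ : Q ≤ IsoQ Qf)
    (hab : ∀ x ∈ Q, ∀ y ∈ Q, x * y = y * x) (hd1 : ∀ g ∈ Q, ∀ i : Fin D.r, D.dt {i} g = 1) :
    ∀ x y : X, x.1 ∈ Q → y.1 ∈ Q → Cm π φ x y := by
  classical
  have hp : p.Prime := Fact.out
  have hQL : ∀ g ∈ Q, g ∈ D.L := fun g hg => SDec.Q_le (D := D) hab hg
  have hdt : ∀ g ∈ Q, ∀ s, LinearMap.det (D.cp s g) = 1 := by
    intro g hg s
    have h1 := Dec.dt_prod (D := D.toDec) (hQL g hg).1 s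
    rw [Finset.prod_congr rfl fun i _ => hd1 g hg i, Finset.prod_const_one] at h1
    exact h1
  -- powers of the components
  have hpw : ∀ g ∈ Q, ∀ (i : Fin D.r) (u : SpecialLinearGroup K E),
      toEnd u = D.cp {i, Fin.rev i} g → ∃ m, u ^ p ^ m = 1 := by
    intro g hg i u hu
    obtain ⟨m, hm⟩ := hQ ⟨g, hg⟩
    have hm' : g ^ p ^ m = 1 := congrArg Subtype.val hm
    refine ⟨m, ?_⟩
    apply toEnd_injective
    rw [toEnd_cp_pow (hQL g hg) hu, hm', Dec.cp_one, toEnd_one]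
  -- the components lie in `X`
  have hcpX : ∀ g ∈ Q, ∀ i : Fin D.r, ∃ u : X, toEnd u.1 = D.cp {i, Fin.rev i} g := by
    intro g hg i
    have h1 := toEnd_mkSL (D.cp {i, Fin.rev i} g) (hdt g hg _)
    obtain ⟨m, hm⟩ := hpw g hg i _ h1
    exact ⟨⟨_, odd_mem hq hX (cp_mem_IsoQ hq (hQL g hg) (hQQ hg) (SDec.pair_image i) _)
      (hpo.pow (n := m)) hm⟩, h1⟩
  let S : Set X := {s | ∃ g ∈ Q, ∃ i : Fin D.r, ¬ Fin.rev i < i ∧
    toEnd s.1 = D.cp {i, Fin.rev i} g}
  have hQS : ∀ x : X, x.1 ∈ Q → x ∈ Subgroup.closure S := by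
    intro x hg
    have h1 := SDec.mem_iSup_inf (hQL _ hg)
      (fun i => hd1 _ hg i) ((Subgroup.closure S).map X.subtype) (by
        intro i h'
        obtain ⟨u, hu⟩ := hcpX _ hg i
        have h2 : u.1 = mkSL (D.cp {i, Fin.rev i} x.1) h' := by
          apply toEnd_injective
          rw [hu, toEnd_mkSL]
        rw [← h2]
        refine ⟨u, Subgroup.subset_closure ?_, rfl⟩
        by_cases hi : Fin.rev i < i
        · refine ⟨x.1, hg, Fin.rev i, ?_, ?_⟩
          · rw [Fin.rev_rev, not_lt]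
            exact hi.le
          · rw [Fin.rev_rev, Finset.pair_comm]
            exact hu
        · exact ⟨x.1, hg, i, hi, hu⟩)
    have h2 : (⨆ i, (D.A i ⊓ (Subgroup.closure S).map X.subtype)) ≤
        (Subgroup.closure S).map X.subtype := iSup_le fun i => inf_le_right
    obtain ⟨y, hy, hyx⟩ := h2 h1
    rwa [← Subtype.ext hyx]
  have hcl := Cm.closure (π := π) hφ hk (S := S) (by
    rintro s ⟨g, hg, i, hi, hs⟩ t ⟨g', hg', j, hj, ht⟩
    by_cases hri : Fin.rev i = i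
    · have h1 : s = 1 := by
        apply Subtype.ext
        apply toEnd_injective
        rw [hs]
        change _ = toEnd (1 : SpecialLinearGroup K E)
        rw [toEnd_one, ← Dec.cp_one (D := D.toDec) {i, Fin.rev i}]
        refine cp_congr (hQL g hg) D.L.one_mem ?_
        rw [D.triv i hri g hg, toEnd_one, one_mul]
      rw [h1]
      exact Cm.one hk _
    by_cases hij : i = j
    · subst hij
      exact cm_same hab hφ hk (fun g hg => hcpX g hg i) hg hg' hs ht
    -- different components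
    have hsA : s.1 ∈ D.A i := by
      have hs' : s.1 = mkSL (D.cp {i, Fin.rev i} g) (hdt g hg _) := by
        apply toEnd_injective
        rw [hs, toEnd_mkSL]
      rw [hs']
      exact SDec.mk_mem_A (hQL g hg) hi (hd1 g hg i) _
    have htA : t.1 ∈ D.A j := by
      have ht' : t.1 = mkSL (D.cp {j, Fin.rev j} g') (hdt g' hg' _) := by
        apply toEnd_injective
        rw [ht, toEnd_mkSL]
      rw [ht']
      exact SDec.mk_mem_A (hQL g' hg') hj (hd1 g' hg' j) _
    obtain ⟨m, hm⟩ := hpw g' hg' j t.1 ht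
    exact cm_diffQ hq hX hsing hφ hk hij hi hj hri hsA ⟨htA.1, htA.2.1⟩ (n := p ^ m)
      (Subtype.ext hm) (Nat.Coprime.pow_left m ((Nat.Prime.coprime_iff_not_dvd hp).mpr hpK)).symm)
  exact fun x y hx hy => hcl x (hQS x hx) y (hQS y hy)

end

include hq hX in
/-- lifts of elements of an abelian `p`-subgroup commute -/
theorem cm_of_sdecQ {p : ℕ} [Fact p.Prime] (hpK : ¬ p ∣ Nat.card K) (hpK1 : ¬ p ∣ Nat.card K - 1)
    (hlin : ∀ j : ℕ, (∀ c, Φ.θ c = c ^ (ringChar K ^ j)) → ¬ p ∣ ringChar K ^ j + 1)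
    {T L : Type*} [Group T] [Group L] {π : X →* T} {φ : L →* T} (hφ : Function.Surjective φ)
    (hk : φ.ker ≤ Subgroup.center L) {Q : Subgroup X} (hQ : IsPGroup p Q)
    (hab : ∀ x ∈ Q, ∀ y ∈ Q, x * y = y * x) : ∀ x ∈ Q, ∀ y ∈ Q, Cm π φ x y := by
  have hp : p.Prime := Fact.out
  have hfinG : Finite (SpecialLinearGroup K E) := SDec.finite_sl
  have hpo : Odd p := by
    rcases hp.eq_two_or_odd' with h | h
    · exfalso
      subst h
      have h0 : 0 < Nat.card K := Nat.card_pos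
      omega
    · exact h
  have hQ'p : IsPGroup p (Q.map X.subtype) := hQ.map _
  have hQ'X : Q.map X.subtype ≤ X := by
    rintro _ ⟨x, -, rfl⟩
    exact x.2
  have hab' : ∀ x ∈ Q.map X.subtype, ∀ y ∈ Q.map X.subtype, x * y = y * x := by
    rintro _ ⟨x, hx, rfl⟩ _ ⟨y, hy, rfl⟩
    exact congrArg Subtype.val (hab x hx y hy)
  obtain ⟨l, hl⟩ := IsPGroup.iff_card.mp hQ'p
  have hcop : (Nat.card K).Coprime (Nat.card (Q.map X.subtype)) := by
    rw [hl]
    exact (Nat.Coprime.pow_left l ((Nat.Prime.coprime_iff_not_dvd hp).mpr hpK)).symm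
  have hcop1 : (Nat.card (Q.map X.subtype)).Coprime (Nat.card K - 1) := by
    rw [hl]
    exact Nat.Coprime.pow_left l ((Nat.Prime.coprime_iff_not_dvd hp).mpr hpK1)
  have hXQ : X ≤ IsoQ Qf := fun g hg => ((hX g).mp hg).1
  obtain ⟨D, hsing⟩ := exists_sdecQ hq hp hQ'p hcop (hQ'X.trans hXQ) hab' hlin
  intro x hx y hy
  exact cm_of_DQ (D := D) hq hX hsing hpo hpK hφ hk hQ'p (hQ'X.trans hXQ) hab'
    (fun g hg i => SDec.dt_eq_one hab' hcop1 hg i) x y ⟨x, hx, rfl⟩ ⟨y, hy, rfl⟩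

include hq hX in
/-- **The `p`-part of the multiplier** of `Ω(Q)`, dimension less than `p`, `p` linear
and not dividing `q (q - 1)`, is trivial. -/
theorem not_dvd_centerQ' {p : ℕ} [Fact p.Prime] (hpK : ¬ p ∣ Nat.card K) (hpK1 : ¬ p ∣ Nat.card K - 1)
    (hlin : ∀ j : ℕ, (∀ c, Φ.θ c = c ^ (ringChar K ^ j)) → ¬ p ∣ ringChar K ^ j + 1)
    (hd : finrank K E < p) {L T : Type} [Group L] [Finite L] [Group T] (hL : commutator L = ⊤)
    {φ : L →* T} (hφ : Function.Surjective φ) (hk : φ.ker ≤ Subgroup.center L) (π : X →* T)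
    (hπ : Function.Surjective π) : ¬ p ∣ Nat.card (Subgroup.center L) := by
  have hp : p.Prime := Fact.out
  have hfG : Finite (SpecialLinearGroup K E) := HForm.finite_SL
  let P : Sylow p L := default
  refine not_dvd_center_of_comm hL P ?_
  have hfT : Finite T := Finite.of_surjective φ hφ
  have hPT : IsPGroup p ((P : Subgroup L).map φ) := P.2.map φ
  obtain ⟨Q, hQ, hQP⟩ :=
    Vale.Agent.P180.R2.H799.BN.exists_lift (p := p) π hπ hPT
  have hab : ∀ x ∈ Q, ∀ y ∈ Q, x * y = y * x := fun x hx y hy =>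
    Subtype.ext (comm_of_lt' hpK hd (hQ.map X.subtype) x.1 ⟨x, hx, rfl⟩ y.1 ⟨y, hy, rfl⟩)
  have hcm := cm_of_sdecQ (π := π) hq hX hpK hpK1 hlin hφ hk hQ hab
  intro a ha b hb
  have ha' : φ a ∈ Q.map π := by rw [hQP]; exact ⟨a, ha, rfl⟩
  have hb' : φ b ∈ Q.map π := by rw [hQP]; exact ⟨b, hb, rfl⟩
  obtain ⟨x, hx, hxa⟩ := ha'
  obtain ⟨y, hy, hyb⟩ := hb'
  exact hcm x hx y hy a b hxa.symm hyb.symm

end Vale.Agent.P180.R2.H259.Oq
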