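import Vale.Agent.P180.R2.H259.Oq.B4
import Vale.Agent.P180.R2.H259.Cen.B2

set_option linter.all false

/-!
P180: central extensions of `Ω(Q)`, characteristic two: the split parabolic system.
-/

namespace Vale.Agent.P180.R2.H259.Oq

open Module Vale.Agent.P180 Vale.Agent.P180.R2.H799 Vale.Agent.P180.R2.H799.BN
  Vale.Agent.P180.R2.H854 Vale.Agent.P180.R2.H259.Loc Vale.Agent.P180.R2.H259

variable {K E : Type} [Field K] [AddCommGroup E] [Module K E] {Φ : HForm K E}
  {q : E → K} (hq : QF Φ q) [FiniteDimensional K E] [Finite K]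
  {X : Subgroup (SpecialLinearGroup K E)} (hX : OmX q X)

include hq hX in
/-- **The split parabolic system of `Ω(q)`**, for central extensions of odd order. -/
theorem parZQ {p : ℕ} [Fact p.Prime] (hp2 : Odd p) {ζ : K} (hζ : ζ ^ p = 1) (hζ1 : ζ ≠ 1)
    {L : Type} [Group L] (π : X →* L) (hπ : Function.Surjective π)
    (hcen : ∀ x : X, π x ∈ Subgroup.center L → x.1 ∈ Subgroup.center (SpecialLinearGroup K E))
    {z : ℕ} (hz : (Nat.card K).Coprime z) {A : Subgroup L}
    (hdiag : finrank K E < p ∨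
      ((∀ x y : X, (∃ i, x ^ (p ^ i) = 1) → (∃ i, y ^ (p ^ i) = 1) → π x ∈ A → π y ∈ A →
        x * y = y * x) ∧ ∀ x : X, (∃ i, x ^ (p ^ i) = 1) → π x ∈ A → x ^ (Nat.card K - 1) = 1)) :
    Cen.ParZ p z L A := by
  have hc : ∃ c : K, c ^ 2 ≠ c := by
    refine ⟨ζ, fun h => ?_⟩
    have h1 : ζ * (ζ - 1) = 0 := by linear_combination h
    rcases mul_eq_zero.mp h1 with h2 | h2
    · rw [h2, zero_pow (Fact.out : p.Prime).ne_zero] at hζ
      exact zero_ne_one hζ
    · exact hζ1 (sub_eq_zero.mp h2)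
  have hgeo := flagGeo hq hX hc
  have hV : ∀ F, CQ Φ q F → VF F ⊓ IsoQ q ≤ X := fun F hF => VF_le_X hq hX hF
  rw [CQ_eq hq] at hgeo hV
  have hXq : X ≤ IsoQ q := fun g hg => ((hX g).mp hg).1
  have hodd : ∀ g ∈ IsoQ q, ∀ m, Odd m → g ^ m = 1 → g ∈ X :=
    fun g hg m hm h => odd_mem hq hX hg hm h
  have hbas : ∀ F, Vale.Agent.P180.R2.H471.Oq.CQ Φ q F →
      Vale.Agent.P180.R2.H471.Oq.SqBasis Φ q F := fun F hF => sqBasis hq hF
  have hp : p.Prime := Fact.out
  have hfG : Finite (SpecialLinearGroup K E) := HForm.finite_SL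
  have hq1 : 1 < Nat.card K := Finite.one_lt_card
  have hζ0 : ζ ≠ 0 := by
    rintro rfl
    rw [zero_pow hp.ne_zero] at hζ
    exact zero_ne_one hζ
  have hp1 : p ∣ Nat.card K - 1 := by
    have h1 : orderOf (Units.mk0 ζ hζ0) = p := by
      apply orderOf_eq_prime
      · ext
        simpa using hζ
      · intro h
        exact hζ1 (by simpa using congrArg Units.val h)
    rw [← Nat.card_units, ← h1]
    exact orderOf_dvd_natCard _
  have hKp : ¬ p ∣ Nat.card K := by
    intro hd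
    have h1 := Nat.dvd_sub hd hp1
    rw [Nat.sub_sub_self hq1.le, Nat.dvd_one] at h1
    exact hp.one_lt.ne' h1
  have hZX : (Subgroup.center X).map X.subtype ≤
      Subgroup.center (SpecialLinearGroup K E) := by
    rintro _ ⟨x, hx, rfl⟩
    refine hcen x ?_
    rw [Subgroup.mem_center_iff]
    intro l
    obtain ⟨y, rfl⟩ := hπ l
    rw [← map_mul, ← map_mul, Subgroup.mem_center_iff.mp hx y]
  have hcardZ : Nat.card (Subgroup.center X) = Nat.card ((Subgroup.center X).map X.subtype) :=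
    (Subgroup.card_map_of_injective X.subtype_injective).symm
  refine ⟨X, inferInstance, inferInstance, hgeo.sys p hp hKp, π, hπ,
    Vale.Agent.P180.R2.H471.Oq.hasLeviQ hq hp hKp hgeo hXq hV hodd hbas hp2 hζ hζ1, ?_, ?_, ?_, ?_⟩
  · intro hd
    obtain ⟨x, hx⟩ := exists_prime_orderOf_dvd_card' p hd
    have h1 : x.1.1 ^ p ^ 1 = 1 := by
      have h2 : x ^ p = 1 := by
        rw [← hx]
        exact pow_orderOf_eq_one x
      rw [pow_one]
      exact congrArg (fun w : Subgroup.center X => w.1.1) h2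
    have h3 := Φ.scalar_eq_one hp hp2 hζ hζ1 (hq.th ζ) (hq.le (hXq x.1.2))
      (hZX ⟨x.1, x.2, rfl⟩) h1
    have h4 : x = 1 := Subtype.ext (Subtype.ext h3)
    rw [h4, orderOf_one] at hx
    exact hp.one_lt.ne hx
  · rintro _ ⟨_, ⟨F, hF, rfl⟩, rfl⟩
    have h1 : Nat.card ((VF F).subgroupOf X) ∣ Nat.card (VF F) := by
      have e : Nat.card ((VF F).subgroupOf X) =
          Nat.card (VF F ⊓ X : Subgroup (SpecialLinearGroup K E)) := by
        rw [← map_subgroupOf_eq]
        exact (Subgroup.card_map_of_injective X.subtype_injective).symm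
      rw [e]
      exact Subgroup.card_dvd_of_le inf_le_left
    constructor
    · rw [hcardZ]
      exact Nat.Coprime.coprime_dvd_left h1 (coprime_center hZX F)
    · refine Nat.Coprime.coprime_dvd_left h1 ?_
      rw [card_VF]
      exact Nat.Coprime.pow_left _ hz
  · intro x hx
    rw [Subgroup.mem_center_iff]
    intro y
    exact Subtype.ext (Subgroup.mem_center_iff.mp (hcen x hx) y.1)
  · intro Q hQ hQA
    set Q' := Q.map X.subtype with hQ'
    have hQ'p : IsPGroup p Q' := hQ.map _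
    have hQ'X : Q' ≤ X := by
      rintro _ ⟨x, -, rfl⟩
      exact x.2
    have hQ'Q : Q'.subgroupOf X = Q := by
      apply Subgroup.map_injective X.subtype_injective
      rw [map_subgroupOf_eq, inf_eq_left.mpr hQ'X]
    have hpow : ∀ x ∈ Q, ∃ i, x ^ (p ^ i) = 1 := by
      intro x hx
      obtain ⟨j, hj⟩ := hQ ⟨x, hx⟩
      exact ⟨j, congrArg Subtype.val hj⟩
    have hspan : Submodule.span K (EV Q') = ⊤ := by
      rcases hdiag with h | ⟨h1, h2⟩
      · exact span_EV_of_lt hQ'p hp1 h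
      · refine span_EV_of_comm ?_ ?_
        · rintro _ ⟨x, hx, rfl⟩ _ ⟨y, hy, rfl⟩
          exact congrArg Subtype.val (h1 x y (hpow x hx) (hpow y hy) (hQA ⟨x, hx, rfl⟩)
            (hQA ⟨y, hy, rfl⟩))
        · rintro _ ⟨g, hg, rfl⟩
          exact congrArg Subtype.val (h2 g (hpow g hg) (hQA ⟨g, hg, rfl⟩))
    constructor
    · intro x hx y hy
      exact Subtype.ext (comm_of_span hspan x.1 ⟨x, hx, rfl⟩ y.1 ⟨y, hy, rfl⟩)
    · obtain ⟨F, hF, hpX⟩ := Vale.Agent.P180.R2.H471.Oq.exists_pairQ hq hp hgeo hXq hV hp2 hQ'X hQ'p hspan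
      rw [hQ'Q] at hpX
      exact ⟨_, ⟨VF F, ⟨F, hF, rfl⟩, rfl⟩, hpX⟩


include hq hX in
/-- **Perfect central extensions of `Ω(q)`**, dimension less than `p`, `p` dividing `|K| - 1`: the
split parabolic system. -/
theorem parPair_cover {p : ℕ} [Fact p.Prime] (hp2 : Odd p) {ζ : K} (hζ : ζ ^ p = 1)
    (hζ1 : ζ ≠ 1) (hd : finrank K E < p) {L : Type} [Group L] [Finite L]
    (hL : commutator L = ⊤) (π : X →* L ⧸ Subgroup.center L) (hπ : Function.Surjective π)
    (hcen : Subgroup.center (L ⧸ Subgroup.center L) = ⊥)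
    (hker : ∀ x : X, π x = 1 → x.1 ∈ Subgroup.center (SpecialLinearGroup K E))
    (hrk : (Nat.card K).Coprime (Nat.card (Subgroup.center L))) (A : Subgroup L) :
    ParPair p L A := by
  have hkk : (QuotientGroup.mk' (Subgroup.center L)).ker = Subgroup.center L :=
    QuotientGroup.ker_mk' _
  have hpk := not_dvd_centerQ hq hX hp2 hζ hζ1 hd hL
    (QuotientGroup.mk'_surjective (Subgroup.center L)) hkk.le π hπ
  refine Cen.parPair_lift (QuotientGroup.mk'_surjective (Subgroup.center L)) hkk.le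
    (by rw [hkk]; exact hpk) (parZQ hq hX hp2 hζ hζ1 π hπ (fun x hx => ?_)
      (by rw [hkk]; exact hrk) (Or.inl hd))
  rw [hcen, Subgroup.mem_bot] at hx
  exact hker x hx

end Vale.Agent.P180.R2.H259.Oq
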