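import Vale.Agent.P180.R2.H259.Oq.A1
import Vale.Agent.P180.R2.H799.BT4

/-!
P180: semilinear bijections which commute with `Ω(Q)` are scalar on every line (characteristic two).
-/

set_option linter.all false

namespace Vale.Agent.P180.R2.H259.Oq

open Module Vale.Agent.P180.R2.H854 Vale.Agent.P180.R2.H799 Vale.Agent.P180.R2.H799.BS
  Vale.Agent.P180.R2.H259.Loc
open Vale.Agent.P180.R2.H799.BN (sl_smul sl_ext)

variable {K E : Type*} [Field K] [Finite K] [AddCommGroup E] [Module K E]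
  [FiniteDimensional K E] {Φ : HForm K E} {Q : E → K} (hQ : QF Φ Q)
  {X : Subgroup (SpecialLinearGroup K E)} (hX : OmX Q X)

include hQ hX in
/-- the commuting relation -/
theorem siegel_relQ {σ : K ≃+* K} {h : E → E}
    (hh : Semi σ h) (hcom : ∀ x ∈ X, Tw h x x) {w u : E}
    (hw : Q w = 0) (hu : Φ.B u w = 0) (y : E) :
    σ (Φ.B y u) • h w - σ (Φ.B y w) • h u - σ (Q u * Φ.B y w) • h w =
      Φ.B (h y) u • w - Φ.B (h y) w • u - (Q u * Φ.B (h y) w) • w := by
  have hiso : Submodule.span K {w} ≤ Φ.perp (Submodule.span K {w}) := by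
    rw [Submodule.span_singleton_le_iff_mem]
    intro z hz
    obtain ⟨c, rfl⟩ := Submodule.mem_span_singleton.mp hz
    rw [hQ.smul_r, hQ.alt, mul_zero]
  have hs : ∀ x ∈ Submodule.span K {w}, Q x = 0 := by
    intro x hx
    obtain ⟨c, rfl⟩ := Submodule.mem_span_singleton.mp hx
    rw [hQ.smul, hw, mul_zero]
  obtain ⟨v, hv, hvy⟩ := siegelQ hQ hiso hs (Submodule.mem_span_singleton_self w)
    ((mem_perp_singleton Φ).mpr hu)
  have hvX : v ∈ X := (hX v).mpr ⟨hv.2, even_rank hQ hiso hs hv⟩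
  have h1 := hcom v hvX y
  have h2 : h (v y - y) = v (h y) - h y := by rw [hh.sub, h1]
  rw [hvy, hvy, hh.sub, hh.sub, hh.smul, hh.smul, hh.smul] at h2
  exact h2

include hQ hX in
/-- **Singular lines are preserved.** -/
theorem sing_line {σ : K ≃+* K} {h : E → E}
    (hh : Semi σ h) (hcom : ∀ x ∈ X, Tw h x x)
    (hd : 4 ≤ finrank K E) {w : E} (hw : Q w = 0) (hw0 : w ≠ 0) :
    ∃ a : K, h w = a • w := by
  classical
  have hs1 : finrank K (Submodule.span K {w}) = 1 := finrank_span_singleton hw0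
  have hp1 := Φ.finrank_add_finrank_perp (Submodule.span K {w})
  -- the span condition
  have key : ∀ u, Φ.B u w = 0 → u ∉ Submodule.span K {w} →
      h w ∈ Submodule.span K {w, u} := by
    intro u hu hun
    rw [← Φ.perp_perp (Submodule.span K {w})] at hun
    obtain ⟨y, hy, hyu⟩ : ∃ y ∈ Φ.perp (Submodule.span K {w}), Φ.B u y ≠ 0 := by
      by_contra hcon
      push Not at hcon
      exact hun hcon
    rw [mem_perp_singleton] at hy
    have hyu' : Φ.B y u ≠ 0 := fun h0 => hyu (Φ.eq_zero_comm h0)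
    have h1 := siegel_relQ hQ hX hh hcom hw hu y
    rw [hy, mul_zero, map_zero, zero_smul, zero_smul, sub_zero, sub_zero] at h1
    have h2 : σ (Φ.B y u) ≠ 0 := fun h0 => hyu' ((map_eq_zero_iff σ σ.injective).mp h0)
    have h3 : h w = (σ (Φ.B y u))⁻¹ • (σ (Φ.B y u) • h w) := by
      rw [smul_smul, inv_mul_cancel₀ h2, one_smul]
    rw [h3, h1]
    have hwm : w ∈ Submodule.span K {w, u} := Submodule.subset_span (Or.inl rfl)
    have hum : u ∈ Submodule.span K {w, u} := Submodule.subset_span (Or.inr rfl)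
    exact Submodule.smul_mem _ _ (Submodule.sub_mem _ (Submodule.sub_mem _
      (Submodule.smul_mem _ _ hwm) (Submodule.smul_mem _ _ hum)) (Submodule.smul_mem _ _ hwm))
  obtain ⟨u, hu, hun⟩ := exists_notin (K := K) (S := Submodule.span K {w})
    (W := Φ.perp (Submodule.span K {w})) (by omega)
  have hs2 : finrank K (Submodule.span K {w, u}) ≤ 2 := by
    have h4 := finrank_span_le_card (R := K) ({w, u} : Set E)
    refine h4.trans ?_
    rw [Set.toFinset_card]
    simpa using Finset.card_le_two (a := w) (b := u)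
  obtain ⟨u', hu', hun'⟩ := exists_notin (K := K) (S := Submodule.span K {w, u})
    (W := Φ.perp (Submodule.span K {w})) (by omega)
  rw [mem_perp_singleton] at hu hu'
  have h1 := key u hu hun
  have h2 := key u' hu' fun h0 => hun' (Submodule.span_mono (by
    intro x hx
    exact Or.inl hx) h0)
  obtain ⟨a, b, hab⟩ := Submodule.mem_span_pair.mp h2
  by_cases hb : b = 0
  · exact ⟨a, by rw [← hab, hb, zero_smul, add_zero]⟩
  · exfalso
    apply hun'
    have h3 : u' = b⁻¹ • (h w - a • w) := by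
      rw [← hab, add_sub_cancel_left, smul_smul, inv_mul_cancel₀ hb, one_smul]
    rw [h3]
    exact Submodule.smul_mem _ _ (Submodule.sub_mem _ h1
      (Submodule.smul_mem _ _ (Submodule.subset_span (Or.inl rfl))))

include hQ hX in
/-- the action on the orthogonal space of a singular vector -/
theorem perp_scalarQ {σ : K ≃+* K} {h : E → E}
    (hh : Semi σ h) (hcom : ∀ x ∈ X, Tw h x x) {w : E}
    (hw : Q w = 0) (hw0 : w ≠ 0) {a : K} (ha : h w = a • w) :
    ∃ lam : K, ∀ u, Φ.B u w = 0 → ∃ μ : K, h u = lam • u + μ • w := by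
  obtain ⟨y, hy⟩ := BS.exists_pair Φ hw0
  refine ⟨Φ.B (h y) w, fun u hu => ?_⟩
  have h1 := siegel_relQ hQ hX hh hcom hw hu y
  rw [hy, mul_one, map_one, one_smul, ha, smul_smul, smul_smul] at h1
  refine ⟨σ (Φ.B y u) * a - σ (Q u) * a - Φ.B (h y) u + Q u * Φ.B (h y) w, ?_⟩
  calc h u = (σ (Φ.B y u) * a) • w - (σ (Q u) * a) • w - ((σ (Φ.B y u) * a) • w -
        h u - (σ (Q u) * a) • w) := by abel
    _ = _ := by
      rw [h1]
      module

include hQ hX in
/-- the field automorphism is trivial -/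
theorem field_trivialQ {σ : K ≃+* K} {h : E → E}
    (hh : Semi σ h) (hcom : ∀ x ∈ X, Tw h x x) (h3 : 3 ≤ finrank K E)
    {w : E} (hw : Q w = 0) (hw0 : w ≠ 0) {a : K} (ha : h w = a • w) (t : K) : σ t = t := by
  obtain ⟨lam, hlam⟩ := perp_scalarQ hQ hX hh hcom hw hw0 ha
  have hs1 : finrank K (Submodule.span K {w}) = 1 := finrank_span_singleton hw0
  have hp1 := Φ.finrank_add_finrank_perp (Submodule.span K {w})
  obtain ⟨u, hu, hun⟩ := exists_notin (K := K) (S := Submodule.span K {w})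
    (W := Φ.perp (Submodule.span K {w})) (by omega)
  rw [mem_perp_singleton] at hu
  obtain ⟨μ, hμ⟩ := hlam u hu
  have ha0 : a ≠ 0 := by
    rintro rfl
    rw [zero_smul] at ha
    exact hw0 (hh.bij.1 (by rw [ha, hh.zero]))
  have hl0 : lam ≠ 0 := by
    rintro rfl
    rw [zero_smul, zero_add] at hμ
    apply hun
    have h1 : h (σ.symm (μ * a⁻¹) • w) = h u := by
      rw [hh.smul, RingEquiv.apply_symm_apply, ha, smul_smul, inv_mul_cancel_right₀ ha0, hμ]
    rw [← hh.bij.1 h1]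
    exact Submodule.smul_mem _ _ (Submodule.mem_span_singleton_self w)
  obtain ⟨μ', hμ'⟩ := hlam (t • u) (by rw [Φ.smul_left, hu, mul_zero])
  rw [hh.smul, hμ] at hμ'
  have h2 : (σ t * lam - lam * t) • u = (μ' - σ t * μ) • w := by
    have h4 : (σ t * lam) • u + (σ t * μ) • w = (lam * t) • u + μ' • w := by
      rw [mul_smul, mul_smul, mul_smul, ← smul_add, hμ']
    rw [sub_smul, sub_smul]
    have h5 : (σ t * lam) • u = (lam * t) • u + μ' • w - (σ t * μ) • w := by
      rw [← h4, add_sub_cancel_right]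
    rw [h5]
    abel
  by_cases h4 : σ t * lam - lam * t = 0
  · have h5 : σ t * lam = t * lam := by rw [sub_eq_zero.mp h4, mul_comm]
    exact mul_right_cancel₀ hl0 h5
  · exfalso
    apply hun
    have h5 : u = (σ t * lam - lam * t)⁻¹ • ((μ' - σ t * μ) • w) := by
      rw [← h2, smul_smul, inv_mul_cancel₀ h4, one_smul]
    rw [h5]
    exact Submodule.smul_mem _ _ (Submodule.smul_mem _ _ (Submodule.mem_span_singleton_self w))

include hQ hX in
/-- the scalar -/
theorem scalar_pairQ {σ : K ≃+* K} {h : E → E}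
    (hh : Semi σ h) (hcom : ∀ x ∈ X, Tw h x x)
    (hd : 4 ≤ finrank K E) {w w' u : E}
    (hw : Q w = 0) (hw' : Q w' = 0) (hww : Φ.B w w' ≠ 0) (hu : Φ.B u w = 0)
    (hu' : Φ.B u w' = 0) (hu0 : u ≠ 0) : ∃ a : K, h w = a • w ∧ h u = a • u := by
  have hw0 : w ≠ 0 := by
    rintro rfl
    exact hww (Φ.zero_left _)
  have hw0' : w' ≠ 0 := by
    rintro rfl
    exact hww (Φ.zero_right _)
  have hww' : Φ.B w' w ≠ 0 := fun h0 => hww (Φ.eq_zero_comm h0)
  have hBw : Φ.B w w = 0 := hQ.alt w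
  have hBw' : Φ.B w' w' = 0 := hQ.alt w'
  obtain ⟨a, ha⟩ := sing_line hQ hX hh hcom hd hw hw0
  obtain ⟨a', ha'⟩ := sing_line hQ hX hh hcom hd hw' hw0'
  have hσ : ∀ t, σ t = t := field_trivialQ hQ hX hh hcom (by omega) hw hw0 ha
  obtain ⟨lam, hlam⟩ := perp_scalarQ hQ hX hh hcom hw hw0 ha
  obtain ⟨lam', hlam'⟩ := perp_scalarQ hQ hX hh hcom hw' hw0' ha'
  obtain ⟨μ, hμ⟩ := hlam u hu
  obtain ⟨μ', hμ'⟩ := hlam' u hu'
  have hμ0 : μ = 0 := by
    have h1 : Φ.B (h u) w' = μ * Φ.B w w' := by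
      rw [hμ, Φ.add_left, Φ.smul_left, Φ.smul_left, hu', mul_zero, zero_add]
    have h2 : Φ.B (h u) w' = 0 := by
      rw [hμ', Φ.add_left, Φ.smul_left, Φ.smul_left, hu', hBw', mul_zero, mul_zero, zero_add]
    rw [h2] at h1
    rcases mul_eq_zero.mp h1.symm with h3 | h3
    · exact h3
    · exact absurd h3 hww
  rw [hμ0, zero_smul, add_zero] at hμ
  obtain ⟨s, hs⟩ : ∃ s : K, Q (w + u + s • w') = 0 := by
    refine ⟨Q u * (Φ.B w w')⁻¹, ?_⟩
    rw [hQ.add, hQ.add, hQ.smul, hw, hw', hQ.smul_r, Φ.add_left, hu', Φ.eq_zero_comm hu]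
    have h2 : Q u + Q u = 2 * Q u := by ring
    rw [hQ.two, zero_mul] at h2
    have e1 : (Φ.B w w')⁻¹ * Φ.B w w' = 1 := inv_mul_cancel₀ hww
    linear_combination h2 + Q u * e1
  have hne : w + u + s • w' ≠ 0 := by
    intro h0
    have h1 : Φ.B (w + u + s • w') w' = 0 := by rw [h0, Φ.zero_left]
    rw [Φ.add_left, Φ.add_left, Φ.smul_left, hu', hBw', mul_zero, add_zero, add_zero] at h1
    exact hww h1
  obtain ⟨b, hb⟩ := sing_line hQ hX hh hcom hd hs hne
  rw [hh.add, hh.add, hh.smul, ha, ha', hμ, hσ, smul_add, smul_add] at hb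
  -- the coefficient of `w`
  have hab : a = b := by
    have h1 := congrArg (fun x => Φ.B x w') hb
    simp only [Φ.add_left, Φ.smul_left, hu', hBw', mul_zero, add_zero] at h1
    exact mul_right_cancel₀ hww h1
  -- the coefficient of `w'`
  have h1 : s * a' = b * s := by
    have h1 := congrArg (fun x => Φ.B x w) hb
    simp only [Φ.add_left, Φ.smul_left, hu, hBw, mul_zero, zero_add] at h1
    rw [← mul_assoc, ← mul_assoc] at h1
    exact mul_right_cancel₀ hww' h1
  rw [smul_smul s, smul_smul b s, h1, hab] at hb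
  have h2 : lam • u = b • u := add_left_cancel (add_right_cancel hb)
  exact ⟨a, ha, by rw [hμ, h2, hab]⟩

include hQ in
/-- singular vectors -/
theorem exists_singular (h3 : 3 ≤ finrank K E) : ∃ w, w ≠ 0 ∧ Q w = 0 := by
  have _ : Nontrivial E := (Module.finrank_pos_iff (R := K)).mp (by omega)
  obtain ⟨v, hv0⟩ := exists_ne (0 : E)
  by_cases hv : Q v = 0
  · exact ⟨v, hv0, hv⟩
  have hs1 : finrank K (Submodule.span K {v}) = 1 := finrank_span_singleton hv0
  have hp1 := Φ.finrank_add_finrank_perp (Submodule.span K {v})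
  obtain ⟨u, hu, hun⟩ := exists_notin (K := K) (S := Submodule.span K {v})
    (W := Φ.perp (Submodule.span K {v})) (by omega)
  rw [mem_perp_singleton] at hu
  have hchar : ringChar K = 2 := by
    have h1 : ringChar K ∣ 2 := ringChar.dvd (by exact_mod_cast hQ.two)
    rcases (Nat.dvd_prime Nat.prime_two).mp h1 with h | h
    · exact absurd h (CharP.ringChar_ne_one)
    · exact h
  obtain ⟨a, ha⟩ := FiniteField.isSquare_of_char_two hchar (Q u * (Q v)⁻¹)
  refine ⟨a • v + u, ?_, ?_⟩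
  · intro h0
    apply hun
    have h1 : u = (-a) • v := by rw [neg_smul]; exact eq_neg_of_add_eq_zero_right h0
    rw [h1]
    exact Submodule.smul_mem _ _ (Submodule.mem_span_singleton_self v)
  · rw [hQ.add, hQ.smul, Φ.smul_left, Φ.eq_zero_comm hu, mul_zero, add_zero, sq, ← ha,
      inv_mul_cancel_right₀ hv]
    have h2 : Q u + Q u = 2 * Q u := by ring
    rw [h2, hQ.two, zero_mul]

include hQ hX in
/-- **The lines are preserved.** -/
theorem linesQ (h4 : 4 ≤ finrank K E) {σ : K ≃+* K} {h : E → E}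
    (hh : Semi σ h) (hcom : ∀ x ∈ X, Tw h x x) : ∀ v, ∃ c : K, h v = c • v := by
  classical
  obtain ⟨w, hw0, hw⟩ := exists_singular hQ (by omega)
  -- the second vector
  obtain ⟨w', hw', hww⟩ : ∃ w', Q w' = 0 ∧ Φ.B w w' ≠ 0 := by
    obtain ⟨y, hy⟩ := BS.exists_pair Φ hw0
    have hy' : Φ.B w y ≠ 0 := fun h0 => by
      rw [Φ.eq_zero_comm h0] at hy
      exact zero_ne_one hy
    refine ⟨y + Q y • w, ?_, ?_⟩
    · rw [hQ.add, hQ.smul, hw, hQ.smul_r, hy]
      have h2 : Q y + Q y = 2 * Q y := by ring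
      rw [hQ.two, zero_mul] at h2
      linear_combination h2
    · rw [Φ.add_right, hQ.smul_r, hQ.alt, mul_zero, add_zero]
      exact hy'
  have hBw : Φ.B w w = 0 := hQ.alt w
  have hBw' : Φ.B w' w' = 0 := hQ.alt w'
  have hw0' : w' ≠ 0 := by
    rintro rfl
    exact hww (Φ.zero_right _)
  have hww' : Φ.B w' w ≠ 0 := fun h0 => hww (Φ.eq_zero_comm h0)
  -- a vector orthogonal to both
  have hs2 : finrank K (Submodule.span K {w, w'}) ≤ 2 := by
    have h4 := finrank_span_le_card (R := K) ({w, w'} : Set E)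
    refine h4.trans ?_
    rw [Set.toFinset_card]
    simpa using Finset.card_le_two (a := w) (b := w')
  have hp2 := Φ.finrank_add_finrank_perp (Submodule.span K {w, w'})
  obtain ⟨u₀, hu₀, hu₀n⟩ := exists_notin (K := K) (S := (⊥ : Submodule K E))
    (W := Φ.perp (Submodule.span K {w, w'})) (by rw [finrank_bot]; omega)
  have hu₀0 : u₀ ≠ 0 := fun h0 => hu₀n (by rw [h0]; exact zero_mem _)
  have hu₀w : Φ.B u₀ w = 0 := hu₀ w (Submodule.subset_span (Or.inl rfl))
  have hu₀w' : Φ.B u₀ w' = 0 := hu₀ w' (Submodule.subset_span (Or.inr rfl))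
  obtain ⟨a, haw, hau₀⟩ := scalar_pairQ hQ hX hh hcom h4 hw hw' hww hu₀w hu₀w' hu₀0
  obtain ⟨a', haw', hau₀'⟩ := scalar_pairQ hQ hX hh hcom h4 hw' hw hww' hu₀w' hu₀w hu₀0
  have haa : a' = a := by
    have h1 : (a' - a) • u₀ = 0 := by rw [sub_smul, ← hau₀, ← hau₀', sub_self]
    rcases smul_eq_zero.mp h1 with h2 | h2
    · exact sub_eq_zero.mp h2
    · exact absurd h2 hu₀0
  rw [haa] at haw'
  have hσ : ∀ t, σ t = t := field_trivialQ hQ hX hh hcom (by omega) hw hw0 haw
  intro v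
  refine ⟨a, ?_⟩
  obtain ⟨s, hs⟩ : ∃ s, s = Φ.B v w' * (Φ.B w w')⁻¹ := ⟨_, rfl⟩
  obtain ⟨s', hs'⟩ : ∃ s', s' = Φ.B v w * (Φ.B w' w)⁻¹ := ⟨_, rfl⟩
  obtain ⟨u, hu⟩ : ∃ u, u = v - s • w - s' • w' := ⟨_, rfl⟩
  have huw : Φ.B u w = 0 := by
    rw [hu, Φ.sub_left, Φ.sub_left, Φ.smul_left, Φ.smul_left, hBw, hs',
      inv_mul_cancel_right₀ hww', mul_zero, sub_zero, sub_self]
  have huw' : Φ.B u w' = 0 := by
    rw [hu, Φ.sub_left, Φ.sub_left, Φ.smul_left, Φ.smul_left, hBw', hs,
      inv_mul_cancel_right₀ hww, mul_zero, sub_zero, sub_self]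
  have hau : h u = a • u := by
    by_cases hu0 : u = 0
    · rw [hu0, hh.zero, smul_zero]
    · obtain ⟨b, hbw, hbu⟩ := scalar_pairQ hQ hX hh hcom h4 hw hw' hww huw huw' hu0
      have hba : b = a := by
        have h1 : (b - a) • w = 0 := by rw [sub_smul, ← hbw, ← haw, sub_self]
        rcases smul_eq_zero.mp h1 with h2 | h2
        · exact sub_eq_zero.mp h2
        · exact absurd h2 hw0
      rw [hbu, hba]
  have hv : v = u + s • w + s' • w' := by rw [hu]; abel
  rw [hv, hh.add, hh.add, hh.smul, hh.smul, hau, haw, haw', hσ, hσ, smul_comm s, smul_comm s',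
    ← smul_add, ← smul_add]

end Vale.Agent.P180.R2.H259.Oq
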