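import Vale.Agent.P180.R2.H259.Oq.B0
import Vale.Agent.P180.R2.H259.Oq.C2
import Vale.Agent.P180.R2.H365.OcA

/-!
P180: actions on `Ω(Q)` by semilinear similitudes (characteristic two).
-/

set_option linter.all false

namespace Vale.Agent.P180.R2.H259.Oq

open Module Vale.Agent.P180.R2.H854 Vale.Agent.P180.R2.H799 Vale.Agent.P180.R2.H799.BS
  Vale.Agent.P180.R2.H259.Loc
open Vale.Agent.P180.R2.H799.BN (sl_smul sl_ext finite_sl pow_apply_eigen)

section

variable {K E : Type*} [Field K] [Finite K] [AddCommGroup E] [Module K E]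
  [FiniteDimensional K E] {Φ : HForm K E} {Q : E → K} (hQ : QF Φ Q)
  {X : Subgroup (SpecialLinearGroup K E)} (hX : OmX Q X)

include hQ in
/-- scalars preserving `Q` are trivial -/
theorem scal_one {z : SpecialLinearGroup K E} (hzI : z ∈ IsoQ Q)
    (hzc : z ∈ Subgroup.center (SpecialLinearGroup K E)) : z = 1 := by
  obtain ⟨c, -, hc⟩ := SpecialLinearGroup.mem_center_iff.mp hzc
  have hzx : ∀ x, z x = c • x := fun x => congrArg (fun f : E →ₗ[K] E => f x) hc
  apply toEnd_injective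
  apply LinearMap.ext
  intro x
  change z x = x
  by_cases h : ∃ v, Q v ≠ 0
  · obtain ⟨v, hv⟩ := h
    have h1 := hzI v
    rw [hzx, hQ.smul] at h1
    have h2 : c ^ 2 = 1 := mul_right_cancel₀ hv (by rw [h1, one_mul])
    have h3 : (c - 1) ^ 2 = 0 := by linear_combination h2 - (c - 1) * hQ.two
    have h4 : c = 1 := sub_eq_zero.mp (pow_eq_zero_iff two_ne_zero |>.mp h3)
    rw [hzx, h4, one_smul]
  · push Not at h
    have h1 : x = 0 := by
      apply Φ.nondeg
      intro y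
      have h2 := hQ.add x y
      rw [h, h, h, zero_add, zero_add] at h2
      exact h2.symm
    rw [hzx, h1, smul_zero]

include hQ hX in
/-- an isometry of the polar form which normalises `Ω(Q)` preserves `Q` -/
theorem iso_of_norm (h4 : 4 ≤ finrank K E) {T : End K E}
    (hT : ∀ v w, Φ.B (T v) (T w) = Φ.B v w)
    (hn : ∀ x ∈ X, ∃ y ∈ X, ∀ v, T (x v) = y (T v)) : ∀ v, Q (T v) = Q v := by
  have h2 : ∀ a : K, a + a = 0 := QF.hypt hQ
  obtain ⟨D, hD⟩ : ∃ D : E → K, ∀ v, D v = Q (T v) + Q v := ⟨_, fun _ => rfl⟩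
  have hadd : ∀ v w, D (v + w) = D v + D w := by
    intro v w
    rw [hD, hD, hD, map_add, hQ.add, hQ.add, hT]
    linear_combination h2 (Φ.B v w)
  have hsmul : ∀ (a : K) v, D (a • v) = a ^ 2 * D v := by
    intro a v
    rw [hD, hD, map_smul, hQ.smul, hQ.smul]
    ring
  have hDX : ∀ x ∈ X, ∀ v, D (x v) = D v := by
    intro x hx v
    obtain ⟨y, hy, hxy⟩ := hn x hx
    rw [hD, hD, hxy, ((hX y).mp hy).1, ((hX x).mp hx).1]
  have hD0 : D 0 = 0 := by
    have := hsmul 0 0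
    rwa [smul_zero, zero_pow two_ne_zero, zero_mul] at this
  have hDneg : ∀ v, D (-v) = D v := by
    intro v
    have := hsmul (-1) v
    rwa [neg_one_smul, neg_one_sq, one_mul] at this
  have hDX' : ∀ x ∈ X, ∀ v, D (x v - v) = 0 := by
    intro x hx v
    rw [sub_eq_add_neg, hadd, hDX x hx, hDneg, h2]
  -- the relation
  have hrel : ∀ w u y, Q w = 0 → Φ.B u w = 0 →
      D (Φ.B y u • w - Φ.B y w • u - (Q u * Φ.B y w) • w) = 0 := by
    intro w u y hw hu
    have hiso : Submodule.span K {w} ≤ Φ.perp (Submodule.span K {w}) := by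
      rw [Submodule.span_singleton_le_iff_mem]
      intro z hz
      obtain ⟨c, rfl⟩ := Submodule.mem_span_singleton.mp hz
      rw [hQ.smul_r, hQ.alt, mul_zero]
    have hs : ∀ x ∈ Submodule.span K {w}, Q x = 0 := by
      intro x hx
      obtain ⟨c, rfl⟩ := Submodule.mem_span_singleton.mp hx
      rw [hQ.smul, hw, mul_zero]
    obtain ⟨v, hv, hvy⟩ := siegelQ hQ hiso hs (Submodule.mem_span_singleton_self w)
      ((mem_perp_singleton Φ).mpr hu)
    have hvX : v ∈ X := (hX v).mpr ⟨hv.2, even_rank hQ hiso hs hv⟩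
    rw [← hvy]
    exact hDX' v hvX y
  -- singular vectors
  have hsing : ∀ w, Q w = 0 → D w = 0 := by
    intro w hw
    by_cases hw0 : w = 0
    · rw [hw0, hD0]
    have hs1 : finrank K (Submodule.span K {w}) = 1 := finrank_span_singleton hw0
    have hp1 := Φ.finrank_add_finrank_perp (Submodule.span K {w})
    obtain ⟨u, hu, hun⟩ := exists_notin (K := K) (S := Submodule.span K {w})
      (W := Φ.perp (Submodule.span K {w})) (by omega)
    rw [← Φ.perp_perp (Submodule.span K {w})] at hun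
    obtain ⟨y, hy, hyu⟩ : ∃ y ∈ Φ.perp (Submodule.span K {w}), Φ.B u y ≠ 0 := by
      by_contra hcon
      push Not at hcon
      exact hun hcon
    rw [mem_perp_singleton] at hy hu
    have hyu' : Φ.B y u ≠ 0 := fun h0 => hyu (Φ.eq_zero_comm h0)
    have h1 := hrel w u y hw hu
    rw [hy, mul_zero, zero_smul, zero_smul, sub_zero, sub_zero, hsmul] at h1
    exact (mul_eq_zero.mp h1).resolve_left (pow_ne_zero 2 hyu')
  obtain ⟨w, hw0, hw⟩ := exists_singular hQ (by omega)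
  obtain ⟨y, hy⟩ := BS.exists_pair Φ hw0
  have hperp : ∀ u, Φ.B u w = 0 → D u = 0 := by
    intro u hu
    have h1 := hrel w u y hw hu
    rw [hy, mul_one, one_smul] at h1
    have e : Φ.B y u • w - u - Q u • w = (Φ.B y u - Q u) • w + (-u) := by
      rw [sub_smul]; abel
    rw [e, hadd, hsmul, hsing w hw, mul_zero, zero_add, hDneg] at h1
    exact h1
  -- the second singular vector
  have hw' : Q (y + Q y • w) = 0 := by
    rw [hQ.add, hQ.smul, hw, hQ.smul_r, hy]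
    linear_combination h2 (Q y)
  intro v
  have hDv : D v = 0 := by
    have e : v = (v - Φ.B v w • (y + Q y • w)) + Φ.B v w • (y + Q y • w) := by abel
    rw [e, hadd, hsmul, hsing _ hw', mul_zero, add_zero]
    apply hperp
    rw [Φ.sub_left, Φ.smul_left, Φ.add_left, Φ.smul_left, hy, hQ.alt, mul_zero, add_zero, mul_one,
      sub_self]
  rw [hD] at hDv
  linear_combination hDv - h2 (Q v)

end

section

variable {K E : Type*} [Field K] [Finite K] [AddCommGroup E] [Module K E]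
  [FiniteDimensional K E] {Φ : HForm K E} {Q : E → K} (hQ : QF Φ Q)
  {X : Subgroup (SpecialLinearGroup K E)} (hX : OmX Q X)
  {G : Type*} [Group G] {L : Subgroup G} {π : X →* L}

include hQ hX in
/-- the period -/
theorem perX (h4 : 4 ≤ finrank K E) {r : G} {σ : K ≃+* K} {g : E → E} (h : ActX Φ π r σ g)
    (hk : π.ker.map X.subtype ≤ Subgroup.center (SpecialLinearGroup K E))
    {n : ℕ} (hr : r ^ n = 1) (v : E) : ∃ c : K, g^[n] v = c • v := by
  obtain ⟨σ', h'⟩ := h.iter n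
  refine linesQ hQ hX h4 h'.1 (fun x hx => ?_) v
  obtain ⟨y, hy, hxy⟩ := h'.2.2 ⟨x, hx⟩
  rw [hr, one_mul, inv_one, mul_one] at hxy
  have hzk : x⁻¹ * y.1 ∈ π.ker.map X.subtype := by
    refine ⟨⟨x, hx⟩⁻¹ * y, ?_, rfl⟩
    change _ ∈ π.ker
    rw [MonoidHom.mem_ker, map_mul, map_inv, ← Subtype.ext hxy, inv_mul_cancel]
  have h1 := scal_one hQ ((IsoQ Q).mul_mem ((IsoQ Q).inv_mem ((hX x).mp hx).1)
    ((hX y.1).mp y.2).1) (hk hzk)
  have h2 : y.1 = x := (inv_mul_eq_one.mp h1).symm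
  rw [h2] at hy
  exact hy

include hQ hX in
/-- a linear similitude acts as an element of `Ω(Q)` -/
theorem linearX (h4 : 4 ≤ finrank K E) {p : ℕ} [Fact p.Prime] (hp2 : Odd p) {ζ : K}
    (hζ : ζ ^ p = 1) (hζ1 : ζ ≠ 1)
    (hk : π.ker.map X.subtype ≤ Subgroup.center (SpecialLinearGroup K E))
    (hπ : Function.Surjective π) {r : G} {g : E → E} (h : ActX Φ π r (RingEquiv.refl K) g)
    {m : ℕ} (hr : r ^ (p ^ m) = 1) :
    ∃ s ∈ L, ∃ c ∈ Subgroup.centralizer (L : Set G), r = s * c := by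
  have hp : p.Prime := Fact.out
  have hper := perX hQ hX h4 h hk hr
  have hζθ := hQ.th ζ
  let T : End K E := { toFun := g, map_add' := h.1.add, map_smul' := h.1.smul }
  have hTn : ∀ (n : ℕ) (v : E), (T ^ n) v = g^[n] v := by
    intro n v
    rw [Module.End.pow_apply]
    rfl
  obtain ⟨ν, hν⟩ := LinearMap.exists_eq_smul_id_of_forall_notLinearIndependent (f := T ^ (p ^ m)) (by
    intro v hv
    rw [LinearIndependent.pair_iff] at hv
    obtain ⟨c, hc⟩ := hper v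
    have h3 := (hv c (-1) (by rw [hTn, hc, neg_one_smul, add_neg_cancel])).2
    exact one_ne_zero (neg_eq_zero.mp h3))
  obtain ⟨c, hc⟩ := h.2.1
  obtain ⟨κ, j, hκ, hκj⟩ := exists_norm Φ hp2 hζ hζ1 hζθ (by omega) (T := T) h.1.bij (c := c) hc hν
  have hdet : LinearMap.det (κ • T) = 1 :=
    det_iso_pow Φ hp hp2 hζ hζ1 hζθ (T := κ • T) hκ hκj
  let s : SpecialLinearGroup K E := mkSL _ hdet
  have hs : ∀ v, s v = κ • g v := fun v => rfl
  have hsT : toEnd s = κ • T := rfl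
  have hsI : s ∈ IsoQ Q := by
    refine iso_of_norm hQ hX h4 (T := κ • T) hκ ?_
    intro x hx
    obtain ⟨y, hy, -⟩ := h.2.2 ⟨x, hx⟩
    refine ⟨y.1, y.2, fun v => ?_⟩
    change κ • g (x v) = y.1 (κ • g v)
    rw [hy v, sl_smul]
  have hsj : s ^ (p ^ j) = 1 := by
    apply toEnd_injective
    rw [BN.toEnd_pow, hsT, hκj, toEnd_one]
  have hsX : s ∈ X := odd_mem hQ hX hsI (hp2.pow (n := j)) hsj
  have key : ∀ x : X, r * (π x : G) * r⁻¹ = π ⟨s, hsX⟩ * π x * (π ⟨s, hsX⟩ : G)⁻¹ := by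
    intro x
    obtain ⟨y, hy, hxy⟩ := h.2.2 x
    have h3 : s * x = y * s := by
      refine SpecialLinearGroup.ext _ _ fun v => ?_
      change s (x.1 v) = y.1 (s v)
      rw [hs, hs, hy v, sl_smul]
    have h4 : y = ⟨s, hsX⟩ * x * (⟨s, hsX⟩ : X)⁻¹ := by
      apply Subtype.ext
      change y.1 = s * x.1 * s⁻¹
      rw [h3, mul_inv_cancel_right]
    rw [hxy, h4, map_mul, map_mul, map_inv]
    rfl
  obtain ⟨s', hs'⟩ : ∃ s' : X, s' = ⟨s, hsX⟩ := ⟨_, rfl⟩
  rw [← hs'] at key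
  refine ⟨π s', (π s').2, (π s' : G)⁻¹ * r, ?_, by group⟩
  rw [Subgroup.mem_centralizer_iff]
  intro x hx
  obtain ⟨x₀, hx₀⟩ := hπ ⟨x, hx⟩
  have h3 := key x₀
  rw [hx₀] at h3
  have h4 : x = (π s' : G)⁻¹ * (r * x * r⁻¹) * π s' := by
    change r * x * r⁻¹ = π s' * x * (π s' : G)⁻¹ at h3
    rw [h3]
    group
  calc x * ((π s' : G)⁻¹ * r) = (π s' : G)⁻¹ * (r * x * r⁻¹) * π s' * ((π s' : G)⁻¹ * r) := by
        rw [← h4]
    _ = (π s' : G)⁻¹ * r * x := by group

end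

section

open Vale.Agent.P180.R2.H365.Oc

variable {K E T : Type} [Field K] [AddCommGroup E] [Module K E] [Group T] {Φ : HForm K E}
  {Q : E → K} (hQ : QF Φ Q)
  {X : Subgroup (SpecialLinearGroup K E)} {π : X →* T} (hX : OmX Q X)

include hQ hX in
/-- **The outer action is cyclic.** -/
theorem exists_cycQ [Finite K] [FiniteDimensional K E] [Finite T] {p : ℕ} [Fact p.Prime]
    (hp2 : Odd p) {ζ : K} (hζ : ζ ^ p = 1) (hζ1 : ζ ≠ 1) (h4 : 4 ≤ finrank K E)
    (hk : π.ker.map X.subtype ≤ Subgroup.center (SpecialLinearGroup K E))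
    (hπ : Function.Surjective π) {Γ : Subgroup (MulAut T)} (hΓ : IsPGroup p Γ)
    (hact : ∀ α ∈ Γ, ∃ (σ : K ≃+* K) (g : E → E), SimAct Φ π α σ g) :
    ∃ c : MulAut T, ∀ α ∈ Γ, ∃ (i : ℤ) (y : T), α = c ^ i * MulAut.conj y := by
  have hfin := sd_finite Γ
  obtain ⟨c, hcR, hc⟩ := exists_cycX (Φ := Φ) (π := SdM Γ π)
    (R := (SemidirectProduct.inr : Γ →* Sd Γ).range) (by
      rintro _ ⟨⟨α, hα⟩, rfl⟩
      obtain ⟨σ, g, h⟩ := hact α hα
      exact ⟨σ, g, h.actX hα⟩)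
  obtain ⟨c₁, rfl⟩ := hcR
  refine ⟨c₁, fun α hα => ?_⟩
  obtain ⟨n, g, hg⟩ := hc (SemidirectProduct.inr ⟨α, hα⟩) ⟨_, rfl⟩
  rw [← map_zpow, ← map_inv, ← map_mul] at hg
  obtain ⟨m, hm⟩ := hΓ ((c₁ ^ n)⁻¹ * ⟨α, hα⟩)
  obtain ⟨s, ⟨y, rfl⟩, c', hc', h1⟩ := linearX hQ hX h4 hp2 hζ hζ1
    (by rw [ker_SdM]; exact hk) (surj_SdM hπ) hg (m := m) (by rw [← map_pow, hm, map_one])
  refine ⟨n, y, ?_⟩
  have key : ∀ t : T, ((((c₁ ^ n)⁻¹ * ⟨α, hα⟩ : Γ) : MulAut T) t) = y * t * y⁻¹ := by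
    intro t
    apply SemidirectProduct.inl_injective (φ := Γ.subtype)
    rw [← sd_conj, h1]
    have h3 : (SemidirectProduct.inl t : Sd Γ) * c' = c' * SemidirectProduct.inl t :=
      Subgroup.mem_centralizer_iff.mp hc' _ ⟨t, rfl⟩
    rw [map_mul, map_mul, map_inv]
    calc (SemidirectProduct.inl y : Sd Γ) * c' * SemidirectProduct.inl t *
          (SemidirectProduct.inl y * c')⁻¹ =
        SemidirectProduct.inl y * (c' * SemidirectProduct.inl t) * c'⁻¹ *
          (SemidirectProduct.inl y)⁻¹ := by group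
      _ = SemidirectProduct.inl y * (SemidirectProduct.inl t * c') * c'⁻¹ *
          (SemidirectProduct.inl y)⁻¹ := by rw [h3]
      _ = _ := by group
  have h4 : (((c₁ ^ n)⁻¹ * ⟨α, hα⟩ : Γ) : MulAut T) = MulAut.conj y := by
    ext t
    rw [key, MulAut.conj_apply]
  rw [← h4]
  change α = (c₁ : MulAut T) ^ n * (((c₁ : MulAut T) ^ n)⁻¹ * α)
  rw [mul_inv_cancel_left]

end

end Vale.Agent.P180.R2.H259.Oq
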