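import Vale.Agent.P180.R2.H259.Oq.C3
import Vale.Agent.P180.R2.H259.Oq.C1
import Vale.Agent.P180.R2.H365.OcB

/-!
P180: the split parabolic system of `Ω(Q)` is compatible with `p`-groups of automorphisms which act
by semilinear similitudes (characteristic two).
-/

set_option linter.all false

namespace Vale.Agent.P180.R2.H259.Oq

open Module Vale.Agent.P180 Vale.Agent.P180.R2.H799 Vale.Agent.P180.R2.H854
  Vale.Agent.P180.R2.H799.BS Vale.Agent.P180.R2.H259.Loc Vale.Agent.P180.R2.H365.Oc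
open Vale.Agent.P180.R2.H799.BN (span_EV_of_lt comm_of_span finite_sl sl_ext pow_apply_eigen
  comm_of_BD)

variable {K E T : Type} [Field K] [AddCommGroup E] [Module K E] [Group T] {Φ : HForm K E}
  {qf : E → K} (hq : QF Φ qf)
  {X : Subgroup (SpecialLinearGroup K E)} {π : X →* T} (hX : OmX qf X)

include hq hX in
theorem stab_formQ [Finite K] [FiniteDimensional K E] {p : ℕ} [Fact p.Prime]
    (hp2 : Odd p) {ζ : K} (hζ : ζ ^ p = 1) (hζ1 : ζ ≠ 1)
    (hgeo : FlagGeo X (Vale.Agent.P180.R2.H471.Oq.CQ Φ qf)) (hK : ¬ p ∣ Nat.card K)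
    (hp1 : p ∣ Nat.card K - 1) (hlt : finrank K E < p) (h4 : 4 ≤ finrank K E)
    (hk : π.ker.map X.subtype ≤ Subgroup.center (SpecialLinearGroup K E))
    (hπ : Function.Surjective π) {Γ : Subgroup (MulAut T)} (hΓ : IsPGroup p Γ)
    (hact : ∀ α ∈ Γ, ∃ (σ : K ≃+* K) (g : E → E), SimAct Φ π α σ g) {Q : Subgroup X}
    (hQ : ∀ x, x ∈ Q ↔ (∃ i, x ^ p ^ i = 1) ∧ MulAut.conj (π x) ∈ Γ) :
    ParStab (hgeo.sys p Fact.out hK) π Γ Q := by
  classical
  have hXQ : X ≤ IsoQ qf := fun g hg => ((hX g).mp hg).1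
  have hXI : X ≤ Φ.Iso := hXQ.trans hq.le
  have hζθ : Φ.θ ζ = ζ := hq.th ζ
  have hV : ∀ F, Vale.Agent.P180.R2.H471.Oq.CQ Φ qf F → VF F ⊓ IsoQ qf ≤ X := by
    rw [← CQ_eq hq]
    exact fun F hF => VF_le_X hq hX hF
  have hp : p.Prime := Fact.out
  have hfG : Finite (SpecialLinearGroup K E) := finite_sl
  have hq1 : 1 < Nat.card K := Finite.one_lt_card
  have hQp : IsPGroup p Q := by
    rintro ⟨x, hx⟩
    obtain ⟨i, hi⟩ := ((hQ x).mp hx).1
    exact ⟨i, Subtype.ext hi⟩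
  -- the image in the special linear group
  obtain ⟨Q', hQ'⟩ : ∃ Q', Q' = Q.map X.subtype := ⟨_, rfl⟩
  have hQ'p : IsPGroup p Q' := by rw [hQ']; exact hQp.map _
  have hQ'X : Q' ≤ X := by
    rw [hQ']
    rintro _ ⟨x, -, rfl⟩
    exact x.2
  have hQ'Q : Q'.subgroupOf X = Q := by
    apply Subgroup.map_injective X.subtype_injective
    rw [map_subgroupOf_eq, inf_eq_left.mpr hQ'X, hQ']
  have hspan : Submodule.span K (BN.EV Q') = ⊤ := span_EV_of_lt hQ'p hp1 hlt
  have hQ'ab := comm_of_span hspan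
  have hmemQ' : ∀ y ∈ Q, (y : SpecialLinearGroup K E) ∈ Q' := by
    intro y hy
    rw [hQ']
    exact ⟨y, hy, rfl⟩
  have hQab : ∀ x ∈ Q, ∀ y ∈ Q, x * y = y * x := fun x hx y hy =>
    Subtype.ext (hQ'ab x (hmemQ' x hx) y (hmemQ' y hy))
  refine ⟨hQab, fun hmax => ?_⟩
  obtain ⟨F, N, ι, hι, b, α, w, hw, hα, hN0, hFN, hFp, hF, hB, hC⟩ :=
    Φ.exists_sd_data hp hp2 hζ hζ1 hζθ (hQ'X.trans hXI) hQ'p hspan
  have hb0 : ∀ l, 2 * α l + 1 ≠ N → qf (b l) = 0 := by
    intro l hl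
    by_contra hne
    apply hl
    have hwp : ∀ (l : ι) (g : Q'), ∃ m, w l g ^ p ^ m = 1 := by
      intro l g
      obtain ⟨m, hm⟩ := hQ'p g
      refine ⟨m, ?_⟩
      have h1 := pow_apply_eigen (hw l g) (p ^ m)
      have h2 : (g : SpecialLinearGroup K E) ^ p ^ m = 1 := congrArg Subtype.val hm
      rw [h2] at h1
      have h3 : (w l g ^ p ^ m - 1) • b l = 0 := by
        rw [sub_smul, one_smul, ← h1, sub_eq_zero]
        rfl
      exact sub_eq_zero.mp ((smul_eq_zero.mp h3).resolve_right (b.ne_zero l))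
    have hone : ∀ g : Q', w l g = 1 := by
      intro g
      have h1 : qf (g.1 (b l)) = qf (b l) := hXQ (hQ'X g.2) (b l)
      rw [hw l g, hq.smul] at h1
      have h2 : w l g ^ 2 = 1 := mul_right_cancel₀ hne (by rw [h1, one_mul])
      obtain ⟨m, hm⟩ := hwp l g
      have h3 := pow_odd_eq h2 (hp2.pow (n := m))
      rw [← h3, hm]
    obtain ⟨m, hm⟩ : ∃ m, Φ.B (b l) (b m) ≠ 0 := by
      by_contra hcon
      push Not at hcon
      apply b.ne_zero l
      apply Φ.nondeg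
      intro y
      have h1 : (⊤ : Submodule K E) ≤ LinearMap.ker (Φ.fn (b l)) := by
        rw [← b.span_eq, Submodule.span_le]
        rintro _ ⟨m, rfl⟩
        exact Φ.eq_zero_comm (hcon m)
      exact Φ.eq_zero_comm (h1 (Submodule.mem_top (x := y)))
    have h1 : α l + α m + 1 = N := by
      by_contra h
      exact hm (hB l m h)
    have h2 : w l = w m := by
      funext g
      have h3 := hXI (hQ'X g.2) (b l) (b m)
      have h4 : (g : SpecialLinearGroup K E) (b l) = w l g • b l := hw l g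
      have h5 : (g : SpecialLinearGroup K E) (b m) = w m g • b m := hw m g
      rw [h4, h5, Φ.smul_left, hq.smul_r, hone g, one_mul] at h3
      rw [hone g]
      exact (mul_right_cancel₀ hm (by rw [h3, one_mul])).symm
    have h3 : α l = α m := (hα l m).mpr h2
    omega
  have hFS : Vale.Agent.P180.R2.H471.Oq.CQ Φ qf F :=
    ⟨N, hN0, hFN, hFp, Vale.Agent.P180.R2.H471.Oq.sing_of_basis hq hF hB hb0⟩
  have hN : ∀ l, α l < N := fun l => hF.self_mem_iff.mp (by rw [hFN]; trivial)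
  have hpair : IsLeviPair ((VF F).subgroupOf X) Q := by
    rw [← hQ'Q]
    exact hgeo.levi hFS hF
      (Vale.Agent.P180.R2.H471.Oq.dg_mem_XQ hq hXQ hV hF hN0 hFN hFp hB hb0) hQ'X hC
  have hcard : Fintype.card ι < p := by rw [← finrank_eq_card_basis b]; exact hlt
  -- `|K| - 1`
  obtain ⟨s, N', hpN, hqq⟩ : ∃ s N' : ℕ, ¬ p ∣ N' ∧ Nat.card K - 1 = p ^ s * N' :=
    Nat.exists_eq_pow_mul_and_not_dvd (by omega) p hp.ne_one
  have hs : 0 < s := by
    rw [Nat.pos_iff_ne_zero]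
    intro h0
    rw [h0, pow_zero, one_mul] at hqq
    rw [hqq] at hp1
    exact hpN hp1
  obtain ⟨M₀, hM₀⟩ : ∃ M₀ : Subgroup X, M₀ = (M0 b α Q' N' (fun g => (hC g).mp)).subgroupOf X :=
    ⟨_, rfl⟩
  have hM₀' : ∀ x : X, x ∈ M₀ ↔ (x : SpecialLinearGroup K E) ∈ M0 b α Q' N'
      (fun g => (hC g).mp) := by
    intro x
    rw [hM₀]
    exact Iff.rfl
  have hM₀C : ∀ x ∈ M₀, (x : SpecialLinearGroup K E) ∈
      Subgroup.centralizer (Q' : Set (SpecialLinearGroup K E)) := by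
    intro x hx
    rw [hM₀'] at hx
    exact hx.1
  have hCX : ∀ x : X, x ∈ Subgroup.centralizer (Q : Set X) ↔
      (x : SpecialLinearGroup K E) ∈ Subgroup.centralizer (Q' : Set (SpecialLinearGroup K E)) := by
    intro x
    rw [Subgroup.mem_centralizer_iff, Subgroup.mem_centralizer_iff]
    constructor
    · intro h y hy
      rw [hQ'] at hy
      obtain ⟨y, hy, rfl⟩ := hy
      exact congrArg Subtype.val (h y hy)
    · intro h y hy
      exact Subtype.ext (h y.1 (hmemQ' y hy))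
  -- the blocks are preserved
  have hphi : ∀ β ∈ Γ, ∀ (σ : K ≃+* K) (g : E → E), SimAct Φ π β σ g → ∃ φ : Q' → Q',
      Function.Surjective φ ∧ ∀ x : Q',
        Tw g (x : SpecialLinearGroup K E) (φ x : SpecialLinearGroup K E) := by
    intro β hβ σ g hg
    rw [hQ']
    refine exists_phi hQp (fun x hx y hy hxy => (hQ y).mpr ⟨hy, ?_⟩) hg
    have h1 : MulAut.conj (π y) = β * MulAut.conj (π x) * β⁻¹ := by
      ext t
      rw [← hxy, MulAut.mul_apply, MulAut.mul_apply, MulAut.conj_apply, MulAut.conj_apply,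
        map_mul, map_mul, map_inv, MulAut.apply_inv_self]
    rw [h1]
    exact Γ.mul_mem (Γ.mul_mem hβ ((hQ x).mp hx).2) (Γ.inv_mem hβ)
  have hgb : ∀ β ∈ Γ, ∀ (σ : K ≃+* K) (g : E → E), SimAct Φ π β σ g →
      ∀ l m, b.repr (g (b l)) m ≠ 0 → α m = α l := by
    intro β hβ σ g hg l m hm
    obtain ⟨φ, hφ, hφg⟩ := hphi β hβ σ g hg
    obtain ⟨j, hj⟩ := hΓ ⟨β, hβ⟩
    have h1 := wt_fixed b w hw hcard hg.1 φ hφ hφg (m := j)
      (perX hq hX h4 (hg.actX hβ) (by rw [ker_SdM]; exact hk) (by rw [← map_pow, hj, map_one])) l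
    rw [hα]
    exact wt_repr b w hw h1 hm
  refine ⟨(VF F).subgroupOf X, ⟨VF F, ⟨F, hFS, rfl⟩, rfl⟩, M₀, hpair, ?_, ?_, fun β hβ => ⟨?_, ?_⟩⟩
  · rw [eq_bot_iff]
    rintro x ⟨hx, hxQ⟩
    obtain ⟨m, hm⟩ := hQp ⟨x, hxQ⟩
    have hx' := (hM₀' x).mp hx
    have h3 := m0_inf hcard hC hw hα hpN hx' (hmemQ' x hxQ)
      (congrArg (fun y : Q => (y : X).1) hm) (Subgroup.one_mem _) (n := 1)
      (fun h => hp.one_lt.ne' (Nat.dvd_one.mp h)) (one_pow 1)
      (show x.1 = x.1 * 1 by rw [mul_one])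
    exact Subgroup.mem_bot.mpr (Subtype.ext h3)
  · apply le_antisymm
    · refine sup_le (fun x hx => (hCX x).mpr (hM₀C x hx)) fun x hx => ?_
      rw [Subgroup.mem_centralizer_iff]
      exact fun y hy => hQab y hy x hx
    · intro x hx
      obtain ⟨m, hm, q, hqI, c, hcp, hqb, hxmq⟩ := exists_cov_iso Φ hp2 hζ hζ1 hζθ hcard hC hN hB
        hqq hpN hs (hXI x.2) ((hCX x).mp hx)
      have hqs : q ^ (p ^ s) = 1 := sl_ext b fun l => by
        rw [pow_apply_eigen (hqb l), hcp, one_smul]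
        rfl
      have hqIQ : q ∈ IsoQ qf := by
        refine Vale.Agent.P180.R2.H471.Oq.mem_IsoQ_of_basis hq b hqI fun l => ?_
        rw [hqb l, hq.smul]
        by_cases hl : 2 * α l + 1 = N
        · obtain ⟨m', hm'⟩ : ∃ m, Φ.B (b l) (b m) ≠ 0 := by
            by_contra hcon
            push Not at hcon
            apply b.ne_zero l
            apply Φ.nondeg
            intro y
            have h1 : (⊤ : Submodule K E) ≤ LinearMap.ker (Φ.fn (b l)) := by
              rw [← b.span_eq, Submodule.span_le]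
              rintro _ ⟨m, rfl⟩
              exact Φ.eq_zero_comm (hcon m)
            exact Φ.eq_zero_comm (h1 (Submodule.mem_top (x := y)))
          have h1 : α l + α m' + 1 = N := by
            by_contra h
            exact hm' (hB l m' h)
          have h2 : α m' = α l := by omega
          have h3 := hqI (b l) (b m')
          rw [hqb l, hqb m', h2, Φ.smul_left, hq.smul_r, ← mul_assoc] at h3
          have h5 : c (α l) ^ 2 = 1 := by
            rw [_root_.sq]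
            exact mul_right_cancel₀ hm' (by rw [h3, one_mul])
          rw [h5, one_mul]
        · rw [hb0 l hl, mul_zero]
      have hqX : q ∈ X := odd_mem hq hX hqIQ (hp2.pow (n := s)) hqs
      have hmX : m ∈ X := by
        have h4 : m = x * q⁻¹ := by rw [hxmq, mul_inv_cancel_right]
        rw [h4]
        exact X.mul_mem x.2 (X.inv_mem hqX)
      have hqC : (⟨q, hqX⟩ : X) ∈ Subgroup.centralizer (Q : Set X) :=
        (hCX _).mpr ((hC q).mpr (bd_diag hqb))
      have hqQ : (⟨q, hqX⟩ : X) ∈ Q := by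
        refine hmax _ hqC ⟨s, Subtype.ext hqs⟩ fun y hy => ?_
        exact Subtype.ext (comm_of_BD (c := fun l => c (α l)) ((hC y.1).mp ((hCX y).mp hy)) hqb
          fun l m h => by simp only [h])
      have hx1 : x = ⟨m, hmX⟩ * ⟨q, hqX⟩ := Subtype.ext hxmq
      rw [hx1]
      exact Subgroup.mul_mem_sup ((hM₀' _).mpr hm) hqQ
  · rintro _ ⟨x, hx, rfl⟩
    obtain ⟨σ, g, hg⟩ := hact β hβ
    obtain ⟨y, hy, hxy⟩ := hg.2.2 x
    exact ⟨y, VF_semi hF hg.1 (hgb β hβ σ g hg) hy hx, hxy.symm⟩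
  · rintro _ ⟨x, hx, rfl⟩
    obtain ⟨σ, g, hg⟩ := hact β hβ
    obtain ⟨y, hy, hxy⟩ := hg.2.2 x
    refine ⟨y, ?_, hxy.symm⟩
    obtain ⟨φ, hφ, hφg⟩ := hphi β hβ σ g hg
    have hx' := (hM₀' x).mp hx
    refine (hM₀' y).mpr ⟨?_, fun i => ?_⟩
    · rw [Subgroup.mem_centralizer_iff]
      intro q hq
      obtain ⟨q', hq'⟩ := hφ ⟨q, hq⟩
      have h3 := hφg q'
      rw [hq'] at h3
      have h4 : (q' : SpecialLinearGroup K E) * x = x * q' :=
        Subgroup.mem_centralizer_iff.mp hx'.1 _ q'.2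
      have h5 := h3.mul hy
      have h6 := hy.mul h3
      rw [← h4] at h6
      exact Tw.unique hg.1.bij.2 h5 h6
    · have h3 : bdet b α i (toEnd y.1) = σ (bdet b α i (toEnd x.1)) :=
        bdet_semi b α i hg.1 (hgb β hβ σ g hg) (X := toEnd x.1) (Y := toEnd y.1) hy
      rw [h3, ← map_pow, hx'.2 i, map_one]

end Vale.Agent.P180.R2.H259.Oq
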