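import Vale.Agent.P180.R2.H259.Oq.C4

/-!
P180: the split parabolic system of perfect central extensions of `Ω(Q)`, with an action by
semilinear similitudes (characteristic two).
-/

set_option linter.all false

namespace Vale.Agent.P180.R2.H259.Oq

open Module Vale.Agent.P180 Vale.Agent.P180.R2.H799 Vale.Agent.P180.R2.H854
  Vale.Agent.P180.R2.H799.BS Vale.Agent.P180.R2.H259.Loc Vale.Agent.P180.R2.H365.Oc
  Vale.Agent.P180.R2.H259
open Vale.Agent.P180.R2.H799.BN (span_EV_of_lt comm_of_span finite_sl sl_ext pow_apply_eigen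
  comm_of_BD)

variable {K E T : Type} [Field K] [AddCommGroup E] [Module K E] [Group T] {Φ : HForm K E}
  {qf : E → K} (hq : QF Φ qf)
  {X : Subgroup (SpecialLinearGroup K E)} {π : X →* T} (hX : OmX qf X)

include hq hX in
/-- **The split parabolic system of `Ω(Q)`**, with an action by semilinear similitudes. -/
theorem parOutZQ [FiniteDimensional K E] [Finite K] [Finite T] {p : ℕ} [Fact p.Prime]
    (hp2 : Odd p) {ζ : K} (hζ : ζ ^ p = 1) (hζ1 : ζ ≠ 1)
    (h4 : 4 ≤ finrank K E) (hlt : finrank K E < p)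
    (hπ : Function.Surjective π)
    (hcen : ∀ x : X, π x ∈ Subgroup.center T → x.1 ∈ Subgroup.center (SpecialLinearGroup K E))
    {z : ℕ} (hz : (Nat.card K).Coprime z) {Γ : Subgroup (MulAut T)} (hΓ : IsPGroup p Γ)
    (hact : ∀ α ∈ Γ, ∃ (σ : K ≃+* K) (g : E → E), SimAct Φ π α σ g) :
    H259.Cen.ParOutZ p z T Γ := by
  have hp : p.Prime := Fact.out
  have hfG : Finite (SpecialLinearGroup K E) := finite_sl
  have hq1 : 1 < Nat.card K := Finite.one_lt_card
  have hc : ∃ c : K, c ^ 2 ≠ c := by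
    refine ⟨ζ, fun h => ?_⟩
    have h1 : ζ * (ζ - 1) = 0 := by linear_combination h
    rcases mul_eq_zero.mp h1 with h2 | h2
    · rw [h2, zero_pow (Fact.out : p.Prime).ne_zero] at hζ
      exact zero_ne_one hζ
    · exact hζ1 (sub_eq_zero.mp h2)
  have hgeo := flagGeo hq hX hc
  have hV : ∀ F, CQ Φ qf F → VF F ⊓ IsoQ qf ≤ X := fun F hF => VF_le_X hq hX hF
  rw [CQ_eq hq] at hgeo hV
  have hXq : X ≤ IsoQ qf := fun g hg => ((hX g).mp hg).1
  have hXI : X ≤ Φ.Iso := hXq.trans hq.le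
  have hζθ : Φ.θ ζ = ζ := hq.th ζ
  have hodd : ∀ g ∈ IsoQ qf, ∀ m, Odd m → g ^ m = 1 → g ∈ X :=
    fun g hg m hm h => odd_mem hq hX hg hm h
  have hbas : ∀ F, Vale.Agent.P180.R2.H471.Oq.CQ Φ qf F →
      Vale.Agent.P180.R2.H471.Oq.SqBasis Φ qf F := fun F hF => sqBasis hq hF
  have hk : π.ker.map X.subtype ≤ Subgroup.center (SpecialLinearGroup K E) := by
    rintro _ ⟨x, hx, rfl⟩
    refine hcen x ?_
    rw [MonoidHom.mem_ker.mp hx]
    exact Subgroup.one_mem _
  have hζ0 : ζ ≠ 0 := by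
    rintro rfl
    rw [zero_pow hp.ne_zero] at hζ
    exact zero_ne_one hζ
  have hp1 : p ∣ Nat.card K - 1 := by
    have h1 : orderOf (Units.mk0 ζ hζ0) = p := by
      apply orderOf_eq_prime
      · ext
        simpa using hζ
      · intro h
        exact hζ1 (by simpa using congrArg Units.val h)
    rw [← Nat.card_units, ← h1]
    exact orderOf_dvd_natCard _
  have hKp : ¬ p ∣ Nat.card K := by
    intro hd
    have h1 := Nat.dvd_sub hd hp1
    rw [Nat.sub_sub_self hq1.le, Nat.dvd_one] at h1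
    exact hp.one_lt.ne' h1
  have hZX : (Subgroup.center X).map X.subtype ≤
      Subgroup.center (SpecialLinearGroup K E) := by
    rintro _ ⟨x, hx, rfl⟩
    refine hcen x ?_
    rw [Subgroup.mem_center_iff]
    intro l
    obtain ⟨y, rfl⟩ := hπ l
    rw [← map_mul, ← map_mul, Subgroup.mem_center_iff.mp hx y]
  have hcardZ : Nat.card (Subgroup.center X) = Nat.card ((Subgroup.center X).map X.subtype) :=
    (Subgroup.card_map_of_injective X.subtype_injective).symm
  refine ⟨exists_cycQ hq hX hp2 hζ hζ1 h4 hk hπ hΓ hact, X, inferInstance,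
    inferInstance, hgeo.sys p hp hKp, π, hπ,
    Vale.Agent.P180.R2.H471.Oq.hasLeviQ hq hp hKp hgeo hXq hV hodd hbas hp2 hζ hζ1,
    ?_, ?_, ?_, ?_⟩
  · intro hd
    obtain ⟨x, hx⟩ := exists_prime_orderOf_dvd_card' p hd
    have h1 : x.1.1 ^ p ^ 1 = 1 := by
      have h2 : x ^ p = 1 := by
        rw [← hx]
        exact pow_orderOf_eq_one x
      rw [pow_one]
      exact congrArg (fun w : Subgroup.center X => w.1.1) h2
    have h3 := Φ.scalar_eq_one hp hp2 hζ hζ1 hζθ (hXI x.1.2) (hZX ⟨x.1, x.2, rfl⟩) h1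
    have h4 : x = 1 := Subtype.ext (Subtype.ext h3)
    rw [h4, orderOf_one] at hx
    exact hp.one_lt.ne hx
  · rintro _ ⟨_, ⟨F, hF, rfl⟩, rfl⟩
    have h1 : Nat.card ((VF F).subgroupOf X) ∣ Nat.card (VF F) := by
      have e : Nat.card ((VF F).subgroupOf X) =
          Nat.card (VF F ⊓ X : Subgroup (SpecialLinearGroup K E)) := by
        rw [← map_subgroupOf_eq]
        exact (Subgroup.card_map_of_injective X.subtype_injective).symm
      rw [e]
      exact Subgroup.card_dvd_of_le inf_le_left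
    constructor
    · rw [hcardZ]
      exact Nat.Coprime.coprime_dvd_left h1 (coprime_center hZX F)
    · refine Nat.Coprime.coprime_dvd_left h1 ?_
      rw [card_VF]
      exact Nat.Coprime.pow_left _ hz
  · intro x hx
    rw [Subgroup.mem_center_iff]
    intro y
    exact Subtype.ext (Subgroup.mem_center_iff.mp (hcen x hx) y.1)
  · intro Γ' hΓ' Q hQ
    exact stab_formQ hq hX hp2 hζ hζ1 hgeo hKp hp1 hlt h4 hk hπ (hΓ.to_le hΓ')
      (fun α hα => hact α (hΓ' hα)) hQ


include hq hX in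
/-- **Perfect central extensions of `Ω(Q)`**, dimension less than `p`, `p` dividing `|K| - 1`, with an
action by semilinear similitudes. -/
theorem parOut_cover [FiniteDimensional K E] [Finite K] {p : ℕ} [Fact p.Prime] (hp2 : Odd p)
    {ζ : K} (hζ : ζ ^ p = 1) (hζ1 : ζ ≠ 1) (h4 : 4 ≤ finrank K E) (hd : finrank K E < p)
    {L : Type} [Group L] [Finite L] (hL : commutator L = ⊤) {π : X →* L ⧸ Subgroup.center L}
    (hπ : Function.Surjective π) (hcen : Subgroup.center (L ⧸ Subgroup.center L) = ⊥)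
    (hker : ∀ x : X, π x = 1 → x.1 ∈ Subgroup.center (SpecialLinearGroup K E))
    (hrk : (Nat.card K).Coprime (Nat.card (Subgroup.center L))) {Γ : Subgroup (MulAut L)}
    {Γ₁ : Subgroup (MulAut (L ⧸ Subgroup.center L))} (hΓ₁ : IsPGroup p Γ₁)
    (hΓ : ∀ α ∈ Γ, ∃ β ∈ Γ₁, ∀ s : L, ((α s : L) : L ⧸ Subgroup.center L) = β (s : L ⧸ _))
    (hact : ∀ β ∈ Γ₁, ∃ (σ : K ≃+* K) (g : E → E), SimAct Φ π β σ g) : ParOut p L Γ := by
  have hkk : (QuotientGroup.mk' (Subgroup.center L)).ker = Subgroup.center L :=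
    QuotientGroup.ker_mk' _
  have hpk := not_dvd_centerQ hq hX hp2 hζ hζ1 hd hL
    (QuotientGroup.mk'_surjective (Subgroup.center L)) hkk.le π hπ
  refine Cen.parOut_lift (QuotientGroup.mk'_surjective (Subgroup.center L)) hkk.le hL
    (by rw [hkk]; exact hpk) (Γ := Γ) (Γ₁ := Γ₁) hΓ
    (parOutZQ hq hX hp2 hζ hζ1 h4 hd hπ (fun x hx => ?_) (by rw [hkk]; exact hrk) hΓ₁ hact)
  rw [hcen, Subgroup.mem_bot] at hx
  exact hker x hx

end Vale.Agent.P180.R2.H259.Oq
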